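import Vale.Agent.P295.Stable

/-! Failure of cancellation in dimension four. -/

namespace Vale.Agent.P295

theorem cancellation_fails (k : Type) [Field k] [CharZero k] :
    ∃ (A : Type) (_ : CommRing A) (_ : Algebra k A), Algebra.FiniteType k A ∧
      Nonempty (Polynomial A ≃ₐ[k] MvPolynomial (Fin 5) k) ∧
      IsEmpty (A ≃ₐ[k] MvPolynomial (Fin 4) k) := by
  refine ⟨Fam (pA k 2 4), inferInstance, inferInstance, Fam.finiteType' _ k, ?_, ⟨fun e => ?_⟩⟩
  · obtain ⟨e, -⟩ := stable_poly k 2 4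
    exact ⟨e⟩
  · exact not_poly (by norm_num) (by norm_num) e (Or.inr ⟨rfl, rfl⟩)

end Vale.Agent.P295
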