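import Mathlib

/-! Coordinates and stable coordinates of complex polynomial rings. -/

namespace Vale.Agent.P295

/-- `f` is a coordinate of `ℂ[x₁,…,xₙ]`: it is a member of an `n`-tuple of polynomials that
generates the whole polynomial ring as a `ℂ`-algebra. -/
def IsCoordinate {n : ℕ} (f : MvPolynomial (Fin n) ℂ) : Prop :=
  ∃ g : Fin n → MvPolynomial (Fin n) ℂ, (∃ i, g i = f) ∧ Algebra.adjoin ℂ (Set.range g) = ⊤

/-- `f` is an `m`-stable coordinate: it is a coordinate of the polynomial ring in `n + m`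
variables obtained by adjoining `m` new variables. -/
def IsStableCoordinateOfOrder {n : ℕ} (m : ℕ) (f : MvPolynomial (Fin n) ℂ) : Prop :=
  IsCoordinate (MvPolynomial.rename (Fin.castAdd m) f : MvPolynomial (Fin (n + m)) ℂ)

/-- `f` is a stable coordinate: an `m`-stable coordinate for some `m ≥ 1`. -/
def IsStableCoordinate {n : ℕ} (f : MvPolynomial (Fin n) ℂ) : Prop :=
  ∃ m : ℕ, 1 ≤ m ∧ IsStableCoordinateOfOrder m f

/-- The quadratic form `Q = x₂² - x₄² + x₁ x₃` (with `x₁,…,x₄` written `X 0,…,X 3`). -/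
noncomputable def quadQ : MvPolynomial (Fin 4) ℂ :=
  MvPolynomial.X 1 ^ 2 - MvPolynomial.X 3 ^ 2 + MvPolynomial.X 0 * MvPolynomial.X 2

/-- The degree five polynomial `f = x₁ - 2 Q (Q (x₂ + x₄) + x₁ x₄)`. -/
noncomputable def polyF : MvPolynomial (Fin 4) ℂ :=
  MvPolynomial.X 0 - 2 * quadQ *
    (quadQ * (MvPolynomial.X 1 + MvPolynomial.X 3) + MvPolynomial.X 0 * MvPolynomial.X 3)

end Vale.Agent.P295
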