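import Vale.Agent.P295.LND

/-! Degeneration of a locally nilpotent derivation along a Rees-type algebra. -/

namespace Vale.Agent.P295

open LaurentPolynomial

section laurent

variable {k A : Type*} [CommRing k] [CommRing A] [Algebra k A]

/-- coefficientwise action of an additive map on Laurent polynomials -/
noncomputable def lmap (f : A →+ A) : A[T;T⁻¹] →+ A[T;T⁻¹] where
  toFun := AddMonoidAlgebra.map f
  map_zero' := AddMonoidAlgebra.map_zero f
  map_add' := AddMonoidAlgebra.map_add f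

theorem lmap_C_mul_T (f : A →+ A) (a : A) (n : ℤ) : lmap f (C a * T n) = C (f a) * T n := by
  rw [← single_eq_C_mul_T, ← single_eq_C_mul_T]
  exact AddMonoidAlgebra.map_single f a n

/-- The extension of a locally nilpotent derivation to Laurent polynomials. -/
noncomputable def LND.laurent (D : LND k A) : LND k A[T;T⁻¹] where
  toFun := lmap D.toFun
  leibniz a b := by
    induction a using LaurentPolynomial.induction_on' with
    | add p q hp hq => simp only [add_mul, map_add, hp, hq]; ring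
    | C_mul_T n a =>
      induction b using LaurentPolynomial.induction_on' with
      | add p q hp hq => simp only [mul_add, map_add, hp, hq]; ring
      | C_mul_T m b =>
        have h1 : (C a * T n * (C b * T m) : A[T;T⁻¹]) = C (a * b) * T (n + m) := by
          rw [map_mul, T_add]; ring
        rw [h1, lmap_C_mul_T, lmap_C_mul_T, lmap_C_mul_T, D.leibniz, map_add, map_mul, map_mul,
          T_add]
        ring
  const c := by
    have : algebraMap k A[T;T⁻¹] c = C (algebraMap k A c) * T 0 := by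
      rw [LaurentPolynomial.algebraMap_apply]; simp
    rw [this, lmap_C_mul_T, D.const]; simp
  nil a := by
    induction a using LaurentPolynomial.induction_on' with
    | add p q hp hq =>
      obtain ⟨n, hn⟩ := hp
      obtain ⟨m, hm⟩ := hq
      refine ⟨n + m, ?_⟩
      rw [iterate_map_add]
      have h1 : (lmap D.toFun : _ → _)^[n + m] p = 0 := by
        rw [add_comm, Function.iterate_add_apply, hn]
        exact Function.iterate_fixed (map_zero _) _
      have h2 : (lmap D.toFun : _ → _)^[n + m] q = 0 := by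
        rw [Function.iterate_add_apply, hm]
        exact Function.iterate_fixed (map_zero _) _
      rw [h1, h2, add_zero]
    | C_mul_T n a =>
      obtain ⟨m, hm⟩ := D.nil a
      refine ⟨m, ?_⟩
      have : ∀ i : ℕ, (lmap D.toFun : _ → _)^[i] (C a * T n) =
          C ((D.toFun : A → A)^[i] a) * T n := by
        intro i
        induction i with
        | zero => simp
        | succ i ih =>
          rw [Function.iterate_succ_apply', ih, lmap_C_mul_T, Function.iterate_succ_apply']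
      rw [this, hm]; simp

theorem LND.laurent_C_mul_T (D : LND k A) (a : A) (n : ℤ) :
    D.laurent.toFun (C a * T n) = C (D.toFun a) * T n := lmap_C_mul_T _ _ _

theorem LND.laurent_T (D : LND k A) (n : ℤ) : D.laurent.toFun (T n) = 0 := by
  have := D.laurent_C_mul_T 1 n
  simpa [D.map_one'] using this

end laurent

/-- Data of a Rees-type degeneration of `A` to `G` with total space `R`. -/
structure Rees (k A R G : Type*) [Field k] [CommRing A] [Algebra k A] [CommRing R] [Algebra k R]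
    [CommRing G] [Algebra k G] where
  ι : R →ₐ[k] A[T;T⁻¹]
  inj : Function.Injective ι
  ε : R
  ι_ε : ι ε = T 1
  sat : ∀ a : A, ∃ (n : ℤ) (r : R), ι r = C a * T n
  ρ : R →ₐ[k] G
  surj : Function.Surjective ρ
  ker : ∀ r, ρ r = 0 ↔ ε ∣ r

namespace Rees

variable {k A R G : Type*} [Field k] [CommRing A] [Algebra k A] [CommRing R] [Algebra k R]
    [CommRing G] [Algebra k G] (Q : Rees k A R G)

theorem ι_ε_pow (d : ℕ) : Q.ι (Q.ε ^ d) = T d := by
  rw [map_pow, Q.ι_ε, T_pow]; simp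

theorem up {f : A[T;T⁻¹]} {n m : ℤ} (h : ∃ r, Q.ι r = T n * f) (hnm : n ≤ m) :
    ∃ r, Q.ι r = T m * f := by
  obtain ⟨r, hr⟩ := h
  obtain ⟨d, rfl⟩ := Int.le.dest hnm
  refine ⟨Q.ε ^ d * r, ?_⟩
  rw [map_mul, Q.ι_ε_pow, hr, T_add]; ring

theorem sat' (f : A[T;T⁻¹]) : ∃ (n : ℤ) (r : R), Q.ι r = T n * f := by
  induction f using LaurentPolynomial.induction_on' with
  | add p q hp hq =>
    obtain ⟨n, hn⟩ := hp
    obtain ⟨m, hm⟩ := hq
    obtain ⟨r, hr⟩ := Q.up hn (le_max_left n m)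
    obtain ⟨r', hr'⟩ := Q.up hm (le_max_right n m)
    exact ⟨max n m, r + r', by rw [map_add, hr, hr', mul_add]⟩
  | C_mul_T n a =>
    obtain ⟨m, r, hr⟩ := Q.sat a
    refine ⟨m - n, r, ?_⟩
    rw [hr, mul_left_comm, ← T_add]; simp

theorem exists_lead [IsDomain A] [Nontrivial G] [Algebra.FiniteType k R] {a : A} (ha : a ≠ 0) :
    ∃ (r : R) (n : ℤ), Q.ι r = C a * T n ∧ Q.ρ r ≠ 0 := by
  have : IsDomain R := Q.inj.isDomain Q.ι
  have : IsNoetherianRing R := Algebra.FiniteType.isNoetherianRing k R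
  obtain ⟨n, r, hr⟩ := Q.sat a
  have hr0 : r ≠ 0 := by
    rintro rfl
    rw [map_zero, ← single_eq_C_mul_T] at hr
    exact ha (AddMonoidAlgebra.single_eq_zero.1 hr.symm)
  have hε : ¬ IsUnit Q.ε := by
    intro h
    have h1 : Q.ρ Q.ε = 0 := (Q.ker _).2 dvd_rfl
    exact not_isUnit_zero (h1 ▸ h.map Q.ρ)
  obtain ⟨d, r', hnd, rfl⟩ := WfDvdMonoid.max_power_factor' hr0 hε
  refine ⟨r', n - d, ?_, fun h => hnd ((Q.ker _).1 h)⟩
  rw [map_mul, Q.ι_ε_pow] at hr
  have : Q.ι r' = T (-d) * (T d * Q.ι r') := by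
    rw [← mul_assoc, ← T_add]; simp
  rw [this, hr, mul_left_comm, ← T_add]
  congr 2; ring

theorem exists_limit [IsDomain A] [Nontrivial G] [Algebra.FiniteType k R] (D : LND k A)
    (hD : ∃ a, D.toFun a ≠ 0) :
    ∃ D' : LND k G, (∃ g, D'.toFun g ≠ 0) ∧
      ∀ (r : R) (a : A) (n : ℤ), Q.ι r = C a * T n → D.toFun a = 0 → D'.toFun (Q.ρ r) = 0 := by
  classical
  let P : ℤ → Prop := fun n => ∀ r, ∃ r', Q.ι r' = T n * D.laurent.toFun (Q.ι r)
  have hinh : ∃ n, P n := by
    obtain ⟨s, hs⟩ := Algebra.FiniteType.out (R := k) (A := R)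
    choose N hN using fun r : R => Q.sat' (D.laurent.toFun (Q.ι r))
    obtain ⟨M, hM⟩ : ∃ M : ℤ, ∀ r ∈ s, N r ≤ M := by
      obtain ⟨M, hM⟩ := (s.image N).bddAbove
      exact ⟨M, fun r hr => hM (Finset.mem_coe.2 (Finset.mem_image_of_mem N hr))⟩
    refine ⟨M, fun r => ?_⟩
    have hr : r ∈ Algebra.adjoin k (s : Set R) := hs ▸ Algebra.mem_top
    induction hr using Algebra.adjoin_induction with
    | mem x hx => exact Q.up (hN x) (hM x hx)
    | algebraMap c => exact ⟨0, by rw [AlgHom.commutes, D.laurent.const]; simp⟩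
    | add x y _ _ hx hy =>
      obtain ⟨x', hx'⟩ := hx
      obtain ⟨y', hy'⟩ := hy
      exact ⟨x' + y', by rw [map_add, map_add, map_add, hx', hy', mul_add]⟩
    | mul x y _ _ hx hy =>
      obtain ⟨x', hx'⟩ := hx
      obtain ⟨y', hy'⟩ := hy
      refine ⟨x * y' + y * x', ?_⟩
      rw [map_add, map_mul, map_mul, map_mul, D.laurent.leibniz, hx', hy']; ring
  have hbdd : ∃ b : ℤ, ∀ n, P n → b ≤ n := by
    obtain ⟨a, ha⟩ := hD
    obtain ⟨m, r, hr⟩ := Q.sat a
    obtain ⟨r₀, n₀, hr₀, hρ⟩ := Q.exists_lead ha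
    refine ⟨n₀ - m, fun n hn => ?_⟩
    by_contra hlt
    obtain ⟨r', hr'⟩ := hn r
    rw [hr, D.laurent_C_mul_T] at hr'
    obtain ⟨d, hd⟩ := Int.le.dest (show n + m + 1 ≤ n₀ by omega)
    apply hρ
    rw [Q.ker]
    refine ⟨Q.ε ^ d * r', Q.inj ?_⟩
    rw [map_mul, map_mul, Q.ι_ε, Q.ι_ε_pow, hr', hr₀, ← hd, T_add, T_add, T_add]; ring
  obtain ⟨n, hn, hmin⟩ := Int.exists_least_of_bdd hbdd hinh
  choose d hd using hn
  have d_add : ∀ x y, d (x + y) = d x + d y := fun x y => Q.inj (by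
    rw [map_add, hd, hd, hd, map_add, map_add, mul_add])
  have d_mul : ∀ x y, d (x * y) = x * d y + y * d x := fun x y => Q.inj (by
    rw [map_add, map_mul, map_mul, hd, hd, hd, map_mul, D.laurent.leibniz]; ring)
  have d_ε : d Q.ε = 0 := Q.inj (by rw [hd, Q.ι_ε, D.laurent_T]; simp)
  have d_const : ∀ c : k, d (algebraMap k R c) = 0 := fun c => Q.inj (by
    rw [hd, AlgHom.commutes, D.laurent.const]; simp)
  have d_iter : ∀ (i : ℕ) (x : R), Q.ι (d^[i] x) =
      T (n * i) * (D.laurent.toFun : _ → _)^[i] (Q.ι x) := by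
    intro i x
    induction i with
    | zero => simp
    | succ i ih =>
      rw [Function.iterate_succ_apply', hd, ih, D.laurent.mul_of_ker (D.laurent_T _),
        Function.iterate_succ_apply', ← mul_assoc, ← T_add]
      congr 2; push_cast; ring
  let dA : R →+ R := AddMonoidHom.mk' d d_add
  have wd : ∀ x y, Q.ρ x = Q.ρ y → Q.ρ (d x) = Q.ρ (d y) := by
    intro x y hxy
    obtain ⟨z, hz⟩ := (Q.ker (x - y)).1 (by rw [map_sub, hxy, sub_self])
    have hx : x = y + Q.ε * z := by rw [← hz]; ring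
    have h0 : Q.ρ Q.ε = 0 := (Q.ker _).2 dvd_rfl
    rw [hx, d_add, d_mul, d_ε, map_add, map_add, map_mul, h0]; simp
  let σ : G → R := Function.surjInv Q.surj
  have hσ : ∀ g, Q.ρ (σ g) = g := Function.surjInv_eq Q.surj
  let d' : G → G := fun g => Q.ρ (d (σ g))
  have d'ρ : ∀ r, d' (Q.ρ r) = Q.ρ (d r) := fun r => wd _ _ (hσ _)
  have d'_add : ∀ x y, d' (x + y) = d' x + d' y := by
    intro x y
    obtain ⟨x, rfl⟩ := Q.surj x
    obtain ⟨y, rfl⟩ := Q.surj y
    rw [← map_add, d'ρ, d'ρ, d'ρ, d_add, map_add]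
  refine ⟨⟨AddMonoidHom.mk' d' d'_add, ?_, ?_, ?_⟩, ?_, ?_⟩
  · intro x y
    obtain ⟨x, rfl⟩ := Q.surj x
    obtain ⟨y, rfl⟩ := Q.surj y
    change d' _ = _ * d' _ + _ * d' _
    rw [← map_mul, d'ρ, d'ρ, d'ρ, d_mul, map_add, map_mul, map_mul]
  · intro c
    change d' _ = 0
    rw [← Q.ρ.commutes, d'ρ, d_const, map_zero]
  · intro g
    obtain ⟨x, rfl⟩ := Q.surj g
    obtain ⟨i, hi⟩ := D.laurent.nil (Q.ι x)
    refine ⟨i, ?_⟩
    have h1 : ∀ j : ℕ, d'^[j] (Q.ρ x) = Q.ρ (d^[j] x) := by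
      intro j
      induction j with
      | zero => rfl
      | succ j ih => rw [Function.iterate_succ_apply', ih, d'ρ, Function.iterate_succ_apply']
    have h2 : d^[i] x = 0 := Q.inj (by rw [d_iter, hi]; simp)
    change d'^[i] _ = 0
    rw [h1, h2, map_zero]
  · by_contra hall
    push Not at hall
    have : P (n - 1) := by
      intro r
      have h1 : Q.ρ (d r) = 0 := by rw [← d'ρ]; exact hall _
      obtain ⟨z, hz⟩ := (Q.ker _).1 h1
      refine ⟨z, ?_⟩
      have h2 := hd r
      rw [hz, map_mul, Q.ι_ε] at h2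
      have h3 : Q.ι z = T (-1) * (T 1 * Q.ι z) := by
        rw [← mul_assoc, ← T_add]; simp
      rw [h3, h2, ← mul_assoc, ← T_add]
      congr 2; ring
    have := hmin _ this
    omega
  · intro r a m hr ha
    change d' _ = 0
    have : d r = 0 := Q.inj (by rw [hd, hr, D.laurent_C_mul_T, ha]; simp)
    rw [d'ρ, this, map_zero]

end Rees

end Vale.Agent.P295
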