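import Mathlib

/-! The family of algebras `Λ[s,F,J] / (s^2 + π F - c₁, ξ^2 F - (1 + 2 s ξ) J - π J^2 - c₂)`. -/

namespace Vale.Agent.P295

open MvPolynomial

/-- Parameters of the family. -/
structure Par (Λ : Type*) where
  π : Λ
  ξ : Λ
  c₁ : Λ
  c₂ : Λ

variable {Λ : Type*} [CommRing Λ]

/-- The intermediate quadratic algebra. -/
abbrev Par.Q (p : Par Λ) : Type _ :=
  QuadraticAlgebra (MvPolynomial (Fin 2) Λ) (C p.c₁ - C p.π * X 0) 0

/-- The second relation. -/
noncomputable def Par.H (p : Par Λ) : p.Q :=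
  ⟨C p.ξ ^ 2 * X 0 - X 1 - C p.π * X 1 ^ 2 - C p.c₂, -2 * C p.ξ * X 1⟩

/-- The algebra of the family. -/
def Fam (p : Par Λ) : Type _ := p.Q ⧸ Ideal.span {p.H}

namespace Fam

variable (p : Par Λ)

noncomputable instance : CommRing (Fam p) :=
  inferInstanceAs (CommRing (p.Q ⧸ Ideal.span {p.H}))

noncomputable instance {k : Type*} [CommRing k] [Algebra k Λ] : Algebra k (Fam p) :=
  inferInstanceAs (Algebra k (p.Q ⧸ Ideal.span {p.H}))

instance {k : Type*} [CommRing k] [Algebra k Λ] : IsScalarTower k Λ (Fam p) :=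
  inferInstanceAs (IsScalarTower k Λ (p.Q ⧸ Ideal.span {p.H}))

/-- the quotient map -/
noncomputable def mk : p.Q →+* Fam p := Ideal.Quotient.mk _

theorem mk_surjective : Function.Surjective (mk p) := Ideal.Quotient.mk_surjective

theorem mk_eq_zero {a : p.Q} : mk p a = 0 ↔ p.H ∣ a := by
  rw [← Ideal.mem_span_singleton]
  exact Ideal.Quotient.eq_zero_iff_mem

/-- the structure map -/
noncomputable def of : Λ →+* Fam p := algebraMap Λ (Fam p)

theorem of_eq (a : Λ) : of p a = mk p (algebraMap _ p.Q (C a : MvPolynomial (Fin 2) Λ)) := rfl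

theorem of_algebraMap {k : Type*} [CommRing k] [Algebra k Λ] (c : k) :
    of p (algebraMap k Λ c) = algebraMap k (Fam p) c :=
  (IsScalarTower.algebraMap_apply k Λ (Fam p) c).symm

/-- generator -/
noncomputable def s : Fam p := mk p QuadraticAlgebra.omega
/-- generator -/
noncomputable def F : Fam p := mk p (algebraMap _ p.Q (X 0 : MvPolynomial (Fin 2) Λ))
/-- generator -/
noncomputable def J : Fam p := mk p (algebraMap _ p.Q (X 1 : MvPolynomial (Fin 2) Λ))
/-- auxiliary element -/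
noncomputable def y : Fam p := s p * of p p.ξ + of p p.π * J p
/-- auxiliary element -/
noncomputable def z : Fam p := s p + of p p.ξ * of p p.c₁

theorem rel1 : s p ^ 2 + of p p.π * F p = of p p.c₁ := by
  simp only [s, F, of_eq, ← map_mul, ← map_pow, ← map_add]
  congr 1
  ext <;> simp [sq]

theorem H_eq : p.H = algebraMap _ p.Q (C p.ξ : MvPolynomial (Fin 2) Λ) ^ 2 *
      algebraMap _ p.Q (X 0 : MvPolynomial (Fin 2) Λ) -
      (1 + 2 * QuadraticAlgebra.omega * algebraMap _ p.Q (C p.ξ : MvPolynomial (Fin 2) Λ)) *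
        algebraMap _ p.Q (X 1 : MvPolynomial (Fin 2) Λ) -
      algebraMap _ p.Q (C p.π : MvPolynomial (Fin 2) Λ) *
        algebraMap _ p.Q (X 1 : MvPolynomial (Fin 2) Λ) ^ 2 -
      algebraMap _ p.Q (C p.c₂ : MvPolynomial (Fin 2) Λ) := by
  ext : 1 <;> simp [Par.H, sq, QuadraticAlgebra.re_one, QuadraticAlgebra.im_one,
    QuadraticAlgebra.re_ofNat, QuadraticAlgebra.im_ofNat]

theorem rel2 :
    of p p.ξ ^ 2 * F p - (1 + 2 * s p * of p p.ξ) * J p - of p p.π * J p ^ 2 = of p p.c₂ := by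
  have h : mk p p.H = 0 := (mk_eq_zero p).2 dvd_rfl
  rw [H_eq] at h
  simp only [map_sub, map_mul, map_pow, map_add, map_one, map_ofNat] at h
  exact sub_eq_zero.1 h

theorem rel3 : of p p.ξ * z p - y p * (y p + 1) = of p p.π * of p p.c₂ := by
  rw [y, z]
  linear_combination (-of p p.ξ ^ 2) * rel1 p + of p p.π * rel2 p

theorem πJ : of p p.π * J p = y p - s p * of p p.ξ := by rw [y]; ring

theorem πF : of p p.π * F p = of p p.c₁ - s p ^ 2 := by linear_combination rel1 p

theorem s_eq : s p = z p - of p p.ξ * of p p.c₁ := by rw [z]; ring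

section lift

variable {S : Type*} [CommRing S] (f : Λ →+* S) (s' F' J' : S)

/-- lift on the quadratic algebra -/
noncomputable def liftQ (h1 : s' ^ 2 + f p.π * F' = f p.c₁) : p.Q →+* S where
  toFun a := eval₂Hom f ![F', J'] a.re + eval₂Hom f ![F', J'] a.im * s'
  map_one' := by simp [QuadraticAlgebra.re_one, QuadraticAlgebra.im_one]
  map_zero' := by simp
  map_add' a b := by simp only [QuadraticAlgebra.re_add, QuadraticAlgebra.im_add, map_add]; ring
  map_mul' a b := by
    simp only [QuadraticAlgebra.re_mul, QuadraticAlgebra.im_mul, map_add, map_mul, map_sub,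
      map_zero, coe_eval₂Hom, eval₂_C, eval₂_X, Matrix.cons_val_zero]
    linear_combination (-(eval₂ f ![F', J'] a.im * eval₂ f ![F', J'] b.im)) * h1

/-- The universal property. -/
noncomputable def lift (h1 : s' ^ 2 + f p.π * F' = f p.c₁)
    (h2 : f p.ξ ^ 2 * F' - (1 + 2 * s' * f p.ξ) * J' - f p.π * J' ^ 2 = f p.c₂) : Fam p →+* S :=
  Ideal.Quotient.lift _ (liftQ p f s' F' J' h1) (by
    intro a ha
    obtain ⟨b, rfl⟩ := Ideal.mem_span_singleton.1 ha
    have : liftQ p f s' F' J' h1 p.H = 0 := by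
      simp only [liftQ, Par.H, RingHom.coe_mk, MonoidHom.coe_mk, OneHom.coe_mk, map_sub, map_mul,
        map_pow, map_neg, map_ofNat, eval₂Hom_C, eval₂Hom_X', Matrix.cons_val_zero,
        Matrix.cons_val_one]
      linear_combination h2
    rw [map_mul, this, zero_mul])

variable (h1 : s' ^ 2 + f p.π * F' = f p.c₁)
    (h2 : f p.ξ ^ 2 * F' - (1 + 2 * s' * f p.ξ) * J' - f p.π * J' ^ 2 = f p.c₂)

theorem lift_mk (a : p.Q) : lift p f s' F' J' h1 h2 (mk p a) = liftQ p f s' F' J' h1 a := rfl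

@[simp] theorem lift_of (a : Λ) : lift p f s' F' J' h1 h2 (of p a) = f a := by
  simp [of_eq, lift_mk, liftQ]

@[simp] theorem lift_s : lift p f s' F' J' h1 h2 (s p) = s' := by
  simp [s, lift_mk, liftQ]

@[simp] theorem lift_F : lift p f s' F' J' h1 h2 (F p) = F' := by
  simp [F, lift_mk, liftQ]

@[simp] theorem lift_J : lift p f s' F' J' h1 h2 (J p) = J' := by
  simp [J, lift_mk, liftQ]

end lift

theorem mem_of_gen (U : Subring (Fam p)) (h0 : ∀ a, of p a ∈ U) (hs : s p ∈ U) (hF : F p ∈ U)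
    (hJ : J p ∈ U) (g : Fam p) : g ∈ U := by
  obtain ⟨⟨a, b⟩, rfl⟩ := mk_surjective p g
  have h : ∀ a : MvPolynomial (Fin 2) Λ, mk p (algebraMap _ p.Q a) ∈ U := by
    intro a
    induction a using MvPolynomial.induction_on with
    | C a => exact h0 a
    | add a b ha hb => rw [map_add, map_add]; exact U.add_mem ha hb
    | mul_X a i ha =>
      rw [map_mul, map_mul]
      refine U.mul_mem ha ?_
      fin_cases i
      · exact hF
      · exact hJ
  have : (⟨a, b⟩ : p.Q) = algebraMap _ p.Q a + algebraMap _ p.Q b * QuadraticAlgebra.omega := by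
    ext : 1 <;> simp
  rw [this, map_add, map_mul]
  exact U.add_mem (h a) (U.mul_mem (h b) hs)

theorem hom_ext {S : Type*} [CommRing S] {φ ψ : Fam p →+* S} (h0 : ∀ a, φ (of p a) = ψ (of p a))
    (hs : φ (s p) = ψ (s p)) (hF : φ (F p) = ψ (F p)) (hJ : φ (J p) = ψ (J p)) : φ = ψ :=
  RingHom.ext fun g => mem_of_gen p (RingHom.eqLocus φ ψ) h0 hs hF hJ g

theorem hom_ext_yz {S : Type*} [CommRing S] {φ ψ : Fam p →+* S}
    (h0 : ∀ a, φ (of p a) = ψ (of p a))
    (hy : φ (y p) = ψ (y p)) (hz : φ (z p) = ψ (z p))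
    (hπ : ∀ t, φ (of p p.π) * t = 0 → t = 0) : φ = ψ := by
  have hs : φ (s p) = ψ (s p) := by
    rw [s_eq]; simp only [map_sub, map_mul, hz, h0]
  refine hom_ext p h0 hs ?_ ?_
  · refine sub_eq_zero.1 (hπ _ ?_)
    have h1 := congrArg φ (πF p)
    have h2 := congrArg ψ (πF p)
    simp only [map_sub, map_mul, map_pow] at h1 h2
    rw [mul_sub, h1, h0, h0, h2, hs, sub_self]
  · refine sub_eq_zero.1 (hπ _ ?_)
    have h1 := congrArg φ (πJ p)
    have h2 := congrArg ψ (πJ p)
    simp only [map_sub, map_mul] at h1 h2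
    rw [mul_sub, h1, h0, h0, h2, hs, hy, sub_self]

theorem hom_ext_y {S : Type*} [CommRing S] {φ ψ : Fam p →+* S}
    (h0 : ∀ a, φ (of p a) = ψ (of p a))
    (hy : φ (y p) = ψ (y p))
    (hπ : ∀ t, φ (of p p.π) * t = 0 → t = 0) (hξ : ∀ t, φ (of p p.ξ) * t = 0 → t = 0) :
    φ = ψ := by
  refine hom_ext_yz p h0 hy (sub_eq_zero.1 (hξ _ ?_)) hπ
  have h1 := congrArg φ (rel3 p)
  have h2 := congrArg ψ (rel3 p)
  simp only [map_sub, map_mul, map_add, map_one, ← h0, ← hy] at h1 h2
  linear_combination h1 - h2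

section liftYZ

variable {S : Type*} [CommRing S] (f : Λ →+* S) (i y' z' : S) (hi : f p.π * i = 1)
  (h : f p.ξ * z' - y' * (y' + 1) = f p.π * f p.c₂)

/-- The universal property when `π` becomes invertible. -/
noncomputable def liftYZ : Fam p →+* S :=
  lift p f (z' - f p.ξ * f p.c₁) ((f p.c₁ - (z' - f p.ξ * f p.c₁) ^ 2) * i)
    ((y' - (z' - f p.ξ * f p.c₁) * f p.ξ) * i)
    (by linear_combination (f p.c₁ - (z' - f p.ξ * f p.c₁) ^ 2) * hi)
    (by linear_combination i * h + (f p.c₂ - (y' - (z' - f p.ξ * f p.c₁) * f p.ξ) ^ 2 * i) * hi)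

@[simp] theorem liftYZ_of (a : Λ) : liftYZ p f i y' z' hi h (of p a) = f a := by
  simp [liftYZ]

@[simp] theorem liftYZ_y : liftYZ p f i y' z' hi h (y p) = y' := by
  simp only [liftYZ, y, map_add, map_mul, lift_s, lift_of, lift_J]
  linear_combination (y' - (z' - f p.ξ * f p.c₁) * f p.ξ) * hi

@[simp] theorem liftYZ_z : liftYZ p f i y' z' hi h (z p) = z' := by
  simp [liftYZ, z]

end liftYZ

instance finiteType : Algebra.FiniteType Λ (Fam p) := by
  classical
  refine ⟨⟨{s p, F p, J p}, eq_top_iff.2 fun g _ => ?_⟩⟩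
  refine mem_of_gen p (Algebra.adjoin Λ (({s p, F p, J p} : Finset (Fam p)) : Set (Fam p))).toSubring
    (fun a => Subalgebra.algebraMap_mem _ a) ?_ ?_ ?_ g <;>
  exact Algebra.subset_adjoin (by simp)

theorem finiteType' (k : Type*) [CommRing k] [Algebra k Λ] [Algebra.FiniteType k Λ] :
    Algebra.FiniteType k (Fam p) :=
  Algebra.FiniteType.trans (S := Λ) inferInstance inferInstance

theorem not_dvd_norm {e : Λ} (he : Prime e) (h2 : ¬ e ∣ 2) :
    ¬ (C e : MvPolynomial (Fin 2) Λ) ∣ p.H.norm := by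
  intro h
  have hev : ∀ a b : Λ, e ∣ (p.ξ ^ 2 * a - b - p.π * b ^ 2 - p.c₂) ^ 2 -
      (p.c₁ - p.π * a) * (2 * p.ξ * b) ^ 2 := by
    intro a b
    have := map_dvd (eval ![a, b]) h
    simp only [eval_C, QuadraticAlgebra.norm_def, Par.H, map_sub, map_add, map_mul, map_pow,
      eval_X, Matrix.cons_val_zero, Matrix.cons_val_one, map_zero, map_neg, map_ofNat] at this
    convert this using 1
    ring
  have h00 : e ∣ p.c₂ := by
    apply he.dvd_of_dvd_pow (n := 2)
    simpa using hev 0 0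
  have h10 : e ∣ p.ξ := by
    apply he.dvd_of_dvd_pow (n := 2)
    have : e ∣ p.ξ ^ 2 - p.c₂ := by
      apply he.dvd_of_dvd_pow (n := 2)
      simpa using hev 1 0
    simpa using dvd_add this h00
  obtain ⟨x, hx⟩ := h10
  have h01 : e ∣ 1 + p.π + p.c₂ := by
    apply he.dvd_of_dvd_pow (n := 2)
    have := dvd_add (hev 0 1) (Dvd.intro (p.c₁ * 4 * e * x ^ 2) rfl)
    convert this using 1
    rw [hx]; ring
  have h02 : e ∣ 1 - p.π - p.c₂ := by
    apply he.dvd_of_dvd_pow (n := 2)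
    have := dvd_add (hev 0 (-1)) (Dvd.intro (p.c₁ * 4 * e * x ^ 2) rfl)
    convert this using 1
    rw [hx]; ring
  apply h2
  convert dvd_add h01 h02 using 1
  ring

theorem nzd [IsDomain Λ] {e : Λ} (he : Prime e) (h2 : ¬ e ∣ 2) (g : Fam p)
    (h : of p e * g = 0) : g = 0 := by
  obtain ⟨a, rfl⟩ := mk_surjective p g
  rw [of_eq, ← map_mul, mk_eq_zero] at h
  obtain ⟨b, hb⟩ := h
  have hp : Prime (C e : MvPolynomial (Fin 2) Λ) := (prime_C_iff _).2 he
  have h1 : algebraMap _ p.Q (C e : MvPolynomial (Fin 2) Λ) ∣ algebraMap _ p.Q p.H.norm * b := by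
    refine ⟨a * star p.H, ?_⟩
    rw [QuadraticAlgebra.algebraMap_norm_eq_mul_star, ← mul_assoc, hb]; ring
  rw [QuadraticAlgebra.algebraMap_dvd_iff] at h1
  simp only [QuadraticAlgebra.re_mul, QuadraticAlgebra.im_mul, QuadraticAlgebra.algebraMap_re,
    QuadraticAlgebra.algebraMap_im, mul_zero, zero_mul, add_zero] at h1
  have h3 : algebraMap _ p.Q (C e : MvPolynomial (Fin 2) Λ) ∣ b := by
    rw [QuadraticAlgebra.algebraMap_dvd_iff]
    exact ⟨(hp.dvd_or_dvd h1.1).resolve_left (not_dvd_norm p he h2),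
      (hp.dvd_or_dvd h1.2).resolve_left (not_dvd_norm p he h2)⟩
  obtain ⟨b', rfl⟩ := h3
  rw [mk_eq_zero]
  refine ⟨b', ?_⟩
  have h4 : algebraMap _ p.Q (C e : MvPolynomial (Fin 2) Λ) ∈ nonZeroDivisors p.Q := by
    rw [QuadraticAlgebra.algebraMap_mem_nonZeroDivisors_iff]
    exact mem_nonZeroDivisors_of_ne_zero hp.ne_zero
  refine sub_eq_zero.1 ((mem_nonZeroDivisors_iff_left.1 h4) _ ?_)
  rw [mul_sub, hb]; ring

theorem nzd_pow [IsDomain Λ] {e : Λ} (he : Prime e) (h2 : ¬ e ∣ 2) (n : ℕ) (g : Fam p)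
    (h : of p e ^ n * g = 0) : g = 0 := by
  induction n generalizing g with
  | zero => simpa using h
  | succ n ih =>
    refine nzd p he h2 _ (ih _ ?_)
    rw [← h]; ring

section map

variable {Λ' : Type*} [CommRing Λ'] (p' : Par Λ') (φ : Λ →+* Λ') (hπ : φ p.π = p'.π)
  (hξ : φ p.ξ = p'.ξ) (h1 : φ p.c₁ = p'.c₁) (h2 : φ p.c₂ = p'.c₂)

/-- base change map -/
noncomputable def map : Fam p →+* Fam p' :=
  lift p ((of p').comp φ) (s p') (F p') (J p')
    (by simpa [hπ, h1] using rel1 p') (by simpa [hπ, hξ, h2] using rel2 p')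

@[simp] theorem map_of (a : Λ) : map p p' φ hπ hξ h1 h2 (of p a) = of p' (φ a) := by simp [map]
@[simp] theorem map_s : map p p' φ hπ hξ h1 h2 (s p) = s p' := by simp [map]
@[simp] theorem map_F : map p p' φ hπ hξ h1 h2 (F p) = F p' := by simp [map]
@[simp] theorem map_J : map p p' φ hπ hξ h1 h2 (J p) = J p' := by simp [map]

theorem map_surjective (hφ : Function.Surjective φ) :
    Function.Surjective (map p p' φ hπ hξ h1 h2) := by
  intro g
  refine mem_of_gen p' (map p p' φ hπ hξ h1 h2).range ?_ ⟨s p, by simp⟩ ⟨F p, by simp⟩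
    ⟨J p, by simp⟩ g
  intro a
  obtain ⟨a, rfl⟩ := hφ a
  exact ⟨of p a, by simp⟩

theorem map_eq_zero_iff (hφ : Function.Surjective φ) (e : Λ) (hker : ∀ a, φ a = 0 ↔ e ∣ a)
    (g : Fam p) : map p p' φ hπ hξ h1 h2 g = 0 ↔ of p e ∣ g := by
  constructor
  · intro hg
    let I : Ideal (Fam p) := Ideal.span {of p e}
    let f : Λ' →+* Fam p ⧸ I := φ.liftOfSurjective hφ ⟨(Ideal.Quotient.mk I).comp (of p), by
      intro a ha
      obtain ⟨b, rfl⟩ := (hker a).1 ha
      rw [RingHom.mem_ker, RingHom.comp_apply, Ideal.Quotient.eq_zero_iff_mem, map_mul]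
      exact Ideal.mul_mem_right _ _ (Ideal.mem_span_singleton_self _)⟩
    have hf : ∀ a, f (φ a) = Ideal.Quotient.mk I (of p a) := fun a =>
      RingHom.liftOfRightInverse_comp_apply _ _ _ _ a
    let ψ : Fam p' →+* Fam p ⧸ I := lift p' f (Ideal.Quotient.mk I (s p))
      (Ideal.Quotient.mk I (F p)) (Ideal.Quotient.mk I (J p))
      (by rw [← hπ, ← h1, hf, hf, ← rel1 p]; simp)
      (by rw [← hπ, ← hξ, ← h2, hf, hf, hf, ← rel2 p]; simp [map_ofNat])
    have : ψ.comp (map p p' φ hπ hξ h1 h2) = Ideal.Quotient.mk I := by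
      apply hom_ext <;> simp [ψ, hf]
    have h3 : Ideal.Quotient.mk I g = 0 := by rw [← this, RingHom.comp_apply, hg, map_zero]
    exact Ideal.mem_span_singleton.1 (Ideal.Quotient.eq_zero_iff_mem.1 h3)
  · rintro ⟨b, rfl⟩
    rw [map_mul, map_of, (hker e).2 dvd_rfl, map_zero, zero_mul]

end map

end Fam

/-- The saturation of a subring with respect to one of its elements. -/
def satur {A : Type*} [CommRing A] (U : Subring A) (e : A) (he : e ∈ U) : Subring A where
  carrier := {g | ∃ N : ℕ, e ^ N * g ∈ U}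
  mul_mem' := by
    rintro a b ⟨n, hn⟩ ⟨m, hm⟩
    exact ⟨n + m, by convert U.mul_mem hn hm using 1; ring⟩
  one_mem' := ⟨0, by simp⟩
  add_mem' := by
    rintro a b ⟨n, hn⟩ ⟨m, hm⟩
    exact ⟨n + m, by
      convert U.add_mem (U.mul_mem (U.pow_mem he m) hn) (U.mul_mem (U.pow_mem he n) hm) using 1
      ring⟩
  zero_mem' := ⟨0, by simp⟩
  neg_mem' := by
    rintro a ⟨n, hn⟩
    exact ⟨n, by convert U.neg_mem hn using 1; ring⟩

theorem mem_satur_of_mem {A : Type*} [CommRing A] {U : Subring A} {e : A} {he : e ∈ U} {g : A}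
    (hg : g ∈ U) : g ∈ satur U e he := ⟨0, by simpa using hg⟩

theorem mem_satur_of_mul {A : Type*} [CommRing A] {U : Subring A} {e : A} {he : e ∈ U} {g : A}
    (m : ℕ) (hg : e ^ m * g ∈ satur U e he) : g ∈ satur U e he := by
  obtain ⟨n, hn⟩ := hg
  exact ⟨n + m, by convert hn using 1; ring⟩

theorem injective_of_satur {E A S : Type*} [CommRing E] [CommRing A] [CommRing S] (f : E →+* A)
    (φ : A →+* S) (hinj : Function.Injective (φ.comp f)) (e : A) (he : e ∈ f.range)
    (hnzd : ∀ g, e * g = 0 → g = 0) (hsat : ∀ g, g ∈ satur f.range e he) :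
    Function.Injective φ := by
  rw [injective_iff_map_eq_zero]
  intro g hg
  obtain ⟨N, a, ha⟩ := hsat g
  have h0 : a = 0 := by
    apply hinj
    rw [RingHom.comp_apply, ha, map_mul, hg, mul_zero, map_zero]
  rw [h0, map_zero] at ha
  clear h0 hg
  induction N generalizing g with
  | zero => simpa using ha.symm
  | succ N ih =>
    refine hnzd _ (ih _ ?_)
    rw [ha]; ring

namespace Fam

variable (p : Par Λ)

theorem injective_of_y {S : Type*} [CommRing S] (φ : Fam p →+* S)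
    (hπ : ∀ g, of p p.π * g = 0 → g = 0) (hξ : ∀ g, of p p.ξ * g = 0 → g = 0)
    (hinj : Function.Injective (Polynomial.eval₂RingHom (φ.comp (of p)) (φ (y p)))) :
    Function.Injective φ := by
  let f : Polynomial Λ →+* Fam p := Polynomial.eval₂RingHom (of p) (y p)
  have h0 : ∀ a, of p a ∈ f.range := fun a => ⟨Polynomial.C a, by simp [f]⟩
  have hy : y p ∈ f.range := ⟨Polynomial.X, by simp [f]⟩
  have he : of p p.π * of p p.ξ ∈ f.range := f.range.mul_mem (h0 _) (h0 _)
  refine injective_of_satur f φ ?_ _ he ?_ ?_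
  · convert hinj using 1
    congr 1
    ext <;> simp [f]
  · intro g hg
    exact hξ _ (hπ _ (by rw [← hg]; ring))
  · let U := satur f.range _ he
    have h0' : ∀ a, of p a ∈ U := fun a => mem_satur_of_mem (h0 a)
    have hy' : y p ∈ U := mem_satur_of_mem hy
    have hz : z p ∈ U := by
      apply mem_satur_of_mul 1
      have : (of p p.π * of p p.ξ) ^ 1 * z p =
          of p p.π * (y p * (y p + 1) + of p p.π * of p p.c₂) := by
        linear_combination of p p.π * rel3 p
      rw [this]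
      exact U.mul_mem (h0' _) (U.add_mem (U.mul_mem hy' (U.add_mem hy' U.one_mem))
        (U.mul_mem (h0' _) (h0' _)))
    have hs : s p ∈ U := by
      rw [s_eq]; exact U.sub_mem hz (U.mul_mem (h0' _) (h0' _))
    refine mem_of_gen p U h0' hs ?_ ?_
    · apply mem_satur_of_mul 1
      have : (of p p.π * of p p.ξ) ^ 1 * F p = of p p.ξ * (of p p.c₁ - s p ^ 2) := by
        linear_combination of p p.ξ * πF p
      rw [this]
      exact U.mul_mem (h0' _) (U.sub_mem (h0' _) (U.pow_mem hs 2))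
    · apply mem_satur_of_mul 1
      have : (of p p.π * of p p.ξ) ^ 1 * J p = of p p.ξ * (y p - s p * of p p.ξ) := by
        linear_combination of p p.ξ * πJ p
      rw [this]
      exact U.mul_mem (h0' _) (U.sub_mem hy' (U.mul_mem hs (h0' _)))

end Fam

end Vale.Agent.P295
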