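import Vale.Agent.P295.Stable
import Vale.Agent.P295.Defs

/-! The four variable example. -/

namespace Vale.Agent.P295

open MvPolynomial

theorem injective_of_surjective_ring {A : Type*} [CommRing A] [IsNoetherianRing A] (φ : A →+* A)
    (h : Function.Surjective φ) : Function.Injective φ := by
  let c : ℕ →o Ideal A := ⟨fun n => RingHom.ker (φ ^ n), monotone_nat_of_le_succ fun n a ha => by
    rw [RingHom.mem_ker] at ha ⊢
    rw [pow_succ', RingHom.mul_def, RingHom.comp_apply, ha, map_zero]⟩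
  obtain ⟨n, hn⟩ := monotone_stabilizes_iff_noetherian.2 (inferInstance : IsNoetherian A A) c
  rw [injective_iff_map_eq_zero]
  intro a ha
  have hs : Function.Surjective (φ ^ n) := by
    rw [RingHom.coe_pow]; exact h.iterate n
  obtain ⟨b, rfl⟩ := hs a
  have hb : b ∈ c (n + 1) := by
    change (φ ^ (n + 1)) b = 0
    rw [pow_succ', RingHom.mul_def, RingHom.comp_apply, ha]
  rw [← hn (n + 1) (Nat.le_succ n)] at hb
  exact hb

theorem isCoordinate_iff {n : ℕ} (f : MvPolynomial (Fin n) ℂ) : IsCoordinate f ↔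
    ∃ (φ : MvPolynomial (Fin n) ℂ ≃ₐ[ℂ] MvPolynomial (Fin n) ℂ) (i : Fin n), φ f = X i := by
  constructor
  · rintro ⟨g, ⟨i, rfl⟩, hg⟩
    have hs : Function.Surjective (aeval g : MvPolynomial (Fin n) ℂ →ₐ[ℂ] _) := by
      rw [← AlgHom.range_eq_top, ← Algebra.adjoin_range_eq_range_aeval, hg]
    let e := AlgEquiv.ofBijective (aeval g : MvPolynomial (Fin n) ℂ →ₐ[ℂ] _)
      ⟨injective_of_surjective_ring (aeval g : MvPolynomial (Fin n) ℂ →ₐ[ℂ] _).toRingHom hs, hs⟩
    refine ⟨e.symm, i, ?_⟩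
    rw [AlgEquiv.symm_apply_eq]
    simp [e]
  · rintro ⟨φ, i, h⟩
    refine ⟨fun i => φ.symm (X i), ⟨i, by simp only [← h, φ.symm_apply_apply]⟩, ?_⟩
    have h1 : Set.range (fun i => φ.symm (X i)) = φ.symm.toAlgHom '' Set.range X := by
      rw [← Set.range_comp]; rfl
    rw [h1, Algebra.adjoin_image, adjoin_range_X, Algebra.map_top, AlgHom.range_eq_top]
    exact φ.symm.surjective

/-- the element `u` in four variables -/
noncomputable def u4 : MvPolynomial (Fin 4) ℂ :=
  quadQ ^ 2 * X 2 - 2 * quadQ * X 3 * X 1 - X 3 ^ 2 * X 0 - X 3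
/-- the element `s` in four variables -/
noncomputable def s4 : MvPolynomial (Fin 4) ℂ :=
  X 1 + X 3 ^ 2 * X 0 + 2 * quadQ * X 3 ^ 2 + quadQ ^ 2 * X 2
/-- the element `F` in four variables -/
noncomputable def F4 : MvPolynomial (Fin 4) ℂ :=
  X 2 * (1 + 2 * quadQ * X 3) - 2 * X 3 ^ 2 * (X 1 - X 3)

theorem quadQ_eq : quadQ = X 1 ^ 2 - X 3 ^ 2 + X 0 * X 2 := rfl

/-- base map -/
noncomputable def base4 : Lam ℂ →+* MvPolynomial (Fin 4) ℂ := eval₂Hom C ![polyF, u4, quadQ]

theorem base4_0 : base4 (X 0) = polyF := by simp [base4]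
theorem base4_1 : base4 (X 1) = u4 := by simp [base4]
theorem base4_2 : base4 (X 2) = quadQ := by simp [base4]
theorem base4_C (c : ℂ) : base4 (C c) = C c := by simp [base4]

/-- the map to the polynomial ring in four variables -/
noncomputable def alpha : Fam (pA ℂ 1 1) →+* MvPolynomial (Fin 4) ℂ :=
  Fam.lift _ base4 s4 F4 (X 3)
    (by
      simp only [pA_π, pA_c₁, map_pow, map_add, base4_0, base4_1, base4_2, s4, F4, u4, polyF]
      linear_combination (-1 : MvPolynomial (Fin 4) ℂ) * quadQ_eq)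
    (by
      simp only [pA_π, pA_ξ, pA_c₂, map_pow, base4_0, base4_1, base4_2, s4, F4, u4, polyF]
      ring)

theorem alpha_of (q) : alpha (Fam.of _ q) = base4 q := by simp [alpha]
theorem alpha_s : alpha (Fam.s _) = s4 := by simp [alpha]
theorem alpha_F : alpha (Fam.F _) = F4 := by simp [alpha]
theorem alpha_J : alpha (Fam.J _) = X 3 := by simp [alpha]

/-- shorthand -/
noncomputable abbrev pp : Fam (pA ℂ 1 1) := Fam.of _ (X 0)
/-- shorthand -/
noncomputable abbrev uA : Fam (pA ℂ 1 1) := Fam.of _ (X 1)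
/-- shorthand -/
noncomputable abbrev xA : Fam (pA ℂ 1 1) := Fam.of _ (X 2)

theorem r1 : Fam.s (pA ℂ 1 1) ^ 2 + pp * Fam.F _ = xA + uA ^ 2 := by
  simpa using Fam.rel1 (pA ℂ 1 1)

theorem r2 : xA ^ 2 * Fam.F _ - (1 + 2 * Fam.s _ * xA) * Fam.J _ - pp * Fam.J _ ^ 2 = uA := by
  simpa using Fam.rel2 (pA ℂ 1 1)

/-- the inverse map -/
noncomputable def beta : MvPolynomial (Fin 4) ℂ →ₐ[ℂ] Fam (pA ℂ 1 1) :=
  aeval ![(1 + 2 * xA * Fam.J _) * pp + 2 * xA ^ 2 * (Fam.s _ - uA),
    -Fam.J _ ^ 2 * pp - xA ^ 2 * Fam.F _ + Fam.s _ + 2 * xA * Fam.J _ * uA,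
    (1 - 2 * xA * Fam.J _) * Fam.F _ + 2 * Fam.J _ ^ 2 * (Fam.s _ + uA), Fam.J _]

theorem beta_0 : beta (X 0) = (1 + 2 * xA * Fam.J _) * pp + 2 * xA ^ 2 * (Fam.s _ - uA) := by
  simp [beta]
theorem beta_1 :
    beta (X 1) = -Fam.J _ ^ 2 * pp - xA ^ 2 * Fam.F _ + Fam.s _ + 2 * xA * Fam.J _ * uA := by
  simp [beta]
theorem beta_2 :
    beta (X 2) = (1 - 2 * xA * Fam.J _) * Fam.F _ + 2 * Fam.J _ ^ 2 * (Fam.s _ + uA) := by
  simp [beta]
theorem beta_3 : beta (X 3) = Fam.J _ := by simp [beta]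

theorem beta_Q : beta quadQ = xA := by
  simp only [quadQ, map_add, map_sub, map_mul, map_pow, beta_0, beta_1, beta_2, beta_3]
  linear_combination r1 + (xA ^ 2 * Fam.F _ - 2 * Fam.s _ * xA * Fam.J _ - pp * Fam.J _ ^ 2 - uA +
    Fam.J _) * r2

theorem alpha_algebraMap (c : ℂ) : alpha (algebraMap ℂ _ c) = C c := by
  rw [← Fam.of_algebraMap, alpha_of, algebraMap_eq, base4_C]

/-- The main algebra for `j = m = 1` is a polynomial ring in four variables. -/
noncomputable def equiv4 : Fam (pA ℂ 1 1) ≃ₐ[ℂ] MvPolynomial (Fin 4) ℂ :=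
  AlgEquiv.ofAlgHom { alpha with commutes' := alpha_algebraMap } beta
    (by
      ext i : 1
      change alpha (beta (X i)) = X i
      fin_cases i
      · change alpha (beta (X 0)) = X 0
        simp only [beta_0, map_add, map_sub, map_mul, map_pow, map_one, map_ofNat, alpha_of,
          alpha_s, alpha_J, base4_0, base4_1, base4_2, s4, u4, polyF]
        ring
      · change alpha (beta (X 1)) = X 1
        simp only [beta_1, map_add, map_sub, map_mul, map_pow, map_neg, map_ofNat, alpha_of,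
          alpha_s, alpha_J, alpha_F, base4_0, base4_1, base4_2, s4, u4, F4, polyF]
        ring
      · change alpha (beta (X 2)) = X 2
        simp only [beta_2, map_add, map_sub, map_mul, map_pow, map_one, map_ofNat, alpha_of,
          alpha_s, alpha_J, alpha_F, base4_1, base4_2, s4, u4, F4]
        ring
      · change alpha (beta (X 3)) = X 3
        rw [beta_3, alpha_J])
    (by
      apply AlgHom.coe_ringHom_injective
      change beta.toRingHom.comp alpha = RingHom.id _
      apply Fam.hom_ext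
      · have : (beta.toRingHom.comp alpha).comp (Fam.of _) = (RingHom.id _).comp (Fam.of _) := by
          apply MvPolynomial.ringHom_ext
          · intro c
            change beta (alpha (Fam.of _ (C c))) = Fam.of _ (C c)
            rw [alpha_of, base4_C, algHom_C, ← Fam.of_algebraMap, algebraMap_eq]
          · intro i
            fin_cases i
            · change beta (alpha (Fam.of _ (X 0))) = pp
              simp only [alpha_of, base4_0, polyF, map_add, map_sub, map_mul, map_ofNat, beta_Q,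
                beta_0, beta_1, beta_3]
              linear_combination (2 * xA ^ 2) * r2
            · change beta (alpha (Fam.of _ (X 1))) = uA
              simp only [alpha_of, base4_1, u4, map_sub, map_mul, map_pow, map_ofNat,
                beta_Q, beta_0, beta_1, beta_2, beta_3]
              linear_combination r2
            · change beta (alpha (Fam.of _ (X 2))) = xA
              rw [alpha_of, base4_2, beta_Q]
        exact fun a => RingHom.congr_fun this a
      · change beta (alpha (Fam.s _)) = Fam.s _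
        simp only [alpha_s, s4, map_add, map_mul, map_pow, map_ofNat,
          beta_Q, beta_0, beta_1, beta_2, beta_3]
        linear_combination (-2 * xA * Fam.J _) * r2
      · change beta (alpha (Fam.F _)) = Fam.F _
        simp only [alpha_F, F4, map_add, map_sub, map_mul, map_pow, map_one, map_ofNat,
          beta_Q, beta_1, beta_2, beta_3]
        linear_combination (-2 * Fam.J _ ^ 2) * r2
      · change beta (alpha (Fam.J _)) = Fam.J _
        rw [alpha_J, beta_3])

theorem equiv4_apply (a) : equiv4 a = alpha a := rfl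

theorem equiv4_pp : equiv4 pp = polyF := by
  rw [equiv4_apply, alpha_of, base4_0]

theorem polyF_not_coordinate : ¬ IsCoordinate polyF := by
  rw [isCoordinate_iff]
  rintro ⟨φ, i, h⟩
  refine not_poly (j := 1) (m := 1) one_pos one_pos (equiv4.trans φ) (Or.inl ⟨i, ?_⟩)
  rw [AlgEquiv.trans_apply, equiv4_pp, h]

theorem exists_cyl (k : Type*) [CommRing k] (n : ℕ) :
    ∃ E : MvPolynomial (Fin (n + 1)) k ≃ₐ[k] Polynomial (MvPolynomial (Fin n) k),
      ∀ g, E (rename (Fin.castAdd 1) g) = Polynomial.C g := by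
  refine ⟨(renameEquiv k finSuccEquivLast).trans (optionEquivLeft k (Fin n)), fun g => ?_⟩
  induction g using MvPolynomial.induction_on with
  | C c => rw [rename_C]; exact AlgEquiv.commutes _ c
  | add p q hp hq => rw [map_add, map_add, hp, hq, map_add]
  | mul_X p i hp =>
    rw [map_mul, map_mul, hp, map_mul, rename_X, AlgEquiv.trans_apply, renameEquiv_apply, rename_X]
    have : finSuccEquivLast (Fin.castAdd 1 i) = some i := finSuccEquivLast_castSucc i
    rw [this, optionEquivLeft_X_some]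

theorem polyF_stable : IsStableCoordinateOfOrder 1 polyF := by
  rw [IsStableCoordinateOfOrder, isCoordinate_iff]
  obtain ⟨e, he⟩ := stable_poly ℂ 1 1
  obtain ⟨E, hE⟩ := exists_cyl ℂ 4
  refine ⟨(E.trans (Polynomial.mapAlgEquiv equiv4.symm)).trans e, 0, ?_⟩
  have h : Polynomial.mapAlgEquiv equiv4.symm (Polynomial.C polyF) = Polynomial.C pp := by
    rw [← equiv4_pp]; simp
  rw [AlgEquiv.trans_apply, AlgEquiv.trans_apply, hE, h, he]

theorem quot_equiv_of {k A B : Type*} [CommRing k] [CommRing A] [CommRing B] [Algebra k A]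
    [Algebra k B] (I : Ideal A) (μ : A →+* B) (hμ : ∀ c, μ (algebraMap k A c) = algebraMap k B c)
    (ν : B →+* A) (h0 : ∀ a ∈ I, μ a = 0)
    (h1 : ∀ b, μ (ν b) = b)
    (h2 : ((Ideal.Quotient.mk I).comp ν).comp μ = Ideal.Quotient.mk I) :
    Nonempty ((A ⧸ I) ≃ₐ[k] B) := by
  let μ' : A →ₐ[k] B := { μ with commutes' := hμ }
  have hk : RingHom.ker μ' = I := by
    refine le_antisymm (fun a ha => ?_) h0
    rw [← Ideal.Quotient.eq_zero_iff_mem, ← h2]
    have : μ a = 0 := ha
    simp [this]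
  exact ⟨(Ideal.quotientEquivAlgOfEq k hk.symm).trans
    (Ideal.quotientKerAlgEquivOfSurjective fun b => ⟨ν b, h1 b⟩)⟩

theorem fiber_ne (k : Type*) [Field k] {c : k} (hc : c ≠ 0) :
    Nonempty ((Fam (pA k 1 1) ⧸ Ideal.span {Fam.of (pA k 1 1) (X 0) - Fam.of _ (C c)}) ≃ₐ[k]
      MvPolynomial (Fin 3) k) := by
  have hcc : (C c : MvPolynomial (Fin 3) k) * C c⁻¹ = 1 := by
    rw [← map_mul, mul_inv_cancel₀ hc, map_one]
  let b : Lam k →+* MvPolynomial (Fin 3) k :=
    eval₂Hom C ![C c, (X 0 * X 2 - X 1 * (X 1 + 1)) * C c⁻¹, X 0]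
  have b0 : b (X 0) = C c := by simp [b]
  have b1 : b (X 1) = (X 0 * X 2 - X 1 * (X 1 + 1)) * C c⁻¹ := by simp [b]
  have b2 : b (X 2) = X 0 := by simp [b]
  have bC : ∀ a, b (C a) = C a := by simp [b]
  clear_value b
  let μ : Fam (pA k 1 1) →+* MvPolynomial (Fin 3) k :=
    Fam.liftYZ _ b (C c⁻¹) (X 1) (X 2) (by rw [pA_π, pow_one, b0, hcc])
      (by
        rw [pA_π, pA_ξ, pA_c₂, pow_one, pow_one, b0, b1, b2]
        linear_combination (-(X 0 * X 2 - X 1 * (X 1 + 1))) * hcc)
  have m0 : ∀ q, μ (Fam.of _ q) = b q := fun q => by simp [μ]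
  have my : μ (Fam.y _) = X 1 := by simp [μ]
  have mz : μ (Fam.z _) = X 2 := by simp [μ]
  clear_value μ
  let ν : MvPolynomial (Fin 3) k →+* Fam (pA k 1 1) :=
    eval₂Hom ((Fam.of _).comp C) ![Fam.of _ (X 2), Fam.y _, Fam.z _]
  have n0 : ν (X 0) = Fam.of _ (X 2) := by simp [ν]
  have n1 : ν (X 1) = Fam.y _ := by simp [ν]
  have n2 : ν (X 2) = Fam.z _ := by simp [ν]
  have nC : ∀ a, ν (C a) = Fam.of _ (C a) := by simp [ν]
  clear_value ν
  set I : Ideal (Fam (pA k 1 1)) := Ideal.span {Fam.of (pA k 1 1) (X 0) - Fam.of _ (C c)} with hI0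
  have hI : Ideal.Quotient.mk I (Fam.of _ (X 0)) = Ideal.Quotient.mk I (Fam.of _ (C c)) :=
    Ideal.Quotient.eq.2 (Ideal.mem_span_singleton_self _)
  have hcA : Ideal.Quotient.mk I (Fam.of _ (C c)) * Ideal.Quotient.mk I (Fam.of _ (C c⁻¹)) = 1 := by
    rw [← map_mul, ← map_mul, hcc, map_one, map_one]
  refine quot_equiv_of I μ (fun a => ?_) ν ?_ ?_ ?_
  · rw [← Fam.of_algebraMap, m0, algebraMap_eq, bC]
  · intro a ha
    obtain ⟨a, rfl⟩ := Ideal.mem_span_singleton.1 ha
    rw [map_mul, map_sub, m0, m0, b0, bC, sub_self, zero_mul]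
  · have : μ.comp ν = RingHom.id _ := by
      apply MvPolynomial.ringHom_ext
      · intro a; simp [nC, m0, bC]
      · intro i
        fin_cases i
        · simp [n0, m0, b2]
        · simp [n1, my]
        · simp [n2, mz]
    exact fun b => RingHom.congr_fun this b
  · have hb : (((Ideal.Quotient.mk I).comp ν).comp μ).comp (Fam.of _) =
        (Ideal.Quotient.mk I).comp (Fam.of _) := by
      apply MvPolynomial.ringHom_ext
      · intro a
        simp only [RingHom.comp_apply, m0, bC, nC]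
      · intro i
        fin_cases i
        · simp [m0, b0, nC, hI]
        · have h3 := congrArg (Ideal.Quotient.mk I) (Fam.rel3 (pA k 1 1))
          simp only [pA_π, pA_ξ, pA_c₂, pow_one, map_sub, map_mul, map_add, map_one, hI] at h3
          simp only [Fin.mk_one, RingHom.comp_apply, m0, b1, map_sub, map_mul, map_add, map_one,
            n0, n1, n2, nC, h3]
          linear_combination Ideal.Quotient.mk I (Fam.of _ (X 1)) * hcA
        · simp [m0, b2, n0]
    refine Fam.hom_ext_yz _ (fun a => RingHom.congr_fun hb a) ?_ ?_ ?_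
    · simp only [RingHom.comp_apply, my, n1]
    · simp only [RingHom.comp_apply, mz, n2]
    · intro t ht
      simp only [RingHom.comp_apply, pA_π, pow_one, m0, b0, nC] at ht
      linear_combination Ideal.Quotient.mk I (Fam.of _ (C c⁻¹)) * ht - t * hcA

theorem fiber_zero (k : Type*) [Field k] :
    Nonempty ((Fam (pA k 1 1) ⧸ Ideal.span {Fam.of (pA k 1 1) (X 0) - Fam.of _ (C 0)}) ≃ₐ[k]
      MvPolynomial (Fin 3) k) := by
  rw [map_zero, map_zero, sub_zero]
  let b : Lam k →+* MvPolynomial (Fin 3) k := eval₂Hom C ![0, X 1, X 0 ^ 2 - X 1 ^ 2]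
  have b0 : b (X 0) = 0 := by simp [b]
  have b1 : b (X 1) = X 1 := by simp [b]
  have b2 : b (X 2) = X 0 ^ 2 - X 1 ^ 2 := by simp [b]
  have bC : ∀ a, b (C a) = C a := by simp [b]
  clear_value b
  let μ : Fam (pA k 1 1) →+* MvPolynomial (Fin 3) k :=
    Fam.lift _ b (X 0) (4 * X 0 ^ 2 * X 1 + (1 + 2 * X 0 * (X 0 ^ 2 - X 1 ^ 2)) * X 2)
      (-(1 - 2 * X 0 * (X 0 ^ 2 - X 1 ^ 2)) * X 1 + (X 0 ^ 2 - X 1 ^ 2) ^ 2 * X 2)
      (by simp only [pA_π, pA_c₁, map_add, map_pow, b0, b1, b2]; ring)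
      (by simp only [pA_π, pA_ξ, pA_c₂, map_pow, b0, b1, b2]; ring)
  have m0 : ∀ q, μ (Fam.of _ q) = b q := fun q => by simp [μ]
  have ms : μ (Fam.s _) = X 0 := by simp only [μ, Fam.lift_s]
  have mF : μ (Fam.F _) = 4 * X 0 ^ 2 * X 1 + (1 + 2 * X 0 * (X 0 ^ 2 - X 1 ^ 2)) * X 2 := by
    simp only [μ, Fam.lift_F]
  have mJ : μ (Fam.J _) =
      -(1 - 2 * X 0 * (X 0 ^ 2 - X 1 ^ 2)) * X 1 + (X 0 ^ 2 - X 1 ^ 2) ^ 2 * X 2 := by
    simp only [μ, Fam.lift_J]
  clear_value μ
  let ν : MvPolynomial (Fin 3) k →+* Fam (pA k 1 1) :=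
    eval₂Hom ((Fam.of _).comp C) ![Fam.s _, Fam.of _ (X 1),
      (1 - 2 * Fam.s _ * Fam.of _ (X 2)) * Fam.F _ + 4 * Fam.s _ ^ 2 * Fam.J _]
  have n0 : ν (X 0) = Fam.s _ := by simp [ν]
  have n1 : ν (X 1) = Fam.of _ (X 1) := by simp [ν]
  have n2 : ν (X 2) =
      (1 - 2 * Fam.s _ * Fam.of _ (X 2)) * Fam.F _ + 4 * Fam.s _ ^ 2 * Fam.J _ := by simp [ν]
  have nC : ∀ a, ν (C a) = Fam.of _ (C a) := by simp [ν]
  clear_value ν
  set I : Ideal (Fam (pA k 1 1)) := Ideal.span {Fam.of (pA k 1 1) (X 0)} with hI0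
  have hI : Ideal.Quotient.mk I (Fam.of _ (X 0)) = 0 :=
    Ideal.Quotient.eq_zero_iff_mem.2 (Ideal.mem_span_singleton_self _)
  have q1 := congrArg (Ideal.Quotient.mk I) (Fam.rel1 (pA k 1 1))
  have q2 := congrArg (Ideal.Quotient.mk I) (Fam.rel2 (pA k 1 1))
  simp only [pA_π, pA_ξ, pA_c₁, pA_c₂, pow_one, mul_one, map_add, map_sub, map_mul, map_pow,
    map_one, map_ofNat, hI] at q1 q2
  have q3 : Ideal.Quotient.mk I (Fam.s _) ^ 2 - Ideal.Quotient.mk I (Fam.of _ (X 1)) ^ 2 =
      Ideal.Quotient.mk I (Fam.of _ (X 2)) := by linear_combination q1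
  refine quot_equiv_of I μ (fun a => ?_) ν ?_ ?_ ?_
  · rw [← Fam.of_algebraMap, m0, algebraMap_eq, bC]
  · intro a ha
    obtain ⟨a, rfl⟩ := Ideal.mem_span_singleton.1 ha
    rw [map_mul, m0, b0, zero_mul]
  · have : μ.comp ν = RingHom.id _ := by
      apply MvPolynomial.ringHom_ext
      · intro a; simp [nC, m0, bC]
      · intro i
        fin_cases i
        · simp [n0, ms]
        · simp [n1, m0, b1]
        · simp only [Fin.reduceFinMk, RingHom.comp_apply, RingHom.id_apply, n2, map_add, map_sub,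
            map_mul, map_pow, map_one, map_ofNat, ms, mF, mJ, m0, b2]
          ring
    exact fun b => RingHom.congr_fun this b
  · have hb : (((Ideal.Quotient.mk I).comp ν).comp μ).comp (Fam.of _) =
        (Ideal.Quotient.mk I).comp (Fam.of _) := by
      apply MvPolynomial.ringHom_ext
      · intro a
        simp only [RingHom.comp_apply, m0, bC, nC]
      · intro i
        fin_cases i
        · simp [m0, b0, hI]
        · simp [m0, b1, n1]
        · simp [m0, b2, n0, n1, q3]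
    refine Fam.hom_ext _ (fun a => RingHom.congr_fun hb a) ?_ ?_ ?_
    · simp only [RingHom.comp_apply, ms, n0]
    · simp only [RingHom.comp_apply, mF, map_add, map_sub, map_mul, map_pow, map_one, map_ofNat,
        n0, n1, n2, q3]
      linear_combination (-4 * Ideal.Quotient.mk I (Fam.s _) ^ 2) * q2
    · simp only [RingHom.comp_apply, mJ, map_add, map_sub, map_mul, map_pow, map_neg, map_one,
        map_ofNat, n0, n1, n2, q3]
      linear_combination
        (1 - 2 * Ideal.Quotient.mk I (Fam.s _) * Ideal.Quotient.mk I (Fam.of _ (X 2))) * q2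

theorem polyF_fiber (c : ℂ) :
    Nonempty ((MvPolynomial (Fin 4) ℂ ⧸ Ideal.span {polyF - C c}) ≃ₐ[ℂ]
      MvPolynomial (Fin 3) ℂ) := by
  have h : Nonempty ((Fam (pA ℂ 1 1) ⧸ Ideal.span {pp - Fam.of _ (C c)}) ≃ₐ[ℂ]
      MvPolynomial (Fin 3) ℂ) := by
    by_cases hc : c = 0
    · subst hc; exact fiber_zero ℂ
    · exact fiber_ne ℂ hc
  obtain ⟨e⟩ := h
  refine ⟨(Ideal.quotientEquivAlg _ _ equiv4 ?_).symm.trans e⟩
  rw [Ideal.map_span, Set.image_singleton]
  congr 2
  rw [RingHom.coe_coe, map_sub, equiv4_pp, equiv4_apply, alpha_of, base4_C]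

theorem main_four :
    (IsStableCoordinateOfOrder 1 polyF ∧ ¬ IsCoordinate polyF ∧
      ∀ c : ℂ, Nonempty ((MvPolynomial (Fin 4) ℂ ⧸ Ideal.span {polyF - MvPolynomial.C c}) ≃ₐ[ℂ]
        MvPolynomial (Fin 3) ℂ)) ∧
    ¬ ∀ n : ℕ, 1 ≤ n → ∀ f : MvPolynomial (Fin n) ℂ, IsStableCoordinate f → IsCoordinate f :=
  ⟨⟨polyF_stable, polyF_not_coordinate, polyF_fiber⟩, fun h =>
    polyF_not_coordinate (h 4 (by norm_num) polyF ⟨1, le_rfl, polyF_stable⟩)⟩

end Vale.Agent.P295
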