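import Mathlib

/-! Locally nilpotent derivations and their exponentials. -/

namespace Vale.Agent.P295

open Polynomial

/-- A locally nilpotent `k`-derivation of `A`, in a light-weight form. -/
structure LND (k A : Type*) [CommRing k] [CommRing A] [Algebra k A] where
  toFun : A →+ A
  leibniz : ∀ a b, toFun (a * b) = a * toFun b + b * toFun a
  const : ∀ c : k, toFun (algebraMap k A c) = 0
  nil : ∀ a, ∃ n : ℕ, (toFun : A → A)^[n] a = 0

namespace LND

section basic

variable {k A : Type*} [CommRing k] [CommRing A] [Algebra k A] (D : LND k A)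

theorem map_one' : D.toFun 1 = 0 := by
  simpa using D.const 1

theorem iter_zero (n : ℕ) : (D.toFun : A → A)^[n] 0 = 0 :=
  Function.iterate_fixed (map_zero D.toFun) n

theorem iter_add (n : ℕ) (a b : A) :
    (D.toFun : A → A)^[n] (a + b) = (D.toFun : A → A)^[n] a + (D.toFun : A → A)^[n] b :=
  iterate_map_add D.toFun n a b

theorem iter_mul (n : ℕ) (a b : A) :
    (D.toFun : A → A)^[n] (a * b) = ∑ ij ∈ Finset.HasAntidiagonal.antidiagonal n,
      n.choose ij.1 • ((D.toFun : A → A)^[ij.1] a * (D.toFun : A → A)^[ij.2] b) := by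
  induction n with
  | zero => simp
  | succ n ih =>
    rw [Finset.sum_antidiagonal_choose_succ_nsmul (M := A)
      (fun i j => (D.toFun : A → A)^[i] a * (D.toFun : A → A)^[j] b) n]
    simp only [Function.iterate_succ_apply', ih, map_sum, map_nsmul, D.leibniz, smul_add,
      Finset.sum_add_distrib]
    congr 1
    refine Finset.sum_congr rfl fun ⟨i, j⟩ hij ↦ ?_
    rw [n.choose_symm_of_eq_add (Finset.HasAntidiagonal.mem_antidiagonal.1 hij).symm, mul_comm]

theorem iter_of_le {a : A} {n m : ℕ} (h : (D.toFun : A → A)^[n] a = 0) (hnm : n ≤ m) :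
    (D.toFun : A → A)^[m] a = 0 := by
  obtain ⟨d, rfl⟩ := Nat.exists_eq_add_of_le' hnm
  rw [Function.iterate_add_apply, h, D.iter_zero]

theorem mul_of_ker {e : A} (he : D.toFun e = 0) (a : A) : D.toFun (e * a) = e * D.toFun a := by
  rw [D.leibniz, he]; simp

theorem iter_mul_of_ker {e : A} (he : D.toFun e = 0) (n : ℕ) (a : A) :
    (D.toFun : A → A)^[n] (e * a) = e * (D.toFun : A → A)^[n] a := by
  induction n with
  | zero => simp
  | succ n ih => rw [Function.iterate_succ_apply', ih, D.mul_of_ker he, Function.iterate_succ_apply']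

theorem map_smul' (c : k) (a : A) : D.toFun (c • a) = c • D.toFun a := by
  rw [Algebra.smul_def, D.mul_of_ker (D.const c), Algebra.smul_def]

end basic

section exp

variable {k A : Type*} [Field k] [CharZero k] [CommRing A] [Algebra k A] (D : LND k A)

/-- The exponential of a locally nilpotent derivation applied to an element. -/
noncomputable def expFun (a : A) : A[X] :=
  ∑ n ∈ Finset.range (D.nil a).choose,
    monomial n (((n.factorial : k)⁻¹) • (D.toFun : A → A)^[n] a)

omit [CharZero k] in
theorem coeff_expFun (a : A) (n : ℕ) :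
    (D.expFun a).coeff n = ((n.factorial : k)⁻¹) • (D.toFun : A → A)^[n] a := by
  simp only [expFun, finsetSum_coeff, coeff_monomial, Finset.sum_ite_eq', Finset.mem_range]
  split_ifs with h
  · rfl
  · rw [D.iter_of_le (D.nil a).choose_spec (not_lt.1 h), smul_zero]

/-- The exponential as a ring homomorphism. -/
noncomputable def exp : A →+* A[X] where
  toFun := D.expFun
  map_one' := by
    ext n
    rw [coeff_expFun, coeff_one]
    cases n with
    | zero => simp
    | succ n => simp [Function.iterate_succ_apply, D.map_one', D.iter_zero]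
  map_zero' := by
    ext n
    simp [coeff_expFun, D.iter_zero]
  map_add' a b := by
    ext n
    simp [coeff_expFun, D.iter_add]
  map_mul' a b := by
    ext n
    rw [coeff_mul, coeff_expFun, D.iter_mul, Finset.smul_sum]
    refine Finset.sum_congr rfl fun ⟨i, j⟩ hij ↦ ?_
    rw [coeff_expFun, coeff_expFun, smul_mul_smul_comm, ← Nat.cast_smul_eq_nsmul k, smul_smul]
    congr 1
    have hij' : i + j = n := Finset.HasAntidiagonal.mem_antidiagonal.1 hij
    subst hij'
    have h1 : ((i + j).choose i : k) * i.factorial * j.factorial = (i + j).factorial := by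
      have := Nat.add_choose_mul_factorial_mul_factorial j i
      rw [add_comm j i, mul_right_comm] at this
      exact_mod_cast this
    have hi : (i.factorial : k) ≠ 0 := by exact_mod_cast i.factorial_ne_zero
    have hj : (j.factorial : k) ≠ 0 := by exact_mod_cast j.factorial_ne_zero
    have hc : (((i + j).choose i : ℕ) : k) ≠ 0 := by
      exact_mod_cast (Nat.choose_pos (Nat.le_add_right i j)).ne'
    rw [← h1]
    field_simp

theorem coeff_exp (a : A) (n : ℕ) :
    (D.exp a).coeff n = ((n.factorial : k)⁻¹) • (D.toFun : A → A)^[n] a :=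
  D.coeff_expFun a n

theorem coeff_exp_zero (a : A) : (D.exp a).coeff 0 = a := by
  simp [coeff_exp]

theorem coeff_exp_one (a : A) : (D.exp a).coeff 1 = D.toFun a := by
  simp [coeff_exp]

theorem exp_injective : Function.Injective D.exp := fun a b h => by
  rw [← D.coeff_exp_zero a, h, D.coeff_exp_zero]

theorem exp_of_ker {a : A} (h : D.toFun a = 0) : D.exp a = C a := by
  ext n
  cases n with
  | zero => simp [coeff_exp]
  | succ n => simp [coeff_exp, Function.iterate_succ_apply, h, D.iter_zero]

theorem ker_of_natDegree {a : A} (h : (D.exp a).natDegree = 0) : D.toFun a = 0 := by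
  rw [← D.coeff_exp_one, coeff_eq_zero_of_natDegree_lt]
  omega

theorem map_coeff_exp (a : A) (n : ℕ) (h : (D.exp a).natDegree ≤ n) :
    D.toFun ((D.exp a).coeff n) = 0 := by
  have h1 : (D.exp a).coeff (n + 1) = 0 := coeff_eq_zero_of_natDegree_lt (by omega)
  rw [coeff_exp, Function.iterate_succ_apply'] at h1
  rw [coeff_exp, D.map_smul']
  have hn : (((n + 1).factorial : ℕ) : k) ≠ 0 := by exact_mod_cast (n + 1).factorial_ne_zero
  have h2 : D.toFun ((D.toFun : A → A)^[n] a) = 0 := by
    have := congrArg (fun t => (((n + 1).factorial : ℕ) : k) • t) h1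
    simpa [smul_smul, mul_inv_cancel₀ hn] using this
  rw [h2, smul_zero]

end exp

end LND

end Vale.Agent.P295
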