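import Mathlib

/-! Elementary lemmas on one-variable polynomials over a field. -/

namespace Vale.Agent.P295

open Polynomial

variable {K : Type*} [Field K]

theorem factor_quadric {j : ℕ} (hj : 0 < j) {x y z : K[X]} (hx : x ≠ 0)
    (h : x ^ j * z = y * (y + 1)) :
    ∃ a b c d : K[X], x = a * b ∧ y = b ^ j * c ∧ y + 1 = a ^ j * d ∧ z = c * d := by
  have h1 : x ∣ y * (y + 1) := h ▸ Dvd.dvd.mul_right (dvd_pow_self x hj.ne') z
  obtain ⟨b, a, hb, ha, rfl⟩ := exists_dvd_and_dvd_of_dvd_mul h1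
  have hcop : IsCoprime y (y + 1) := ⟨-1, 1, by ring⟩
  have hay : IsCoprime (a ^ j) y := (IsCoprime.of_isCoprime_of_dvd_left hcop.symm ha).pow_left
  have hby : IsCoprime (b ^ j) (y + 1) := (IsCoprime.of_isCoprime_of_dvd_left hcop hb).pow_left
  obtain ⟨d, hd⟩ : a ^ j ∣ y + 1 :=
    hay.dvd_of_dvd_mul_left ⟨b ^ j * z, by rw [← h]; ring⟩
  obtain ⟨c, hc⟩ : b ^ j ∣ y :=
    hby.dvd_of_dvd_mul_right ⟨a ^ j * z, by rw [← h]; ring⟩
  refine ⟨a, b, c, d, mul_comm _ _, hc, hd, ?_⟩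
  apply mul_left_cancel₀ (pow_ne_zero j hx)
  rw [h, hd]
  nth_rewrite 1 [hc]
  ring

theorem exists_V {R : Type*} [CommRing R] [IsDomain R] {π A B U c d F J s : R} (hπ : π ≠ 0)
    (h1 : A * d - B * c = 1) (hs : s = c * d - A * B * U ^ 2) (hF : π * F = U ^ 2 - s ^ 2)
    (hJ : π * J = B * c - s * (A * B)) :
    ∃ V, π * V = (A * U) ^ 2 - c ^ 2 ∧ V ∣ F ∧ V ∣ J := by
  have hJ' : π * J = B ^ 2 * ((A * U) ^ 2 - c ^ 2) := by
    rw [hJ, hs]; linear_combination (-(B * c)) * h1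
  have hF' : π * F = (d ^ 2 - B ^ 2 * U ^ 2) * ((A * U) ^ 2 - c ^ 2) := by
    rw [hF, hs]; linear_combination (-(U ^ 2 * (A * d - B * c + 1))) * h1
  have hV : π * ((A ^ 3 * d - 3 * A ^ 2 * B * c) * (F + U ^ 2 * J) +
      (3 * A * d * c ^ 2 - B * c ^ 3) * J) = (A * U) ^ 2 - c ^ 2 := by
    linear_combination (A ^ 3 * d - 3 * A ^ 2 * B * c) * hF' +
      ((A ^ 3 * d - 3 * A ^ 2 * B * c) * U ^ 2 + (3 * A * d * c ^ 2 - B * c ^ 3)) * hJ' +
      ((A * U) ^ 2 - c ^ 2) * ((A * d - B * c) ^ 2 + (A * d - B * c) + 1) * h1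
  refine ⟨_, hV, ⟨d ^ 2 - B ^ 2 * U ^ 2, mul_left_cancel₀ hπ ?_⟩, ⟨B ^ 2, mul_left_cancel₀ hπ ?_⟩⟩
  · rw [hF', ← mul_assoc, hV]; ring
  · rw [hJ', ← mul_assoc, hV]; ring

theorem quartic_case [CharZero K] {τ u a c : K[X]} {v : K} (hv : v ≠ 0) (hτ : τ ≠ 0) (hu : u ≠ 0)
    (ha : a ≠ 0) (hc : c ≠ 0) (hac : IsCoprime a c)
    (h : τ ^ 4 * C v = (a * u) ^ 4 - c ^ 2) : ∃ ν : K, u = C ν * τ := by
  classical
  obtain ⟨τ₁, w₁, h1, h2, h3⟩ := extract_gcd τ (a * u)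
  set e := gcd τ (a * u) with he
  have he0 : e ≠ 0 := fun h0 => hτ (by rw [h1, h0, zero_mul])
  have hcop : IsCoprime τ₁ w₁ := (gcd_isUnit_iff _ _).1 h3
  have h4 : c ^ 2 = (e ^ 2) ^ 2 * (w₁ ^ 4 - τ₁ ^ 4 * C v) := by
    rw [h2] at h
    nth_rewrite 1 [h1] at h
    linear_combination h
  obtain ⟨c₁, hc₁⟩ : e ^ 2 ∣ c :=
    (IsIntegrallyClosed.pow_dvd_pow_iff two_ne_zero).1 ⟨_, h4⟩
  have h5 : C v * τ₁ ^ 4 + C (-1) * w₁ ^ 4 + C 1 * c₁ ^ 2 = 0 := by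
    apply mul_left_cancel₀ (pow_ne_zero 4 he0)
    rw [hc₁] at h4
    simp only [map_neg, map_one]
    linear_combination h4
  have hτ₁ : τ₁ ≠ 0 := fun h0 => hτ (by rw [h1, h0, mul_zero])
  have hw₁ : w₁ ≠ 0 := fun h0 => mul_ne_zero ha hu (by rw [h2, h0, mul_zero])
  have hc₁0 : c₁ ≠ 0 := fun h0 => hc (by rw [hc₁, h0, mul_zero])
  obtain ⟨d1, d2, -⟩ := Polynomial.flt_catalan (p := 4) (q := 4) (r := 2) (by norm_num)
    (by norm_num) (by norm_num) (by norm_num) (by norm_num) (by norm_num) (by norm_num)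
    hτ₁ hw₁ hc₁0 hcop hv (by norm_num) one_ne_zero h5
  obtain ⟨l, rfl⟩ := natDegree_eq_zero.1 d1
  obtain ⟨μ, rfl⟩ := natDegree_eq_zero.1 d2
  have hl : l ≠ 0 := fun h0 => hτ₁ (by rw [h0, map_zero])
  have hae : IsCoprime a e :=
    IsCoprime.of_isCoprime_of_dvd_right hac ⟨e * c₁, by rw [hc₁]; ring⟩
  have haμ : a ∣ C μ := hae.dvd_of_dvd_mul_left ⟨u, h2.symm⟩
  have hda : a.natDegree = 0 := by
    have := natDegree_le_of_dvd haμ hw₁
    simpa using this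
  obtain ⟨α, rfl⟩ := natDegree_eq_zero.1 hda
  have hα : α ≠ 0 := fun h0 => ha (by rw [h0, map_zero])
  refine ⟨μ / (α * l), ?_⟩
  apply mul_left_cancel₀ ha
  have : C α * C (μ / (α * l)) * C l = C μ := by
    rw [← map_mul, ← map_mul]; congr 1; field_simp
  linear_combination h2 - e * this - C α * C (μ / (α * l)) * h1

theorem const_case [CharZero K] {w c : K[X]} {v : K} (hv : v ≠ 0)
    (h : C v = w ^ 2 - c ^ 2) : w.natDegree = 0 ∧ c.natDegree = 0 := by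
  have h1 : (w - c) * (w + c) = C v := by rw [h]; ring
  have hv' : (C v : K[X]) ≠ 0 := C_ne_zero.2 hv
  have d1 : (w - c).natDegree = 0 := by
    simpa using natDegree_le_of_dvd ⟨_, h1.symm⟩ hv'
  have d2 : (w + c).natDegree = 0 := by
    simpa using natDegree_le_of_dvd ⟨w - c, by rw [← h1]; ring⟩ hv'
  obtain ⟨p, hp⟩ := natDegree_eq_zero.1 d1
  obtain ⟨q, hq⟩ := natDegree_eq_zero.1 d2
  have h2 : C (2⁻¹ : K) * 2 = 1 := by
    rw [← map_ofNat C 2, ← map_mul]; simp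
  constructor
  · have : w = C ((p + q) * 2⁻¹) := by
      rw [map_mul, map_add, hp, hq]; linear_combination (-w) * h2
    rw [this, natDegree_C]
  · have : c = C ((q - p) * 2⁻¹) := by
      rw [map_mul, map_sub, hp, hq]; linear_combination (-c) * h2
    rw [this, natDegree_C]

theorem no_pole {j : ℕ} (hj : 0 < j) {κ ρ : K[X]} (hκ : κ ≠ 0) {S : Type*} [Field S]
    (i : K[X] →+* S) (hi : Function.Injective i) :
    eval₂ (i.comp C) (1 - (i X)⁻¹ ^ j) κ ≠ i (X * ρ) := by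
  intro h
  have hX : i X ≠ 0 := fun h0 => X_ne_zero (hi (by rw [h0, map_zero]))
  let κ₁ : K[X] := κ.comp (1 - X ^ j)
  have hd : (1 - X ^ j : K[X]).natDegree = j := by
    rw [← natDegree_neg, neg_sub, ← C_1, natDegree_X_pow_sub_C]
  have hκ₁ : κ₁ ≠ 0 := by
    intro h0
    rcases comp_eq_zero_iff.1 h0 with h1 | ⟨-, h1⟩
    · exact hκ h1
    · rw [h1, natDegree_C] at hd; omega
  have h1 : eval₂ (i.comp C) (i X)⁻¹ κ₁ = i (X * ρ) := by
    rw [← h, eval₂_comp]; simp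
  let _ : Invertible (i X)⁻¹ := invertibleOfNonzero (inv_ne_zero hX)
  have h2 := eval₂_reverse_mul_pow (i.comp C) (i X)⁻¹ κ₁
  rw [h1, invOf_eq_inv, inv_inv] at h2
  have h3 : eval₂ (i.comp C) (i X) κ₁.reverse = i κ₁.reverse := by
    rw [← hom_eval₂]; simp
  rw [h3] at h2
  have h4 : κ₁.reverse = X * ρ * X ^ κ₁.natDegree := by
    apply hi
    rw [map_mul, ← h2, map_pow, mul_assoc, ← mul_pow, inv_mul_cancel₀ hX]; simp
  have h5 := congrArg (fun q => q.coeff 0) h4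
  simp only [coeff_zero_reverse, mul_coeff_zero, coeff_X_zero, zero_mul] at h5
  exact hκ₁ (leadingCoeff_eq_zero.1 h5)

end Vale.Agent.P295
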