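import Vale.Agent.P295.LND
import Vale.Agent.P295.Fam
import Vale.Agent.P295.PolyLemmas

/-! Rigidity of the fully degenerate algebra. -/

namespace Vale.Agent.P295

section

open MvPolynomial

theorem dvd_algHom_sub {k σ : Type*} [CommRing k] (φ : MvPolynomial σ k →ₐ[k] MvPolynomial σ k)
    (e : MvPolynomial σ k) (h : ∀ i, e ∣ φ (X i) - X i) (g : MvPolynomial σ k) : e ∣ φ g - g := by
  induction g using MvPolynomial.induction_on with
  | C a => simp [algHom_C]
  | add p q hp hq => convert dvd_add hp hq using 1; rw [map_add]; ring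
  | mul_X p i hp =>
    convert dvd_add (dvd_mul_of_dvd_left hp (φ (X i))) (dvd_mul_of_dvd_right (h i) p) using 1
    rw [map_mul]; ring

theorem exists_field.{u} (R : Type u) [CommRing R] [IsDomain R] :
    ∃ (K : Type u) (_ : Field K) (a : R →+* K), Function.Injective a :=
  ⟨FractionRing R, inferInstance, algebraMap R _, IsFractionRing.injective _ _⟩

theorem X_not_dvd_two {k σ : Type*} [Field k] [CharZero k] (i : σ) :
    ¬ (X i : MvPolynomial σ k) ∣ 2 := by
  intro h
  have := map_dvd (eval (fun _ => (0 : k))) h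
  simp [map_ofNat] at this

variable (k : Type*) [Field k]

/-- base ring `k[τ, u, x]` -/
abbrev Lam := MvPolynomial (Fin 3) k
/-- the field `k(τ, u)` -/
def LL := FractionRing (MvPolynomial (Fin 2) k)

noncomputable instance : Field (LL k) :=
  inferInstanceAs (Field (FractionRing (MvPolynomial (Fin 2) k)))
noncomputable instance : Algebra (MvPolynomial (Fin 2) k) (LL k) :=
  inferInstanceAs (Algebra (MvPolynomial (Fin 2) k) (FractionRing (MvPolynomial (Fin 2) k)))
instance : IsFractionRing (MvPolynomial (Fin 2) k) (LL k) :=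
  inferInstanceAs (IsFractionRing (MvPolynomial (Fin 2) k) (FractionRing (MvPolynomial (Fin 2) k)))
/-- constants -/
noncomputable def cL : k →+* LL k := (algebraMap (MvPolynomial (Fin 2) k) (LL k)).comp C

/-- the ring `k(τ, u)[s'][x]` -/
abbrev WW := Polynomial (Polynomial (LL k))

/-- parameters of the degenerate algebras -/
noncomputable def pG (j m : ℕ) (c₁ : Lam k) : Par (Lam k) := ⟨X 0 ^ m, X 2 ^ j, c₁, 0⟩

@[simp] theorem pG_π (j m : ℕ) (c₁ : Lam k) : (pG k j m c₁).π = X 0 ^ m := rfl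
@[simp] theorem pG_ξ (j m : ℕ) (c₁ : Lam k) : (pG k j m c₁).ξ = X 2 ^ j := rfl
@[simp] theorem pG_c₁ (j m : ℕ) (c₁ : Lam k) : (pG k j m c₁).c₁ = c₁ := rfl
@[simp] theorem pG_c₂ (j m : ℕ) (c₁ : Lam k) : (pG k j m c₁).c₂ = 0 := rfl

/-- the variable `τ` -/
noncomputable def τL : LL k := algebraMap (MvPolynomial (Fin 2) k) _ (X 0)
/-- the variable `u` -/
noncomputable def uL : LL k := algebraMap (MvPolynomial (Fin 2) k) _ (X 1)

theorem τL_ne : τL k ≠ 0 := by
  simp [τL]

theorem uL_ne : uL k ≠ 0 := by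
  simp [uL]

/-- base map -/
noncomputable def toW : Lam k →+* WW k :=
  eval₂Hom (Polynomial.C.comp (Polynomial.C.comp (cL k)))
    ![Polynomial.C (Polynomial.C (τL k)), Polynomial.C (Polynomial.C (uL k)), Polynomial.X]

variable {k}

/-- The chart of the degenerate algebra. -/
noncomputable def chart (j m : ℕ) (c₁ : Lam k) : Fam (pG k j m c₁) →+* WW k :=
  Fam.liftYZ _ (toW k) (Polynomial.C (Polynomial.C ((τL k)⁻¹ ^ m)))
    (Polynomial.X ^ j * Polynomial.C Polynomial.X)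
    (Polynomial.C Polynomial.X * (1 + Polynomial.X ^ j * Polynomial.C Polynomial.X))
    (by
      simp only [pG, toW, map_pow (eval₂Hom _ _), eval₂Hom_X', Matrix.cons_val_zero]
      rw [← map_pow, ← map_pow, ← map_mul, ← map_mul, ← mul_pow, mul_inv_cancel₀ (τL_ne k)]; simp)
    (by simp [pG, toW]; ring)

theorem chart_of (j m : ℕ) (c₁ a : Lam k) : chart j m c₁ (Fam.of _ a) = toW k a := by
  simp [chart]

theorem chart_y (j m : ℕ) (c₁ : Lam k) :
    chart j m c₁ (Fam.y _) = Polynomial.X ^ j * Polynomial.C Polynomial.X := by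
  simp [chart]

theorem chart_z (j m : ℕ) (c₁ : Lam k) :
    chart j m c₁ (Fam.z _) =
      Polynomial.C Polynomial.X * (1 + Polynomial.X ^ j * Polynomial.C Polynomial.X) := by
  simp [chart]

theorem toW_0 : toW k (X 0) = Polynomial.C (Polynomial.C (τL k)) := by simp [toW]
theorem toW_1 : toW k (X 1) = Polynomial.C (Polynomial.C (uL k)) := by simp [toW]
theorem toW_2 : toW k (X 2) = Polynomial.X := by simp [toW]
theorem toW_C (c : k) : toW k (C c) = Polynomial.C (Polynomial.C (cL k c)) := by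
  simp [toW]

theorem nzd_X_pow [CharZero k] {n : ℕ} (p : Par (MvPolynomial (Fin n) k)) (i : Fin n) (m : ℕ)
    (g : Fam p) (h : Fam.of p (X i ^ m) * g = 0) : g = 0 :=
  Fam.nzd_pow p X_prime (X_not_dvd_two i) m g (by rwa [map_pow] at h)

theorem chart_injective [CharZero k] (j m : ℕ) (c₁ : Lam k) :
    Function.Injective (chart j m c₁) := by
  refine Fam.injective_of_y _ _ (nzd_X_pow _ 0 m) (nzd_X_pow _ 2 j) ?_
  obtain ⟨K₁, _, a, ha⟩ := exists_field (Polynomial (Lam k))
  let r : MvPolynomial (Fin 2) k →+* K₁ :=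
    (a.comp Polynomial.C).comp (rename (Fin.castSucc : Fin 2 → Fin 3)).toRingHom
  have hr : Function.Injective r :=
    ha.comp (Polynomial.C_injective.comp (rename_injective _ (Fin.castSucc_injective 2)))
  let l : LL k →+* K₁ := IsFractionRing.lift hr
  have hl : ∀ q, l (algebraMap (MvPolynomial (Fin 2) k) _ q) = r q :=
    fun q => IsFractionRing.lift_algebraMap hr q
  have hx : a (Polynomial.C (X 2)) ≠ 0 := fun h0 => by
    have := ha (h0.trans (map_zero a).symm)
    simp at this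
  let ω : WW k →+* K₁ := Polynomial.eval₂RingHom
    (Polynomial.eval₂RingHom l (a Polynomial.X / a (Polynomial.C (X 2)) ^ j))
    (a (Polynomial.C (X 2)))
  have key : ω.comp (Polynomial.eval₂RingHom ((chart j m c₁).comp (Fam.of _))
      (chart j m c₁ (Fam.y _))) = a := by
    apply Polynomial.ringHom_ext'
    · apply MvPolynomial.ringHom_ext
      · intro c
        simp [ω, chart_of, toW_C, cL, hl, r]
      · intro i
        fin_cases i
        · simp [ω, chart_of, toW_0, τL, hl, r]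
        · simp [ω, chart_of, toW_1, uL, hl, r]
        · simp [ω, chart_of, toW_2]
    · simp only [ω, chart_y, RingHom.comp_apply, Polynomial.coe_eval₂RingHom, Polynomial.eval₂_X,
        Polynomial.eval₂_mul, Polynomial.eval₂_C, Polynomial.eval₂_X_pow]
      exact mul_div_cancel₀ _ (pow_ne_zero _ hx)
  rw [← key] at ha
  exact Function.Injective.of_comp ha

theorem isDomain_pG [CharZero k] (j m : ℕ) (c₁ : Lam k) : IsDomain (Fam (pG k j m c₁)) :=
  (chart_injective j m c₁).isDomain _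

theorem dvd_of_dvd_u_mul [CharZero k] (j m : ℕ) (c₁ : Lam k) (g : Fam (pG k j m c₁))
    (h : Fam.of _ (X 0) ∣ Fam.of _ (X 1) * g) : Fam.of _ (X 0) ∣ g := by
  let φ : Lam k →ₐ[k] MvPolynomial (Fin 2) k := aeval ![0, X 0, X 1]
  let ψ : MvPolynomial (Fin 2) k →ₐ[k] Lam k := aeval ![X 1, X 2]
  have hφψ : φ.comp ψ = AlgHom.id k _ := by
    ext i : 1
    fin_cases i <;> simp [φ, ψ]
  have hsurj : Function.Surjective φ.toRingHom := fun q => ⟨ψ q, AlgHom.congr_fun hφψ q⟩
  have hker : ∀ a, φ.toRingHom a = 0 ↔ (X 0 : Lam k) ∣ a := by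
    intro a
    constructor
    · intro ha
      have h1 := dvd_algHom_sub (ψ.comp φ) (X 0) (fun i => by fin_cases i <;> simp [φ, ψ]) a
      have h2 : φ a = 0 := ha
      simpa [h2] using h1
    · rintro ⟨b, rfl⟩
      simp [φ]
  let p' : Par (MvPolynomial (Fin 2) k) :=
    ⟨φ (pG k j m c₁).π, φ (pG k j m c₁).ξ, φ (pG k j m c₁).c₁, φ (pG k j m c₁).c₂⟩
  let μ := Fam.map (pG k j m c₁) p' φ.toRingHom rfl rfl rfl rfl
  have hμ := Fam.map_eq_zero_iff (pG k j m c₁) p' φ.toRingHom rfl rfl rfl rfl hsurj _ hker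
  rw [← hμ] at h ⊢
  rw [map_mul, Fam.map_of] at h
  refine nzd_X_pow p' 0 1 _ ?_
  simpa [φ] using h

end

open Polynomial

variable {k : Type*} [Field k]

/-- base map of the test curve -/
noncomputable def curveBase (k : Type*) [Field k] : Lam k →+* (LL k)[X] :=
  MvPolynomial.eval₂Hom (C.comp (cL k)) ![C (τL k), C (uL k), X]

theorem curveBase_0 : curveBase k (MvPolynomial.X 0) = C (τL k) := by simp [curveBase]
theorem curveBase_1 : curveBase k (MvPolynomial.X 1) = C (uL k) := by simp [curveBase]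
theorem curveBase_2 : curveBase k (MvPolynomial.X 2) = X := by simp [curveBase]
theorem curveBase_C (c : k) : curveBase k (MvPolynomial.C c) = C (cL k c) := by simp [curveBase]

/-- the test curve -/
noncomputable def curve (j m : ℕ) (c₁ : Lam k) : Fam (pG k j m c₁) →+* (LL k)[X] :=
  Fam.liftYZ _ (curveBase k) (C ((τL k)⁻¹ ^ m)) (X ^ j - 1) (X ^ j - 1)
    (by
      rw [pG_π, map_pow, curveBase_0, ← map_pow, ← map_mul, ← mul_pow,
        mul_inv_cancel₀ (τL_ne k)]; simp)
    (by rw [pG_ξ, pG_c₂, map_pow, curveBase_2, map_zero]; ring)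

theorem curve_of (j m : ℕ) (c₁ a : Lam k) : curve j m c₁ (Fam.of _ a) = curveBase k a := by
  simp [curve]

theorem curve_y (j m : ℕ) (c₁ : Lam k) : curve j m c₁ (Fam.y _) = X ^ j - 1 := by
  simp [curve]

theorem curve_contra {j m : ℕ} (hj : 0 < j) (c₁ : Lam k) (κ : Fam (pG k j m c₁))
    (κ₀ : (LL k)[X]) (hκ₀0 : κ₀ ≠ 0) (hκ₀ : C κ₀ = chart j m c₁ κ) (hκ : X ∣ curve j m c₁ κ) :
    False := by
  obtain ⟨ρ, hρ⟩ := hκ
  obtain ⟨K₂, _, i, hi⟩ := exists_field (LL k)[X]
  have hiX : i X ≠ 0 := fun h0 => X_ne_zero (hi (by rw [h0, map_zero]))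
  let ψ₂ : WW k →+* K₂ := eval₂RingHom (eval₂RingHom (i.comp C) (1 - (i X)⁻¹ ^ j)) (i X)
  have hbase₂ : (ψ₂.comp (chart j m c₁)).comp (Fam.of _) =
      (i.comp (curve j m c₁)).comp (Fam.of _) := by
    apply MvPolynomial.ringHom_ext
    · intro c
      simp [ψ₂, curve_of, curveBase_C, chart_of, toW_C]
    · intro i
      fin_cases i
      · simp [ψ₂, curve_of, curveBase_0, chart_of, toW_0]
      · simp [ψ₂, curve_of, curveBase_1, chart_of, toW_1]
      · simp [ψ₂, curve_of, curveBase_2, chart_of, toW_2]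
  have hψ₂ : ψ₂.comp (chart j m c₁) = i.comp (curve j m c₁) := by
    have hb : ∀ q, ψ₂.comp (chart j m c₁) (Fam.of _ q) = i.comp (curve j m c₁) (Fam.of _ q) :=
      fun q => RingHom.congr_fun hbase₂ q
    refine Fam.hom_ext_y _ hb ?_ ?_ ?_
    · simp [ψ₂, curve_y, chart_y]
      field_simp
    · intro t ht
      rw [hb] at ht
      refine (mul_eq_zero.1 ht).resolve_left ?_
      simp [curve_of, curveBase_0, τL_ne, (map_eq_zero_iff i hi)]
    · intro t ht
      rw [hb] at ht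
      refine (mul_eq_zero.1 ht).resolve_left ?_
      simp [curve_of, curveBase_2, hiX]
  apply no_pole hj (ρ := ρ) hκ₀0 i hi
  have := RingHom.congr_fun hψ₂ κ
  rw [RingHom.comp_apply, RingHom.comp_apply, ← hκ₀, hρ] at this
  simpa [ψ₂] using this

theorem of_x_ne (j m : ℕ) (c₁ : Lam k) : Fam.of (pG k j m c₁) (MvPolynomial.X 2) ≠ 0 := fun h0 => by
  have := congrArg (chart j m c₁) h0
  simp [chart_of, toW_2] at this

theorem of_τ_ne (j m : ℕ) (c₁ : Lam k) : Fam.of (pG k j m c₁) (MvPolynomial.X 0) ≠ 0 := fun h0 => by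
  have := congrArg (chart j m c₁) h0
  simp [chart_of, toW_0, τL_ne] at this

theorem of_u_ne (j m : ℕ) (c₁ : Lam k) : Fam.of (pG k j m c₁) (MvPolynomial.X 1) ≠ 0 := fun h0 => by
  have := congrArg (chart j m c₁) h0
  simp [chart_of, toW_1, uL_ne] at this

theorem y_ne (j m : ℕ) (c₁ : Lam k) : Fam.y (pG k j m c₁) ≠ 0 := fun h0 => by
  have := congrArg (chart j m c₁) h0
  simp [chart_y] at this

theorem natDegree_exp_eq [CharZero k] {j m : ℕ} (c₁ : Lam k)
    (D : LND k (Fam (pG k j m c₁)))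
    (hτ : D.toFun (Fam.of _ (MvPolynomial.X 0)) = 0)
    (hu : D.toFun (Fam.of _ (MvPolynomial.X 1)) = 0)
    (hy : C (Fam.of _ (MvPolynomial.X 2) ^ j) * D.exp (Fam.y _) =
      C (Fam.y _) * D.exp (Fam.of _ (MvPolynomial.X 2)) ^ j) (g : Fam (pG k j m c₁)) :
    (D.exp g).natDegree =
      (chart j m c₁ g).natDegree * (D.exp (Fam.of _ (MvPolynomial.X 2))).natDegree := by
  have hdom := isDomain_pG j m c₁
  obtain ⟨K, _, a, ha⟩ := exists_field (WW k)
  let ψ : Fam (pG k j m c₁) →+* K := a.comp (chart j m c₁)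
  have hψ : Function.Injective ψ := ha.comp (chart_injective j m c₁)
  let Φ : Fam (pG k j m c₁) →+* K[X] := (mapRingHom ψ).comp D.exp
  have hΦ : Function.Injective Φ := (map_injective ψ hψ).comp D.exp_injective
  have hdeg : ∀ g, (Φ g).natDegree = (D.exp g).natDegree := fun g =>
    natDegree_map_eq_of_injective hψ _
  have hconst : ∀ g, D.toFun g = 0 → Φ g = C (ψ g) := fun g hg => by
    simp [Φ, D.exp_of_ker hg]
  let θ : (LL k)[X] →+* K := a.comp C
  have hθ : Function.Injective θ := ha.comp C_injective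
  let Ψ : WW k →+* K[X] := eval₂RingHom (C.comp θ) (Φ (Fam.of _ (MvPolynomial.X 2)))
  have hx0 := of_x_ne j m c₁
  have hτ0 := of_τ_ne j m c₁
  have hbase : (Ψ.comp (chart j m c₁)).comp (Fam.of _) = Φ.comp (Fam.of _) := by
    apply MvPolynomial.ringHom_ext
    · intro c
      have h1 : Fam.of (pG k j m c₁) (MvPolynomial.C c) = algebraMap k _ c :=
        Fam.of_algebraMap _ c
      have h2 := hconst _ (D.const c)
      rw [← h1] at h2
      simp [h2, Ψ, ψ, θ, chart_of, toW_C]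
    · intro i
      fin_cases i
      · simp [hconst _ hτ, Ψ, ψ, θ, chart_of, toW_0]
      · simp [hconst _ hu, Ψ, ψ, θ, chart_of, toW_1]
      · simp [Ψ, chart_of, toW_2]
  have hΨ : Ψ.comp (chart j m c₁) = Φ := by
    have hb : ∀ q, Ψ.comp (chart j m c₁) (Fam.of _ q) = Φ (Fam.of _ q) :=
      fun q => RingHom.congr_fun hbase q
    refine Fam.hom_ext_y _ hb ?_ ?_ ?_
    · have h1 := congrArg (mapRingHom ψ) hy
      simp only [map_mul, map_pow, coe_mapRingHom, map_C] at h1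
      have h2 : ψ (Fam.y _) = ψ (Fam.of _ (MvPolynomial.X 2)) ^ j * θ X := by
        simp only [ψ, θ, chart_y, chart_of, toW_2, RingHom.comp_apply, map_mul, map_pow]
      have h3 : (C (ψ (Fam.of _ (MvPolynomial.X 2))) : K[X]) ^ j ≠ 0 :=
        pow_ne_zero _ (C_ne_zero.2 fun h0 => hx0 (hψ (by rw [h0, map_zero])))
      apply mul_left_cancel₀ h3
      have h4 : Φ (Fam.y _) = map ψ (D.exp (Fam.y _)) := rfl
      have h5 : Φ (Fam.of _ (MvPolynomial.X 2)) =
        map ψ (D.exp (Fam.of _ (MvPolynomial.X 2))) := rfl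
      rw [h4, h1, h2, ← h5]
      simp [Ψ, chart_y]
      ring
    · intro t ht
      rw [hb] at ht
      refine (mul_eq_zero.1 ht).resolve_left fun h0 => ?_
      have := hΦ (h0.trans (map_zero Φ).symm)
      rw [pG_π, map_pow] at this
      exact hτ0 (pow_eq_zero_iff'.1 this).1
    · intro t ht
      rw [hb] at ht
      refine (mul_eq_zero.1 ht).resolve_left fun h0 => ?_
      have := hΦ (h0.trans (map_zero Φ).symm)
      rw [pG_ξ, map_pow] at this
      exact hx0 (pow_eq_zero_iff'.1 this).1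
  rw [← hdeg, ← hdeg, ← natDegree_map_eq_of_injective hθ (chart j m c₁ g), ← natDegree_comp]
  congr 1
  rw [← RingHom.congr_fun hΨ g]
  simp [Ψ, comp, eval₂_map]

theorem final_contra [CharZero k] {j m : ℕ} (hj : 0 < j) (c₁ : Lam k)
    (D : LND k (Fam (pG k j m c₁))) (hD : ∃ g, D.toFun g ≠ 0)
    (hτ : D.toFun (Fam.of _ (MvPolynomial.X 0)) = 0)
    (hu : D.toFun (Fam.of _ (MvPolynomial.X 1)) = 0)
    (hy : C (Fam.of _ (MvPolynomial.X 2) ^ j) * D.exp (Fam.y _) =
      C (Fam.y _) * D.exp (Fam.of _ (MvPolynomial.X 2)) ^ j) :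
    False := by
  have := isDomain_pG j m c₁
  have hdeg2 := natDegree_exp_eq c₁ D hτ hu hy
  have hn0 : (D.exp (Fam.of _ (MvPolynomial.X 2))).natDegree ≠ 0 := by
    intro h0
    obtain ⟨g, hg⟩ := hD
    exact hg (D.ker_of_natDegree (by rw [hdeg2, h0, mul_zero]))
  let κ := (D.exp (Fam.of _ (MvPolynomial.X 2))).leadingCoeff
  have hκ0 : κ ≠ 0 := leadingCoeff_ne_zero.2 fun h0 =>
    of_x_ne j m c₁ (D.exp_injective (h0.trans (map_zero _).symm))
  have hκD : D.toFun κ = 0 := D.map_coeff_exp _ _ le_rfl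
  have hκd : (chart j m c₁ κ).natDegree = 0 := by
    have := hdeg2 κ
    rw [D.exp_of_ker hκD, natDegree_C] at this
    exact (mul_eq_zero.1 this.symm).resolve_right hn0
  obtain ⟨κ₀, hκ₀⟩ := natDegree_eq_zero.1 hκd
  have hκ₀0 : κ₀ ≠ 0 := fun h0 => hκ0 (chart_injective j m c₁ (by rw [← hκ₀, h0]; simp))
  have hlead := congrArg
    (fun q => q.coeff (j * (D.exp (Fam.of _ (MvPolynomial.X 2))).natDegree)) hy
  simp only [coeff_C_mul, coeff_pow_mul_natDegree] at hlead
  refine curve_contra hj c₁ κ κ₀ hκ₀0 hκ₀ ?_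
  have h1 := congrArg (fun q => (curve j m c₁ q).eval 0) hlead
  simp only [map_mul, map_pow, curve_of, curve_y, curveBase_2, eval_mul, eval_pow, eval_X,
    eval_sub, eval_one, zero_pow hj.ne', zero_mul, zero_sub, neg_mul, one_mul] at h1
  rw [X_dvd_iff, coeff_zero_eq_eval_zero]
  exact (pow_eq_zero_iff hj.ne').1 (neg_eq_zero.1 h1.symm)

theorem τ_const_of_ratio [CharZero k] {j m : ℕ} (c₁ : Lam k) (D : LND k (Fam (pG k j m c₁)))
    (h : C (Fam.of _ (MvPolynomial.X 0)) * D.exp (Fam.of _ (MvPolynomial.X 1)) =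
      C (Fam.of _ (MvPolynomial.X 1)) * D.exp (Fam.of _ (MvPolynomial.X 0))) :
    D.toFun (Fam.of _ (MvPolynomial.X 0)) = 0 := by
  have := isDomain_pG j m c₁
  let κ := (D.exp (Fam.of _ (MvPolynomial.X 0))).leadingCoeff
  have hκ0 : κ ≠ 0 := leadingCoeff_ne_zero.2 fun h0 =>
    of_τ_ne j m c₁ (D.exp_injective (h0.trans (map_zero _).symm))
  have hκD : D.toFun κ = 0 := D.map_coeff_exp _ _ le_rfl
  have h1 := congrArg (fun q => q.coeff (D.exp (Fam.of _ (MvPolynomial.X 0))).natDegree) h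
  simp only [coeff_C_mul, coeff_natDegree] at h1
  obtain ⟨g, hg⟩ := dvd_of_dvd_u_mul j m c₁ κ ⟨_, h1.symm⟩
  apply D.ker_of_natDegree
  have h2 : D.exp (Fam.of _ (MvPolynomial.X 0)) ∣ C κ := ⟨D.exp g, by
    rw [← map_mul, ← hg, D.exp_of_ker hκD]⟩
  simpa using natDegree_le_of_dvd h2 (C_ne_zero.2 hκ0)

/-- The rigidity theorem for the fully degenerate algebra. -/
theorem rigid [CharZero k] {j m : ℕ} (hj : 0 < j)
    (D : LND k (Fam (pG k j m (MvPolynomial.X 1 ^ (2 * j))))) (hD : ∃ g, D.toFun g ≠ 0)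
    (t₁ t₂ : Fam (pG k j m (MvPolynomial.X 1 ^ (2 * j))))
    (ht0 : t₁ * Fam.F _ + t₂ * Fam.J _ ≠ 0) (htD : D.toFun (t₁ * Fam.F _ + t₂ * Fam.J _) = 0)
    (hcase : D.toFun (Fam.of _ (MvPolynomial.X 0)) = 0 ∨ (j = 2 ∧ m = 4)) : False := by
  have := isDomain_pG (k := k) j m (MvPolynomial.X 1 ^ (2 * j))
  obtain ⟨K, _, ψ, hψ⟩ := exists_field (Fam (pG k j m (MvPolynomial.X 1 ^ (2 * j))))
  have : CharZero K := by
    have h1 : Function.Injective (ψ.comp (algebraMap k _)) := RingHom.injective _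
    exact charZero_of_injective_ringHom h1
  let Φ : Fam (pG k j m (MvPolynomial.X 1 ^ (2 * j))) →+* K[X] := (mapRingHom ψ).comp D.exp
  have hΦ : Function.Injective Φ := (map_injective ψ hψ).comp D.exp_injective
  have hΦ0 : ∀ g, g ≠ 0 → Φ g ≠ 0 := fun g hg h0 => hg (hΦ (h0.trans (map_zero Φ).symm))
  have hdeg : ∀ g, (Φ g).natDegree = (D.exp g).natDegree := fun g =>
    natDegree_map_eq_of_injective hψ _
  have hconst : ∀ g, D.toFun g = 0 → Φ g = C (ψ g) := fun g hg => by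
    simp [Φ, D.exp_of_ker hg]
  have hcoeff : ∀ g, (Φ g).coeff 0 = ψ g := fun g => by
    simp [Φ, D.coeff_exp_zero]
  have hratio : ∀ (g h : Fam _) (ν : K), Φ g = C ν * Φ h → C h * D.exp g = C g * D.exp h := by
    intro g h ν hν
    apply map_injective ψ hψ
    have h1 := congrArg (fun q => q.coeff 0) hν
    simp only [coeff_C_mul, hcoeff] at h1
    simp only [Polynomial.map_mul, map_C]
    change _ * Φ g = _ * Φ h
    rw [hν, h1, map_mul]; ring
  have hx := hΦ0 _ (of_x_ne j m _)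
  have hτ := hΦ0 _ (of_τ_ne j m _)
  have hu := hΦ0 _ (of_u_ne j m _)
  have hy := hΦ0 _ (y_ne j m _)
  have h3 := congrArg Φ (Fam.rel3 _)
  have hs := congrArg Φ (Fam.s_eq _)
  have hF := congrArg Φ (Fam.πF _)
  have hJ := congrArg Φ (Fam.πJ _)
  simp only [map_sub, map_mul, map_add, map_one, map_pow, pG_π, pG_ξ, pG_c₁, pG_c₂, map_zero,
    mul_zero] at h3 hs hF hJ
  obtain ⟨a, b, c, d, e1, e2, e3, e4⟩ := factor_quadric hj hx (sub_eq_zero.1 h3)
  have hdet : a ^ j * d - b ^ j * c = 1 := by rw [← e2, ← e3]; ring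
  obtain ⟨V, hV, hVF, hVJ⟩ := exists_V (π := Φ (Fam.of _ (MvPolynomial.X 0)) ^ m) (A := a ^ j)
    (B := b ^ j) (U := Φ (Fam.of _ (MvPolynomial.X 1)) ^ j) (c := c) (d := d)
    (F := Φ (Fam.F _)) (J := Φ (Fam.J _)) (s := Φ (Fam.s _)) (pow_ne_zero _ hτ) hdet
    (by rw [hs, e4, e1]; ring) (by rw [hF]; ring) (by rw [hJ, e2, e1]; ring)
  have hVd : V ∣ C (ψ (t₁ * Fam.F _ + t₂ * Fam.J _)) := by
    rw [← hconst _ htD, map_add, map_mul, map_mul]
    exact dvd_add (hVF.mul_left _) (hVJ.mul_left _)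
  have hne : (C (ψ (t₁ * Fam.F _ + t₂ * Fam.J _)) : K[X]) ≠ 0 := by
    rw [← hconst _ htD]; exact hΦ0 _ ht0
  have hV0 : V ≠ 0 := ne_zero_of_dvd_ne_zero hne hVd
  obtain ⟨v, rfl⟩ := natDegree_eq_zero.1
    (show V.natDegree = 0 by
      have := natDegree_le_of_dvd hVd hne
      rwa [natDegree_C, Nat.le_zero] at this)
  have hv : v ≠ 0 := C_ne_zero.1 hV0
  have ha : a ≠ 0 := fun h0 => hx (by rw [e1, h0, zero_mul])
  have hc : c ≠ 0 := fun h0 => hy (by rw [e2, h0, mul_zero])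
  have hτD : D.toFun (Fam.of _ (MvPolynomial.X 0)) = 0 := by
    rcases hcase with h | ⟨rfl, rfl⟩
    · exact h
    · have hac : IsCoprime a c := ⟨a * d, -b ^ 2, by rw [← hdet]; ring⟩
      obtain ⟨ν, hν⟩ := quartic_case hv hτ hu ha hc hac (by rw [hV]; ring)
      exact τ_const_of_ratio _ D (hratio _ _ ν hν)
  rw [hconst _ hτD, ← map_pow, ← map_mul] at hV
  have hψτ : ψ (Fam.of _ (MvPolynomial.X 0)) ≠ 0 := fun h0 =>
    of_τ_ne j m _ (hψ (h0.trans (map_zero ψ).symm))
  obtain ⟨d1, d2⟩ := const_case (mul_ne_zero (pow_ne_zero _ hψτ) hv) hV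
  rw [natDegree_mul (pow_ne_zero _ ha) (pow_ne_zero _ hu), natDegree_pow, natDegree_pow] at d1
  have da : a.natDegree = 0 := by
    have : j * a.natDegree = 0 := by omega
    exact (mul_eq_zero.1 this).resolve_left hj.ne'
  have du : (Φ (Fam.of _ (MvPolynomial.X 1))).natDegree = 0 := by
    have : j * (Φ (Fam.of _ (MvPolynomial.X 1))).natDegree = 0 := by omega
    exact (mul_eq_zero.1 this).resolve_left hj.ne'
  obtain ⟨α, rfl⟩ := natDegree_eq_zero.1 da
  obtain ⟨γ, rfl⟩ := natDegree_eq_zero.1 d2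
  have hα : α ≠ 0 := C_ne_zero.1 ha
  refine final_contra hj _ D hD hτD (D.ker_of_natDegree (by rw [← hdeg, du])) ?_
  rw [← map_pow D.exp]
  apply hratio _ _ (γ / α ^ j)
  rw [map_pow, e2, e1, mul_pow, ← map_pow, ← mul_assoc, ← map_mul,
    div_mul_cancel₀ _ (pow_ne_zero _ hα), mul_comm]

end Vale.Agent.P295
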