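import Vale.Agent.P295.Degen
import Vale.Agent.P295.Rigid

/-! The two degenerations, and the non-polynomiality theorem. -/

namespace Vale.Agent.P295

universe u

open LaurentPolynomial

/-- elements some homogenization of which lies in the image -/
def satSubring {A R : Type*} [CommRing A] [CommRing R] (ι : R →+* A[T;T⁻¹]) (ε : R)
    (hε : ι ε = T 1) : Subring A where
  carrier := {a | ∃ (n : ℤ) (r : R), ι r = C a * T n}
  mul_mem' := by
    rintro a b ⟨n, r, hr⟩ ⟨m, r', hr'⟩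
    exact ⟨n + m, r * r', by rw [map_mul, hr, hr', map_mul, T_add]; ring⟩
  one_mem' := ⟨0, 1, by simp⟩
  add_mem' := by
    rintro a b ⟨n, r, hr⟩ ⟨m, r', hr'⟩
    obtain ⟨d, hd⟩ := Int.le.dest (le_max_left n m)
    obtain ⟨d', hd'⟩ := Int.le.dest (le_max_right n m)
    refine ⟨max n m, r * ε ^ d + r' * ε ^ d', ?_⟩
    rw [map_add, map_mul, map_mul, map_pow, map_pow, hε, hr, hr', T_pow, T_pow, mul_one, mul_one,
      mul_T_assoc, mul_T_assoc, hd, hd', map_add, add_mul]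
  zero_mem' := ⟨0, 0, by simp⟩
  neg_mem' := by
    rintro a ⟨n, r, hr⟩
    exact ⟨n, -r, by rw [map_neg, hr, map_neg, neg_mul]⟩

theorem coeff_C_mul_T {A : Type*} [CommRing A] (a : A) (d n : ℤ) :
    (C a * T d : A[T;T⁻¹]).coeff n = if d = n then a else 0 := by
  rw [← single_eq_C_mul_T, AddMonoidAlgebra.coeff_single, Finsupp.single_apply]

theorem Rees.lead_mem {k A R G : Type*} [Field k] [CommRing A] [Algebra k A] [CommRing R]
    [Algebra k R] [CommRing G] [Algebra k G] (Q : Rees k A R G) (I : Ideal G)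
    (hgen : ∀ U : Subring R,
      (∀ (h : R) (n : ℤ) (a : A), Q.ι h = C a * T n → (0 < n → Q.ρ h ∈ I) → h ∈ U) →
        ∀ r, r ∈ U)
    {r : R} {a : A} {n : ℤ} (hr : Q.ι r = C a * T n) (hn : 0 < n) : Q.ρ r ∈ I := by
  let M : Submonoid R :=
    { carrier := {h | ∃ (n : ℤ) (a : A), Q.ι h = C a * T n ∧ (0 < n → Q.ρ h ∈ I)}
      one_mem' := ⟨0, 1, by simp, fun h => absurd h (lt_irrefl _)⟩
      mul_mem' := by
        rintro h h' ⟨n, a, e, hI⟩ ⟨n', a', e', hI'⟩
        refine ⟨n + n', a * a', by rw [map_mul, e, e', map_mul, T_add]; ring, fun h0 => ?_⟩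
        rw [map_mul]
        by_cases h1 : 0 < n
        · exact I.mul_mem_right _ (hI h1)
        · exact I.mul_mem_left _ (hI' (by omega)) }
  have h1 : r ∈ Subring.closure (M : Set R) :=
    hgen _ (fun h n a e hI => Subring.subset_closure (show h ∈ M from ⟨n, a, e, hI⟩)) r
  rw [Subring.mem_closure_iff, Submonoid.closure_eq] at h1
  have h2 : ∀ r ∈ AddSubgroup.closure (M : Set R),
      ∃ r', Q.ι r' = C ((Q.ι r).coeff n) * T n ∧ Q.ρ r' ∈ I := by
    intro r hr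
    induction hr using AddSubgroup.closure_induction with
    | mem h hh =>
      obtain ⟨d, a, e, hI⟩ := hh
      by_cases hd : d = n
      · subst hd
        refine ⟨h, ?_, hI hn⟩
        rw [e, coeff_C_mul_T, if_pos rfl]
      · refine ⟨0, ?_, by simp⟩
        rw [e, coeff_C_mul_T, if_neg hd]; simp
    | zero => exact ⟨0, by simp, by simp⟩
    | add x y _ _ hx hy =>
      obtain ⟨x', e, hI⟩ := hx
      obtain ⟨y', e', hI'⟩ := hy
      exact ⟨x' + y', by rw [map_add, e, e', map_add]; simp [add_mul],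
        by rw [map_add]; exact I.add_mem hI hI'⟩
    | neg x _ hx =>
      obtain ⟨x', e, hI⟩ := hx
      exact ⟨-x', by rw [map_neg, e, map_neg]; simp, by rw [map_neg]; exact I.neg_mem hI⟩
  obtain ⟨r', e, hI⟩ := h2 r h1
  have : r' = r := by
    apply Q.inj
    rw [e, hr, coeff_C_mul_T, if_pos rfl]
  exact this ▸ hI

theorem Fam.mem_span_of_mul {Λ : Type*} [CommRing Λ] (p : Par Λ) (hc : p.c₂ = 0) {e : Λ}
    (he : e ∈ nonZeroDivisors Λ) (g : Fam p)
    (h : Fam.of p e * g ∈ Ideal.span {Fam.F p, Fam.J p}) :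
    g ∈ Ideal.span {Fam.F p, Fam.J p} := by
  let I : Ideal (Fam p) := Ideal.span {Fam.F p, Fam.J p}
  have hF : Fam.F p ∈ I := Ideal.subset_span (by simp)
  have hJ : Fam.J p ∈ I := Ideal.subset_span (by simp)
  let σ : Fam p →+* QuadraticAlgebra Λ p.c₁ 0 :=
    Fam.lift p (algebraMap Λ _) QuadraticAlgebra.omega 0 0
      (by rw [sq, QuadraticAlgebra.omega_mul_omega_eq_algebraMap]; simp) (by simp [hc])
  let σ' : QuadraticAlgebra Λ p.c₁ 0 →ₐ[Λ] Fam p ⧸ I :=
    QuadraticAlgebra.lift ⟨Ideal.Quotient.mk I (Fam.s p), by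
      have h1 := congrArg (Ideal.Quotient.mk I) (Fam.rel1 p)
      rw [map_add, map_mul, Ideal.Quotient.eq_zero_iff_mem.2 hF, mul_zero, add_zero, map_pow,
        sq] at h1
      rw [h1, zero_smul, add_zero, ← Algebra.algebraMap_eq_smul_one]
      rfl⟩
  have key : σ'.toRingHom.comp σ = Ideal.Quotient.mk I := by
    apply Fam.hom_ext
    · intro a
      simp only [σ, RingHom.comp_apply, Fam.lift_of]
      exact σ'.commutes a
    · simp [σ, σ']
    · simp [σ, Ideal.Quotient.eq_zero_iff_mem.2 hF]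
    · simp [σ, Ideal.Quotient.eq_zero_iff_mem.2 hJ]
  have h1 : σ (Fam.of p e * g) = 0 := by
    obtain ⟨a, b, hab⟩ := Ideal.mem_span_pair.1 h
    rw [← hab]; simp [σ]
  rw [map_mul] at h1
  have h2 : σ (Fam.of p e) ∈ nonZeroDivisors _ := by
    simp only [σ, Fam.lift_of]
    exact QuadraticAlgebra.algebraMap_mem_nonZeroDivisors_iff.2 he
  have h3 : σ g = 0 := (mem_nonZeroDivisors_iff_left.1 h2) _ h1
  rw [← Ideal.Quotient.eq_zero_iff_mem, ← key, RingHom.comp_apply, h3, map_zero]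

variable {k : Type u} [Field k]

/-- homogenization map on the base rings -/
noncomputable def homog (w : Fin 3 → ℤ) {S : Type u} [CommRing S] (f : Lam k →+* S) (e : Sˣ) :
    MvPolynomial (Fin 4) k →+* S :=
  MvPolynomial.eval₂Hom (f.comp MvPolynomial.C)
    ![f (MvPolynomial.X 0) * (e ^ w 0 : Sˣ), f (MvPolynomial.X 1) * (e ^ w 1 : Sˣ),
      f (MvPolynomial.X 2) * (e ^ w 2 : Sˣ), e]

/-- `qR` is a homogenization of `qA` in degree `n` -/
def IsHomog (w : Fin 3 → ℤ) (qR : MvPolynomial (Fin 4) k) (qA : Lam k) (n : ℤ) : Prop :=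
  ∀ (S : Type u) [CommRing S] (f : Lam k →+* S) (e : Sˣ), homog w f e qR = f qA * (e ^ n : Sˣ)

/-- setting the homogenizing variable to zero -/
noncomputable def kill : MvPolynomial (Fin 4) k →ₐ[k] Lam k :=
  MvPolynomial.aeval ![MvPolynomial.X 0, MvPolynomial.X 1, MvPolynomial.X 2, 0]

theorem kill_surjective : Function.Surjective (kill (k := k)).toRingHom := by
  have : (kill (k := k)).comp (MvPolynomial.rename Fin.castSucc) = AlgHom.id k _ := by
    ext i : 1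
    fin_cases i <;> simp [kill]
  exact fun q => ⟨_, AlgHom.congr_fun this q⟩

theorem kill_eq_zero (q : MvPolynomial (Fin 4) k) :
    (kill (k := k)).toRingHom q = 0 ↔ MvPolynomial.X 3 ∣ q := by
  constructor
  · intro ha
    have h1 := dvd_algHom_sub ((MvPolynomial.rename Fin.castSucc).comp (kill (k := k)))
      (MvPolynomial.X 3) (fun i => by fin_cases i <;> simp [kill]) q
    have h2 : kill q = 0 := ha
    simpa [h2] using h1
  · rintro ⟨b, rfl⟩
    simp [kill]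

/-- the unit `T` -/
noncomputable def uT (A : Type*) [CommRing A] : A[T;T⁻¹]ˣ := (isUnit_T 1).unit

theorem uT_zpow (A : Type*) [CommRing A] (n : ℤ) : ((uT A ^ n : A[T;T⁻¹]ˣ) : A[T;T⁻¹]) = T n := by
  have h1 : ((uT A : A[T;T⁻¹]ˣ) : A[T;T⁻¹]) = T 1 := rfl
  have h2 : ∀ m : ℕ, ((uT A ^ (m : ℤ) : A[T;T⁻¹]ˣ) : A[T;T⁻¹]) = T m := by
    intro m
    rw [zpow_natCast, Units.val_pow_eq_pow_val, h1, T_pow, mul_one]
  obtain ⟨m, rfl | rfl⟩ := n.eq_nat_or_neg
  · exact h2 m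
  · rw [zpow_neg]
    apply Units.inv_eq_of_mul_eq_one_right
    rw [h2, ← T_add]; simp

section reesFam

variable (pA pG' : Par (Lam k)) (pR : Par (MvPolynomial (Fin 4) k)) (w : Fin 3 → ℤ) (l μ : ℤ)
  (hπ : IsHomog w pR.π pA.π (-μ)) (hξ : IsHomog w pR.ξ pA.ξ (-l))
  (h1 : IsHomog w pR.c₁ pA.c₁ (2 * l)) (h2 : IsHomog w pR.c₂ pA.c₂ μ)

/-- the embedding of the Rees algebra -/
noncomputable def reesι : Fam pR →+* (Fam pA)[T;T⁻¹] :=
  Fam.lift pR (homog w (C.comp (Fam.of pA)) (uT _)) (C (Fam.s pA) * T l)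
    (C (Fam.F pA) * T (2 * l + μ)) (C (Fam.J pA) * T μ)
    (by
      rw [hπ, h1, uT_zpow, uT_zpow, RingHom.comp_apply, RingHom.comp_apply, ← Fam.rel1 pA]
      have e1 : (T (2 * l) : (Fam pA)[T;T⁻¹]) = T l ^ 2 := by rw [T_pow]; simp
      have e2 : (T (-μ) * T μ : (Fam pA)[T;T⁻¹]) = 1 := by rw [← T_add]; simp
      rw [T_add, e1, map_add, map_mul, map_pow]
      linear_combination C (Fam.of pA pA.π) * C (Fam.F pA) * T l ^ 2 * e2)
    (by
      rw [hπ, hξ, h2, uT_zpow, uT_zpow, uT_zpow, RingHom.comp_apply, RingHom.comp_apply,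
        RingHom.comp_apply, ← Fam.rel2 pA]
      have e1 : (T (2 * l) : (Fam pA)[T;T⁻¹]) = T l ^ 2 := by rw [T_pow]; simp
      have e2 : (T (-μ) * T μ : (Fam pA)[T;T⁻¹]) = 1 := by rw [← T_add]; simp
      have e3 : (T (-l) * T l : (Fam pA)[T;T⁻¹]) = 1 := by rw [← T_add]; simp
      rw [T_add, e1]
      simp only [map_add, map_sub, map_mul, map_pow, map_one, map_ofNat]
      linear_combination (C (Fam.of pA pA.ξ) ^ 2 * C (Fam.F pA) * T μ * (T (-l) * T l + 1) -
        2 * C (Fam.s pA) * C (Fam.of pA pA.ξ) * C (Fam.J pA) * T μ) * e3 -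
        C (Fam.of pA pA.π) * C (Fam.J pA) ^ 2 * T μ * e2)

theorem reesι_of (q) : reesι pA pR w l μ hπ hξ h1 h2 (Fam.of pR q) =
    homog w (C.comp (Fam.of pA)) (uT _) q := by simp [reesι]
theorem reesι_s : reesι pA pR w l μ hπ hξ h1 h2 (Fam.s pR) = C (Fam.s pA) * T l := by
  simp [reesι]
theorem reesι_F : reesι pA pR w l μ hπ hξ h1 h2 (Fam.F pR) = C (Fam.F pA) * T (2 * l + μ) := by
  simp [reesι]
theorem reesι_J : reesι pA pR w l μ hπ hξ h1 h2 (Fam.J pR) = C (Fam.J pA) * T μ := by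
  simp [reesι]
theorem reesι_X3 : reesι pA pR w l μ hπ hξ h1 h2 (Fam.of pR (MvPolynomial.X 3)) = T 1 := by
  rw [reesι_of]; simp [homog]; rfl
theorem reesι_X (i : Fin 3) :
    reesι pA pR w l μ hπ hξ h1 h2 (Fam.of pR (MvPolynomial.X i.castSucc)) =
      C (Fam.of pA (MvPolynomial.X i)) * T (w i) := by
  rw [reesι_of]
  fin_cases i <;> simp [homog, uT_zpow]
theorem reesι_C (c : k) :
    reesι pA pR w l μ hπ hξ h1 h2 (Fam.of pR (MvPolynomial.C c)) =
      C (Fam.of pA (MvPolynomial.C c)) := by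
  rw [reesι_of]; simp [homog]

theorem reesι_injective [CharZero k] : Function.Injective (reesι pA pR w l μ hπ hξ h1 h2) := by
  let ε : Fam pR := Fam.of pR (MvPolynomial.X 3)
  let S := Localization.Away ε
  let c : Fam pR →+* S := algebraMap _ _
  have hc : Function.Injective c := by
    apply IsLocalization.injective S (M := Submonoid.powers ε)
    rw [Submonoid.powers_le, mem_nonZeroDivisors_iff_left]
    intro g hg
    exact nzd_X_pow pR 3 1 g (by rw [pow_one]; exact hg)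
  let e : Sˣ := (IsLocalization.Away.algebraMap_isUnit (S := S) ε).unit
  have he : (e : S) = c ε := rfl
  let γ : Lam k →+* S := MvPolynomial.eval₂Hom (c.comp ((Fam.of pR).comp MvPolynomial.C))
    fun i => c (Fam.of pR (MvPolynomial.X i.castSucc)) * (e ^ (-w i) : Sˣ)
  have hee : ∀ n : ℤ, ((e ^ (-n) : Sˣ) : S) * (e ^ n : Sˣ) = 1 := fun n => by
    rw [← Units.val_mul, ← zpow_add]; simp
  have hγ : homog w γ e = c.comp (Fam.of pR) := by
    apply MvPolynomial.ringHom_ext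
    · intro a; simp [homog, γ]
    · intro i
      fin_cases i
      · simp [homog, γ, mul_assoc, - zpow_neg, hee]
      · simp [homog, γ, mul_assoc, - zpow_neg, hee]
      · simp [homog, γ, mul_assoc, - zpow_neg, hee]
      · simp [homog, he, ε]
  have hγ' : ∀ {qR qA n}, IsHomog w qR qA n → c (Fam.of pR qR) = γ qA * (e ^ n : Sˣ) := by
    intro qR qA n h
    rw [← h S γ e, hγ, RingHom.comp_apply]
  have r1 := congrArg c (Fam.rel1 pR)
  have r2 := congrArg c (Fam.rel2 pR)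
  simp only [map_add, map_sub, map_mul, map_pow, map_one, map_ofNat, hγ' hπ, hγ' hξ, hγ' h1,
    hγ' h2] at r1 r2
  have e1 : ((e ^ (2 * l) : Sˣ) : S) = ((e ^ l : Sˣ) : S) ^ 2 := by
    rw [← Units.val_pow_eq_pow_val, ← zpow_natCast, ← zpow_mul, mul_comm]; simp
  have e4 : ((e ^ (-(2 * l + μ)) : Sˣ) : S) = ((e ^ (-l) : Sˣ) : S) ^ 2 * (e ^ (-μ) : Sˣ) := by
    rw [← Units.val_pow_eq_pow_val, ← zpow_natCast, ← zpow_mul, ← Units.val_mul, ← zpow_add]
    congr 2; push_cast; ring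
  rw [e1] at r1
  let ψ₀ : Fam pA →+* S := Fam.lift pA γ (c (Fam.s pR) * (e ^ (-l) : Sˣ))
    (c (Fam.F pR) * (e ^ (-(2 * l + μ)) : Sˣ)) (c (Fam.J pR) * (e ^ (-μ) : Sˣ))
    (by
      rw [e4]
      linear_combination ((e ^ (-l) : Sˣ) : S) ^ 2 * r1 +
        γ pA.c₁ * (((e ^ (-l) : Sˣ) : S) * (e ^ l : Sˣ) + 1) * hee l)
    (by
      rw [e4]
      linear_combination ((e ^ (-μ) : Sˣ) : S) * r2 + γ pA.c₂ * hee μ)
  let ψ : (Fam pA)[T;T⁻¹] →+* S := LaurentPolynomial.eval₂ ψ₀ e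
  have key : ψ.comp (reesι pA pR w l μ hπ hξ h1 h2) = c := by
    apply Fam.hom_ext
    · have : (ψ.comp (reesι pA pR w l μ hπ hξ h1 h2)).comp (Fam.of pR) = c.comp (Fam.of pR) := by
        apply MvPolynomial.ringHom_ext
        · intro a
          simp [reesι_C, ψ, ψ₀, γ]
        · intro i
          refine Fin.lastCases ?_ (fun i => ?_) i
          · have : (Fin.last 3) = 3 := rfl
            rw [this, RingHom.comp_apply, RingHom.comp_apply, reesι_X3, eval₂_T, zpow_one]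
            rfl
          · rw [RingHom.comp_apply, RingHom.comp_apply, reesι_X, eval₂_C_mul_T]
            simp [ψ₀, γ, mul_assoc, - zpow_neg, hee]
      exact fun a => RingHom.congr_fun this a
    · rw [RingHom.comp_apply, reesι_s, eval₂_C_mul_T]
      simp [ψ₀, mul_assoc, - zpow_neg, hee]
    · rw [RingHom.comp_apply, reesι_F, eval₂_C_mul_T]
      simp only [ψ₀, Fam.lift_F, mul_assoc, hee, mul_one]
    · rw [RingHom.comp_apply, reesι_J, eval₂_C_mul_T]
      simp [ψ₀, mul_assoc, - zpow_neg, hee]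
  rw [← key, RingHom.coe_comp] at hc
  exact Function.Injective.of_comp hc

variable (gπ : kill pR.π = pG'.π) (gξ : kill pR.ξ = pG'.ξ) (g1 : kill pR.c₁ = pG'.c₁)
  (g2 : kill pR.c₂ = pG'.c₂)

/-- The Rees data attached to homogenized parameters. -/
noncomputable def reesFam [CharZero k] : Rees k (Fam pA) (Fam pR) (Fam pG') where
  ι := { reesι pA pR w l μ hπ hξ h1 h2 with
    commutes' := fun c => by
      have := reesι_C pA pR w l μ hπ hξ h1 h2 c
      rw [← Fam.of_algebraMap, LaurentPolynomial.algebraMap_apply, ← Fam.of_algebraMap]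
      exact this }
  inj := reesι_injective pA pR w l μ hπ hξ h1 h2
  ε := Fam.of pR (MvPolynomial.X 3)
  ι_ε := reesι_X3 pA pR w l μ hπ hξ h1 h2
  sat := by
    refine Fam.mem_of_gen pA (satSubring _ _ (reesι_X3 pA pR w l μ hπ hξ h1 h2)) ?_
      ⟨_, _, reesι_s pA pR w l μ hπ hξ h1 h2⟩ ⟨_, _, reesι_F pA pR w l μ hπ hξ h1 h2⟩
      ⟨_, _, reesι_J pA pR w l μ hπ hξ h1 h2⟩
    intro q
    induction q using MvPolynomial.induction_on with
    | C a => exact ⟨0, Fam.of pR (MvPolynomial.C a), by rw [reesι_C]; simp⟩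
    | add a b ha hb => rw [map_add]; exact Subring.add_mem _ ha hb
    | mul_X a i ha =>
      rw [map_mul]
      exact Subring.mul_mem _ ha ⟨_, _, reesι_X pA pR w l μ hπ hξ h1 h2 i⟩
  ρ := { Fam.map pR pG' kill.toRingHom gπ gξ g1 g2 with
    commutes' := fun c => by
      rw [← Fam.of_algebraMap, ← Fam.of_algebraMap]
      exact (Fam.map_of pR pG' kill.toRingHom gπ gξ g1 g2 _).trans
        (congrArg _ (kill.commutes c)) }
  surj := Fam.map_surjective pR pG' kill.toRingHom gπ gξ g1 g2 kill_surjective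
  ker := Fam.map_eq_zero_iff pR pG' kill.toRingHom gπ gξ g1 g2 kill_surjective _ kill_eq_zero

include hπ hξ h1 h2 gπ gξ g1 g2 in
theorem exists_rees [CharZero k] : ∃ Q : Rees k (Fam pA) (Fam pR) (Fam pG'),
    Q.ι (Fam.s pR) = C (Fam.s pA) * T l ∧ Q.ι (Fam.F pR) = C (Fam.F pA) * T (2 * l + μ) ∧
    Q.ι (Fam.J pR) = C (Fam.J pA) * T μ ∧
    (∀ i : Fin 3, Q.ι (Fam.of pR (MvPolynomial.X i.castSucc)) =
      C (Fam.of pA (MvPolynomial.X i)) * T (w i)) ∧
    (∀ c : k, Q.ι (Fam.of pR (MvPolynomial.C c)) = C (Fam.of pA (MvPolynomial.C c))) ∧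
    Q.ε = Fam.of pR (MvPolynomial.X 3) ∧ Q.ρ (Fam.F pR) = Fam.F pG' ∧ Q.ρ (Fam.J pR) = Fam.J pG' ∧
    Q.ρ (Fam.of pR (MvPolynomial.X 0)) = Fam.of pG' (MvPolynomial.X 0) := by
  refine ⟨reesFam pA pG' pR w l μ hπ hξ h1 h2 gπ gξ g1 g2, reesι_s pA pR w l μ hπ hξ h1 h2,
    reesι_F pA pR w l μ hπ hξ h1 h2, reesι_J pA pR w l μ hπ hξ h1 h2,
    reesι_X pA pR w l μ hπ hξ h1 h2, reesι_C pA pR w l μ hπ hξ h1 h2, rfl,
    Fam.map_F pR pG' kill.toRingHom gπ gξ g1 g2, Fam.map_J pR pG' kill.toRingHom gπ gξ g1 g2,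
    (Fam.map_of pR pG' kill.toRingHom gπ gξ g1 g2 _).trans ?_⟩
  simp [kill]

end reesFam

/-- parameters of the main algebra -/
noncomputable def pA (k : Type*) [Field k] (j m : ℕ) : Par (Lam k) :=
  ⟨MvPolynomial.X 0 ^ m, MvPolynomial.X 2 ^ j,
    MvPolynomial.X 2 + MvPolynomial.X 1 ^ (2 * j), MvPolynomial.X 1⟩

/-- parameters of the first Rees algebra -/
noncomputable def pR1 (k : Type*) [Field k] (j m : ℕ) : Par (MvPolynomial (Fin 4) k) :=
  ⟨MvPolynomial.X 0 ^ m, MvPolynomial.X 2 ^ j,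
    MvPolynomial.X 2 + MvPolynomial.X 1 ^ (2 * j), MvPolynomial.X 3 ^ m * MvPolynomial.X 1⟩

/-- parameters of the second Rees algebra -/
noncomputable def pR2 (k : Type*) [Field k] (j m : ℕ) : Par (MvPolynomial (Fin 4) k) :=
  ⟨MvPolynomial.X 0 ^ m, MvPolynomial.X 2 ^ j,
    MvPolynomial.X 3 ^ (2 * j + 1) * MvPolynomial.X 2 + MvPolynomial.X 1 ^ (2 * j), 0⟩

theorem h1π (j m : ℕ) : IsHomog ![-1, 0, 0] (pR1 k j m).π (pA k j m).π (-(m : ℤ)) := by
  intro S _ f e
  simp [homog, pR1, pA, mul_pow]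
theorem h1ξ (j m : ℕ) : IsHomog ![-1, 0, 0] (pR1 k j m).ξ (pA k j m).ξ (-(0 : ℤ)) := by
  intro S _ f e
  simp [homog, pR1, pA]
theorem h11 (j m : ℕ) : IsHomog ![-1, 0, 0] (pR1 k j m).c₁ (pA k j m).c₁ (2 * (0 : ℤ)) := by
  intro S _ f e
  simp [homog, pR1, pA]
theorem h12 (j m : ℕ) : IsHomog ![-1, 0, 0] (pR1 k j m).c₂ (pA k j m).c₂ (m : ℤ) := by
  intro S _ f e
  simp [homog, pR1, pA, mul_comm]

/-- the intermediate value of `c₁` -/
noncomputable abbrev cMid (k : Type*) [Field k] (j : ℕ) : Lam k :=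
  MvPolynomial.X 2 + MvPolynomial.X 1 ^ (2 * j)

theorem h2π (j m : ℕ) : IsHomog ![0, 1, -1] (pR2 k j m).π (pG k j m (cMid k j)).π (-(0 : ℤ)) := by
  intro S _ f e
  simp [homog, pR2]
theorem h2ξ (j m : ℕ) : IsHomog ![0, 1, -1] (pR2 k j m).ξ (pG k j m (cMid k j)).ξ (-(j : ℤ)) := by
  intro S _ f e
  simp [homog, pR2, mul_pow]
theorem h21 (j m : ℕ) :
    IsHomog ![0, 1, -1] (pR2 k j m).c₁ (pG k j m (cMid k j)).c₁ (2 * (j : ℤ)) := by
  intro S _ f e
  have h : ((e ^ (2 * (j : ℤ)) : Sˣ) : S) = (e : S) ^ (2 * j) := by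
    rw [← Units.val_pow_eq_pow_val, ← zpow_natCast]; simp
  rw [h]
  simp only [homog, pR2, pG_c₁, cMid, map_add, map_mul, map_pow, MvPolynomial.eval₂Hom_X']
  simp
  linear_combination f (MvPolynomial.X 2) * (e : S) ^ (2 * j) * e.mul_inv
theorem h22 (j m : ℕ) : IsHomog ![0, 1, -1] (pR2 k j m).c₂ (pG k j m (cMid k j)).c₂ (0 : ℤ) := by
  intro S _ f e
  simp [homog, pR2]

theorem rigid_mid [CharZero k] {j m : ℕ} (hj : 0 < j)
    (D : LND k (Fam (pG k j m (cMid k j)))) (hD : ∃ g, D.toFun g ≠ 0)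
    (t : Fam (pG k j m (cMid k j))) (ht : t ∈ Ideal.span {Fam.F _, Fam.J _})
    (ht0 : t ≠ 0) (htD : D.toFun t = 0)
    (hcase : D.toFun (Fam.of _ (MvPolynomial.X 0)) = 0 ∨ (j = 2 ∧ m = 4)) : False := by
  have := isDomain_pG (k := k) j m (cMid k j)
  have := isDomain_pG (k := k) j m (MvPolynomial.X 1 ^ (2 * j))
  have := Fam.finiteType' (pR2 k j m) k
  obtain ⟨Q, -, hF, hJ, hX, -, hε, hρF, hρJ, hρτ⟩ :=
    exists_rees (pG k j m (cMid k j)) (pG k j m (MvPolynomial.X 1 ^ (2 * j))) (pR2 k j m)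
      ![0, 1, -1] j 0 (h2π j m) (h2ξ j m) (h21 j m) (h22 j m)
      (by simp [kill, pR2]) (by simp [kill, pR2]) (by simp [kill, pR2]) (by simp [kill, pR2])
  obtain ⟨D', hD', hker⟩ := Q.exists_limit D hD
  obtain ⟨r, n, hr, hρ⟩ := Q.exists_lead ht0
  have hmem : r ∈ Ideal.span {Fam.F (pR2 k j m), Fam.J (pR2 k j m)} := by
    obtain ⟨t₁, t₂, rfl⟩ := Ideal.mem_span_pair.1 ht
    obtain ⟨n₁, r₁, h₁⟩ := Q.sat t₁
    obtain ⟨n₂, r₂, h₂⟩ := Q.sat t₂
    let N := max n (max (n₁ + 2 * j) n₂)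
    obtain ⟨d, hd⟩ := Int.le.dest (show n ≤ N from le_max_left _ _)
    obtain ⟨d₁, hd₁⟩ := Int.le.dest
      (show n₁ + 2 * j ≤ N from (le_max_left _ _).trans (le_max_right _ _))
    obtain ⟨d₂, hd₂⟩ := Int.le.dest
      (show n₂ ≤ N from (le_max_right _ _).trans (le_max_right _ _))
    apply Fam.mem_span_of_mul (pR2 k j m) rfl (e := MvPolynomial.X 3 ^ d)
      (mem_nonZeroDivisors_of_ne_zero (pow_ne_zero _ (MvPolynomial.X_ne_zero _)))
    refine Ideal.mem_span_pair.2 ⟨Q.ε ^ d₁ * r₁, Q.ε ^ d₂ * r₂, Q.inj ?_⟩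
    rw [map_pow (Fam.of _), ← hε]
    simp only [map_add, map_mul, Q.ι_ε_pow, h₁, h₂, hF, hJ, hr]
    have e1 : (T d₁ * T n₁ * T (2 * (j : ℤ) + 0) : (Fam (pG k j m (cMid k j)))[T;T⁻¹]) = T N := by
      rw [← T_add, ← T_add, ← hd₁]; congr 1; ring
    have e2 : (T d₂ * T n₂ * T 0 : (Fam (pG k j m (cMid k j)))[T;T⁻¹]) = T N := by
      rw [← T_add, ← T_add, ← hd₂]; congr 1; ring
    have e3 : (T d * T n : (Fam (pG k j m (cMid k j)))[T;T⁻¹]) = T N := by
      rw [← T_add, ← hd]; congr 1; ring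
    linear_combination C t₁ * C (Fam.F _) * (e1 - e3) + C t₂ * C (Fam.J _) * (e2 - e3)
  obtain ⟨a, b, rfl⟩ := Ideal.mem_span_pair.1 hmem
  have h0 := hker _ _ _ hr htD
  rw [map_add, map_mul, map_mul, hρF, hρJ] at h0 hρ
  refine rigid hj D' hD' _ _ hρ h0 (hcase.imp_left fun h => ?_)
  rw [← hρτ]
  exact hker _ _ _ (hX 0) h

theorem J_ne_zero {j m : ℕ} (hj : 0 < j) (c₁ : Lam k) : Fam.J (pG k j m c₁) ≠ 0 := by
  intro h
  have h1 := congrArg (fun g => (curve j m c₁ g).eval 0) (Fam.πJ (pG k j m c₁))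
  simp [h, curve_y, curve_of, curveBase_2, hj.ne'] at h1

theorem rigid_top [CharZero k] {j m : ℕ} (hj : 0 < j) (hm : 0 < m) [IsDomain (Fam (pA k j m))]
    (σ : Type*) (t : σ → Fam (pA k j m)) (hgen : Algebra.adjoin k (Set.range t) = ⊤)
    (hD : ∀ i, ∃ D : LND k (Fam (pA k j m)), (∃ g, D.toFun g ≠ 0) ∧ D.toFun (t i) = 0 ∧
      (D.toFun (Fam.of _ (MvPolynomial.X 0)) = 0 ∨ (j = 2 ∧ m = 4))) : False := by
  have := isDomain_pG (k := k) j m (cMid k j)
  have := Fam.finiteType' (pR1 k j m) k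
  obtain ⟨Q, hs, hF, hJ, hX, hC, hε, hρF, hρJ, hρτ⟩ :=
    exists_rees (pA k j m) (pG k j m (cMid k j)) (pR1 k j m) ![-1, 0, 0] 0 m
      (h1π j m) (h1ξ j m) (h11 j m) (h12 j m)
      (by simp [kill, pR1]) (by simp [kill, pR1]) (by simp [kill, pR1])
      (by simp [kill, pR1, hm.ne'])
  have hρε : Q.ρ Q.ε = 0 := (Q.ker _).2 dvd_rfl
  let U : Subalgebra k (Fam (pA k j m)) :=
    Q.ι.range.comap (IsScalarTower.toAlgHom k (Fam (pA k j m)) (Fam (pA k j m))[T;T⁻¹])
  have hU : ∀ a, a ∈ U ↔ ∃ r, Q.ι r = C a := fun a => Iff.rfl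
  obtain ⟨i, hi⟩ : ∃ i, t i ∉ U := by
    by_contra hall
    push Not at hall
    have : Fam.J (pA k j m) ∈ U := by
      have h1 : Algebra.adjoin k (Set.range t) ≤ U := Algebra.adjoin_le (by
        rintro _ ⟨i, rfl⟩; exact hall i)
      exact h1 (hgen ▸ Algebra.mem_top)
    obtain ⟨r, hr⟩ := (hU _).1 this
    have h2 : Fam.J (pR1 k j m) = Q.ε ^ m * r := Q.inj (by
      rw [hJ, map_mul, Q.ι_ε_pow, hr, mul_comm])
    apply J_ne_zero (m := m) hj (cMid k j)
    rw [← hρJ, h2, map_mul, map_pow, hρε, zero_pow hm.ne', zero_mul]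
  obtain ⟨D, hD0, hDt, hcase⟩ := hD i
  obtain ⟨D', hD', hker⟩ := Q.exists_limit D hD0
  have ht0 : t i ≠ 0 := fun h => hi (h ▸ U.zero_mem)
  obtain ⟨r, n, hr, hρ⟩ := Q.exists_lead ht0
  have hn : 0 < n := by
    by_contra hn
    obtain ⟨d, hd⟩ := Int.le.dest (not_lt.1 hn)
    apply hi
    refine (hU _).2 ⟨r * Q.ε ^ d, ?_⟩
    rw [map_mul, Q.ι_ε_pow, hr, mul_T_assoc, hd]; simp
  have hmem : Q.ρ r ∈ Ideal.span {Fam.F (pG k j m (cMid k j)), Fam.J (pG k j m (cMid k j))} := by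
    refine Q.lead_mem _ ?_ hr hn
    intro V hV
    refine Fam.mem_of_gen _ V ?_ (hV _ _ _ hs fun h => absurd h (lt_irrefl _))
      (hV _ _ _ hF fun _ => hρF ▸ Ideal.subset_span (by simp))
      (hV _ _ _ hJ fun _ => hρJ ▸ Ideal.subset_span (by simp))
    intro q
    induction q using MvPolynomial.induction_on with
    | C a =>
      refine hV _ 0 (Fam.of _ (MvPolynomial.C a)) ?_ fun h => absurd h (lt_irrefl _)
      rw [hC]; simp
    | add a b ha hb => rw [map_add]; exact V.add_mem ha hb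
    | mul_X a i ha =>
      rw [map_mul]
      refine V.mul_mem ha ?_
      refine Fin.lastCases ?_ (fun i => ?_) i
      · have : Fin.last 3 = 3 := rfl
        rw [this, ← hε]
        refine hV Q.ε 1 1 (by rw [Q.ι_ε]; simp) fun _ => ?_
        rw [hρε]; exact Ideal.zero_mem _
      · refine hV _ _ _ (hX i) fun h => ?_
        fin_cases i <;> simp at h
  refine rigid_mid hj D' hD' _ hmem hρ (hker _ _ _ hr hDt) (hcase.imp_left fun h => ?_)
  rw [← hρτ]
  exact hker _ _ _ (hX 0) h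

theorem pderiv_nil {σ R : Type*} [CommRing R] (i : σ) (g : MvPolynomial σ R) :
    ∃ n : ℕ, (MvPolynomial.pderiv i : MvPolynomial σ R → MvPolynomial σ R)^[n] g = 0 := by
  classical
  induction g using MvPolynomial.induction_on' with
  | monomial s a =>
    induction hs : s i generalizing s a with
    | zero => exact ⟨1, by simp [MvPolynomial.pderiv_monomial, hs]⟩
    | succ d ih =>
      obtain ⟨n, hn⟩ := ih (s - Finsupp.single i 1) (a * s i) (by simp [hs])
      exact ⟨n + 1, by rw [Function.iterate_succ_apply, MvPolynomial.pderiv_monomial, hn]⟩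
  | add p q hp hq =>
    obtain ⟨n, hn⟩ := hp
    obtain ⟨m, hm⟩ := hq
    refine ⟨n + m, ?_⟩
    rw [iterate_map_add]
    have h1 : (MvPolynomial.pderiv i : MvPolynomial σ R → MvPolynomial σ R)^[n + m] p = 0 := by
      rw [add_comm, Function.iterate_add_apply, hn]
      exact Function.iterate_fixed (map_zero _) _
    have h2 : (MvPolynomial.pderiv i : MvPolynomial σ R → MvPolynomial σ R)^[n + m] q = 0 := by
      rw [Function.iterate_add_apply, hm]
      exact Function.iterate_fixed (map_zero _) _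
    rw [h1, h2, add_zero]

/-- the partial derivative transported along an isomorphism with a polynomial ring -/
noncomputable def LND.ofEquiv {σ K A : Type*} [CommRing K] [CommRing A] [Algebra K A]
    (e : A ≃ₐ[K] MvPolynomial σ K) (i : σ) : LND K A where
  toFun := AddMonoidHom.mk' (fun a => e.symm (MvPolynomial.pderiv i (e a))) (by simp)
  leibniz a b := by simp
  const c := by simp
  nil a := by
    obtain ⟨n, hn⟩ := pderiv_nil i (e a)
    refine ⟨n, ?_⟩
    have : ∀ l : ℕ, (fun a => e.symm (MvPolynomial.pderiv i (e a)))^[l] a =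
        e.symm ((MvPolynomial.pderiv i : MvPolynomial σ K → MvPolynomial σ K)^[l] (e a)) := by
      intro l
      induction l with
      | zero => simp
      | succ l ih => rw [Function.iterate_succ_apply', ih, Function.iterate_succ_apply']; simp
    exact (this n).trans (by rw [hn, map_zero])

theorem LND.ofEquiv_apply {σ K A : Type*} [CommRing K] [CommRing A] [Algebra K A]
    (e : A ≃ₐ[K] MvPolynomial σ K) (i : σ) (a : A) :
    (LND.ofEquiv e i).toFun a = e.symm (MvPolynomial.pderiv i (e a)) := rfl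

/-- Main non-polynomiality theorem. -/
theorem not_poly [CharZero k] {j m : ℕ} (hj : 0 < j) (hm : 0 < m)
    (e : Fam (pA k j m) ≃ₐ[k] MvPolynomial (Fin 4) k)
    (hcase : (∃ i₀, e (Fam.of _ (MvPolynomial.X 0)) = MvPolynomial.X i₀) ∨ (j = 2 ∧ m = 4)) :
    False := by
  have : IsDomain (Fam (pA k j m)) := e.injective.isDomain e
  refine rigid_top hj hm (Fin 4) (fun i => e.symm (MvPolynomial.X i)) ?_ ?_
  · have h1 : Set.range (fun i => e.symm (MvPolynomial.X i)) =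
        e.symm.toAlgHom '' Set.range MvPolynomial.X := by
      rw [← Set.range_comp]; rfl
    rw [h1, Algebra.adjoin_image, MvPolynomial.adjoin_range_X, Algebra.map_top,
      AlgHom.range_eq_top]
    exact e.symm.surjective
  · intro i
    have hex : ∀ i₀ : Fin 4, ∃ i', i' ≠ i ∧ i' ≠ i₀ := by
      revert i; decide
    have key : ∀ i₀ : Fin 4, ∃ D : LND k (Fam (pA k j m)), (∃ g, D.toFun g ≠ 0) ∧
        D.toFun (e.symm (MvPolynomial.X i)) = 0 ∧ D.toFun (e.symm (MvPolynomial.X i₀)) = 0 := by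
      intro i₀
      obtain ⟨i', h1, h2⟩ := hex i₀
      refine ⟨LND.ofEquiv e i', ⟨e.symm (MvPolynomial.X i'), ?_⟩, ?_, ?_⟩
      · simp [LND.ofEquiv_apply]
      · simp [LND.ofEquiv_apply, MvPolynomial.pderiv_X_of_ne h1.symm]
      · simp [LND.ofEquiv_apply, MvPolynomial.pderiv_X_of_ne h2.symm]
    rcases hcase with ⟨i₀, h⟩ | h
    · obtain ⟨D, h1, h2, h3⟩ := key i₀
      refine ⟨D, h1, h2, Or.inl ?_⟩
      rwa [← h, e.symm_apply_apply] at h3
    · obtain ⟨D, h1, h2, -⟩ := key i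
      exact ⟨D, h1, h2, Or.inr h⟩

end Vale.Agent.P295
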