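import Vale.Agent.P295.NotPoly

/-! Stable triviality: adjoining one variable gives a polynomial ring. -/

namespace Vale.Agent.P295

open MvPolynomial

section elementary

variable {R : Type*} [CommRing R]

/-- the quadric polynomial in the variables `x = X 0`, `y = X 1`, `z = X 2` -/
noncomputable def qq (R : Type*) [CommRing R] (j : ℕ) : MvPolynomial (Fin 4) R :=
  X 0 ^ j * X 2 - X 1 * (X 1 + 1)

/-- automorphisms congruent to the identity with prescribed first order action on `qq` -/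
def Good (π : R) (j : ℕ) (θ : MvPolynomial (Fin 4) R ≃ₐ[R] MvPolynomial (Fin 4) R)
    (h : MvPolynomial (Fin 4) R) : Prop :=
  (∀ g, C π ∣ θ g - g) ∧ C π ^ 2 ∣ θ (qq R j) - qq R j - C π * h

theorem Good.trans {π : R} {j : ℕ} {θ θ' : MvPolynomial (Fin 4) R ≃ₐ[R] MvPolynomial (Fin 4) R}
    {h h' : MvPolynomial (Fin 4) R} (H : Good π j θ h) (H' : Good π j θ' h') :
    Good π j (θ.trans θ') (h + h') := by
  refine ⟨fun g => ?_, ?_⟩
  · have := dvd_add (H'.1 (θ g)) (H.1 g)
    simpa using this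
  · obtain ⟨r, hr⟩ := H.2
    obtain ⟨r', hr'⟩ := H'.2
    obtain ⟨a, ha⟩ := H'.1 h
    have h1 : θ (qq R j) = qq R j + C π * h + C π ^ 2 * r := by linear_combination hr
    have hC : θ' (C π) = C π := θ'.commutes π
    refine ⟨r' + a + θ' r, ?_⟩
    rw [AlgEquiv.trans_apply, h1, map_add, map_add, map_mul, map_mul, map_pow, hC]
    linear_combination hr' + C π * ha

/-- first elementary automorphism -/
noncomputable def el1 (π : R) : MvPolynomial (Fin 4) R ≃ₐ[R] MvPolynomial (Fin 4) R :=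
  AlgEquiv.ofAlgHom
    (aeval ![X 0, X 1 - C π * (X 3 + X 1) ^ 2, X 2, X 3 + C π * (X 3 + X 1) ^ 2])
    (aeval ![X 0, X 1 + C π * (X 3 + X 1) ^ 2, X 2, X 3 - C π * (X 3 + X 1) ^ 2])
    (by ext i : 1; fin_cases i <;> simp [algHom_C])
    (by ext i : 1; fin_cases i <;> simp [algHom_C])

/-- second elementary automorphism -/
noncomputable def el2 (π : R) : MvPolynomial (Fin 4) R ≃ₐ[R] MvPolynomial (Fin 4) R :=
  AlgEquiv.ofAlgHom
    (aeval ![X 0, X 1, X 2 - 2 * C π * (X 3 + X 2) ^ 2, X 3 + 2 * C π * (X 3 + X 2) ^ 2])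
    (aeval ![X 0, X 1, X 2 + 2 * C π * (X 3 + X 2) ^ 2, X 3 - 2 * C π * (X 3 + X 2) ^ 2])
    (by ext i : 1; fin_cases i <;> simp [algHom_C, map_ofNat])
    (by ext i : 1; fin_cases i <;> simp [algHom_C, map_ofNat])

/-- third elementary automorphism -/
noncomputable def el3 (π : R) : MvPolynomial (Fin 4) R ≃ₐ[R] MvPolynomial (Fin 4) R :=
  AlgEquiv.ofAlgHom
    (aeval ![X 0, X 1 + C π * (X 3 ^ 2 - X 3), X 2 + 2 * C π * X 3 ^ 2, X 3])
    (aeval ![X 0, X 1 - C π * (X 3 ^ 2 - X 3), X 2 - 2 * C π * X 3 ^ 2, X 3])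
    (by ext i : 1; fin_cases i <;> simp [algHom_C, map_ofNat])
    (by ext i : 1; fin_cases i <;> simp [algHom_C, map_ofNat])

theorem good1 (π : R) (j : ℕ) : Good π j (el1 π) ((2 * X 1 + 1) * (X 3 + X 1) ^ 2) := by
  refine ⟨dvd_algHom_sub (el1 π).toAlgHom _ fun i => ?_, ⟨-(X 3 + X 1) ^ 4, ?_⟩⟩
  · fin_cases i <;> simp [el1]
  · simp [el1, qq]; ring

theorem good2 (π : R) (j : ℕ) : Good π j (el2 π) (-2 * X 0 ^ j * (X 3 + X 2) ^ 2) := by
  refine ⟨dvd_algHom_sub (el2 π).toAlgHom _ fun i => ?_, ⟨0, ?_⟩⟩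
  · fin_cases i <;> simp [el2]
    · exact Dvd.intro (2 * (X 3 + X 2) ^ 2) (by ring)
    · exact Dvd.intro (2 * (X 3 + X 2) ^ 2) (by ring)
  · simp [el2, qq]; ring

theorem good3 (π : R) (j : ℕ) :
    Good π j (el3 π) (-(2 * X 1 + 1) * (X 3 ^ 2 - X 3) + 2 * X 0 ^ j * X 3 ^ 2) := by
  refine ⟨dvd_algHom_sub (el3 π).toAlgHom _ fun i => ?_, ⟨-(X 3 ^ 2 - X 3) ^ 2, ?_⟩⟩
  · fin_cases i <;> simp [el3]
    exact Dvd.intro (2 * X 3 ^ 2) (by ring)
  · simp [el3, qq]; ring

/-- the correction term -/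
noncomputable def hh (R : Type*) [CommRing R] (j : ℕ) : MvPolynomial (Fin 4) R :=
  (2 * X 1 + 1) * X 1 ^ 2 - 2 * X 0 ^ j * X 2 ^ 2

theorem exists_good (π : R) (j : ℕ) :
    ∃ θ, Good π j θ (X 3 * (1 - 4 * qq R j) + hh R j) := by
  refine ⟨((el1 π).trans (el2 π)).trans (el3 π), ?_⟩
  convert ((good1 π j).trans (good2 π j)).trans (good3 π j) using 1
  simp only [qq, hh]; ring

/-- base change of an endomorphism -/
noncomputable def bc {K σ : Type*} [CommRing K] (φ : R →+* K)
    (θ : MvPolynomial σ R →ₐ[R] MvPolynomial σ R) : MvPolynomial σ K →ₐ[K] MvPolynomial σ K :=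
  aeval fun i => map φ (θ (X i))

theorem bc_map {K σ : Type*} [CommRing K] (φ : R →+* K)
    (θ : MvPolynomial σ R →ₐ[R] MvPolynomial σ R) (g : MvPolynomial σ R) :
    bc φ θ (map φ g) = map φ (θ g) := by
  induction g using MvPolynomial.induction_on with
  | C a => simp [bc, algHom_C]
  | add p q hp hq => simp only [map_add, hp, hq]
  | mul_X p i hp => simp only [map_mul, hp]; simp [bc]

/-- base change of an automorphism -/
noncomputable def bcE {K σ : Type*} [CommRing K] (φ : R →+* K)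
    (θ : MvPolynomial σ R ≃ₐ[R] MvPolynomial σ R) : MvPolynomial σ K ≃ₐ[K] MvPolynomial σ K :=
  AlgEquiv.ofAlgHom (bc φ θ.toAlgHom) (bc φ θ.symm.toAlgHom)
    (by
      ext i : 1
      rw [AlgHom.comp_apply, ← map_X φ, bc_map, bc_map]; simp)
    (by
      ext i : 1
      rw [AlgHom.comp_apply, ← map_X φ, bc_map, bc_map]; simp)

theorem bcE_map {K σ : Type*} [CommRing K] (φ : R →+* K)
    (θ : MvPolynomial σ R ≃ₐ[R] MvPolynomial σ R) (g : MvPolynomial σ R) :
    bcE φ θ (map φ g) = map φ (θ g) := bc_map φ θ.toAlgHom g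

theorem bcE_symm_map {K σ : Type*} [CommRing K] (φ : R →+* K)
    (θ : MvPolynomial σ R ≃ₐ[R] MvPolynomial σ R) (g : MvPolynomial σ R) :
    (bcE φ θ).symm (map φ g) = map φ (θ.symm g) := bc_map φ θ.symm.toAlgHom g

end elementary

section cong

variable {R Ω : Type*} [CommRing R] [CommRing Ω] [Algebra R Ω]

/-- congruence modulo `π U` -/
def Cg (U : Subalgebra R Ω) (π : R) (a b : Ω) : Prop :=
  b ∈ U ∧ ∃ r ∈ U, a = b + algebraMap R Ω π * r

variable {U : Subalgebra R Ω} {π : R}

theorem Cg.left {a b : Ω} (h : Cg U π a b) : a ∈ U := by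
  obtain ⟨hb, r, hr, rfl⟩ := h
  exact U.add_mem hb (U.mul_mem (U.algebraMap_mem π) hr)

theorem Cg.add {a b c d : Ω} (h : Cg U π a b) (h' : Cg U π c d) : Cg U π (a + c) (b + d) := by
  obtain ⟨hb, r, hr, rfl⟩ := h
  obtain ⟨hd, r', hr', rfl⟩ := h'
  exact ⟨U.add_mem hb hd, r + r', U.add_mem hr hr', by ring⟩

theorem Cg.sub {a b c d : Ω} (h : Cg U π a b) (h' : Cg U π c d) : Cg U π (a - c) (b - d) := by
  obtain ⟨hb, r, hr, rfl⟩ := h
  obtain ⟨hd, r', hr', rfl⟩ := h'
  exact ⟨U.sub_mem hb hd, r - r', U.sub_mem hr hr', by ring⟩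

theorem Cg.mul {a b c d : Ω} (h : Cg U π a b) (h' : Cg U π c d) : Cg U π (a * c) (b * d) := by
  have hc := h'.left
  obtain ⟨hb, r, hr, rfl⟩ := h
  obtain ⟨hd, r', hr', rfl⟩ := h'
  exact ⟨U.mul_mem hb hd, r * (d + algebraMap R Ω π * r') + b * r',
    U.add_mem (U.mul_mem hr hc) (U.mul_mem hb hr'), by ring⟩

theorem Cg.pow {a b : Ω} (h : Cg U π a b) (n : ℕ) : Cg U π (a ^ n) (b ^ n) := by
  induction n with
  | zero => exact ⟨by simp, 0, U.zero_mem, by simp⟩
  | succ n ih => rw [pow_succ, pow_succ]; exact ih.mul h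

theorem Cg.symm' {a b : Ω} (Θ : Ω ≃ₐ[R] Ω) (hU : ∀ g ∈ U, Θ.symm g ∈ U) (ha : a ∈ U)
    (h : Cg U π (Θ a) b) : Cg U π (Θ.symm b) a := by
  obtain ⟨-, r, hr, e⟩ := h
  refine ⟨ha, -Θ.symm r, U.neg_mem (hU r hr), ?_⟩
  have := congrArg Θ.symm e
  rw [Θ.symm_apply_apply, map_add, map_mul, AlgEquiv.commutes] at this
  linear_combination -this

variable (R) (j l : ℕ) (i x y z w u : Ω)

/-- the element `s` attached to `υ` -/
def sU (υ : Ω) : Ω := z - x ^ j * (x + υ ^ l)
/-- the element `F` attached to `υ` -/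
def FU (υ : Ω) : Ω := (x + υ ^ l - sU j l x z υ ^ 2) * i
/-- the element `J` attached to `υ` -/
def JU (υ : Ω) : Ω := (y - sU j l x z υ * x ^ j) * i

/-- the small algebra -/
def BB : Subalgebra R Ω := Algebra.adjoin R {x, y, z, w, u}
/-- the modified algebra -/
def AA (υ : Ω) : Subalgebra R Ω :=
  Algebra.adjoin R {x, y, z, w, u, FU j l i x z υ, JU j l i x y z υ}

theorem BB_le_AA (υ : Ω) : BB R x y z w u ≤ AA R j l i x y z w u υ :=
  Algebra.adjoin_mono (by
    intro a ha
    simp only [Set.mem_insert_iff, Set.mem_singleton_iff] at ha ⊢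
    tauto)

variable {R}

theorem map_AA (hi : algebraMap R Ω π * i = 1) (Θ : Ω →ₐ[R] Ω) (υ υ' : Ω)
    (hB : ∀ g ∈ BB R x y z w u, Θ g ∈ BB R x y z w u)
    (hx : Cg (BB R x y z w u) π (Θ x) x) (hy : Cg (BB R x y z w u) π (Θ y) y)
    (hz : Cg (BB R x y z w u) π (Θ z) z) (hυ : Cg (BB R x y z w u) π (Θ υ) υ') :
    ∀ g ∈ AA R j l i x y z w u υ, Θ g ∈ AA R j l i x y z w u υ' := by
  have hΘi : Θ i = i := by
    have := congrArg Θ hi
    rw [map_mul, AlgHom.commutes, map_one] at this
    linear_combination i * this - Θ i * hi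
  have hs : Cg (BB R x y z w u) π (Θ (sU j l x z υ)) (sU j l x z υ') := by
    simp only [sU, map_sub, map_mul, map_add, map_pow]
    exact hz.sub ((hx.pow j).mul (hx.add (hυ.pow l)))
  have hle := BB_le_AA R j l i x y z w u υ'
  have : AA R j l i x y z w u υ ≤ (AA R j l i x y z w u υ').comap Θ := by
    apply Algebra.adjoin_le
    intro a ha
    simp only [Set.mem_insert_iff, Set.mem_singleton_iff] at ha
    rw [SetLike.mem_coe, Subalgebra.mem_comap]
    rcases ha with rfl | rfl | rfl | rfl | rfl | rfl | rfl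
    · exact hle (hB _ (Algebra.subset_adjoin (by simp)))
    · exact hle (hB _ (Algebra.subset_adjoin (by simp)))
    · exact hle (hB _ (Algebra.subset_adjoin (by simp)))
    · exact hle (hB _ (Algebra.subset_adjoin (by simp)))
    · exact hle (hB _ (Algebra.subset_adjoin (by simp)))
    · obtain ⟨-, r, hr, e⟩ := (hx.add (hυ.pow l)).sub (hs.pow 2)
      have : Θ (FU j l i x z υ) = FU j l i x z υ' + r := by
        simp only [FU, map_sub, map_mul, map_add, map_pow, hΘi, e]
        linear_combination r * hi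
      rw [this]
      exact Subalgebra.add_mem _ (Algebra.subset_adjoin (by simp)) (hle hr)
    · obtain ⟨-, r, hr, e⟩ := hy.sub (hs.mul (hx.pow j))
      have : Θ (JU j l i x y z υ) = JU j l i x y z υ' + r := by
        simp only [JU, map_sub, map_mul, map_pow, hΘi, e]
        linear_combination r * hi
      rw [this]
      exact Subalgebra.add_mem _ (Algebra.subset_adjoin (by simp)) (hle hr)
  exact fun g hg => this hg

end cong

section swap

variable {R K : Type*} [CommRing R] [CommRing K] [Algebra R K] (π : R) (i₀ : K)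
  (hi₀ : algebraMap R K π * i₀ = 1) (j l : ℕ)

/-- the element `u = q / π` -/
noncomputable def uu : MvPolynomial (Fin 4) K := qq K j * C i₀

/-- the translation automorphism -/
noncomputable def transl : MvPolynomial (Fin 4) K ≃ₐ[K] MvPolynomial (Fin 4) K :=
  AlgEquiv.ofAlgHom
    (aeval ![X 0, X 1, X 2, X 3 - (uu i₀ j + hh K j)])
    (aeval ![X 0, X 1, X 2, X 3 + (uu i₀ j + hh K j)])
    (by ext i : 1; fin_cases i <;> simp [algHom_C, uu, hh, qq, map_ofNat])
    (by ext i : 1; fin_cases i <;> simp [algHom_C, uu, hh, qq, map_ofNat])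

include hi₀ in
theorem exists_swap : ∃ Θ : MvPolynomial (Fin 4) K ≃ₐ[R] MvPolynomial (Fin 4) K,
    (AA R j l (C i₀) (X 0) (X 1) (X 2) (X 3) (uu i₀ j) (uu i₀ j)).map Θ.toAlgHom =
      AA R j l (C i₀) (X 0) (X 1) (X 2) (X 3) (uu i₀ j) (X 3) := by
  obtain ⟨θ, hθ1, r, hθ2⟩ := exists_good π j
  let φ := algebraMap R K
  let B : Subalgebra R (MvPolynomial (Fin 4) K) := BB R (X 0) (X 1) (X 2) (X 3) (uu i₀ j)
  have hπ : algebraMap R (MvPolynomial (Fin 4) K) π = C (φ π) := rfl
  have hi : algebraMap R (MvPolynomial (Fin 4) K) π * C i₀ = 1 := by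
    rw [hπ, ← map_mul, hi₀, map_one]
  have hX : ∀ a : Fin 4, X a ∈ B := fun a => Algebra.subset_adjoin (by fin_cases a <;> simp)
  have hu : uu i₀ j ∈ B := Algebra.subset_adjoin (by simp)
  have hmap : ∀ g : MvPolynomial (Fin 4) R, map φ g ∈ B := by
    intro g
    induction g using MvPolynomial.induction_on with
    | C a => rw [map_C]; exact B.algebraMap_mem a
    | add p q hp hq => rw [map_add]; exact B.add_mem hp hq
    | mul_X p a hp => rw [map_mul, map_X]; exact B.mul_mem hp (hX a)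
  have hq : map φ (qq R j) = qq K j := by simp [qq]
  have hh' : map φ (hh R j) = hh K j := by simp [hh, map_ofNat]
  have hqu : qq K j = C (φ π) * uu i₀ j := by
    rw [uu, ← hπ]; linear_combination (-qq K j) * hi
  have hBgen : ∀ Θ : MvPolynomial (Fin 4) K →ₐ[R] MvPolynomial (Fin 4) K,
      (∀ a, Θ (X a) ∈ B) → Θ (uu i₀ j) ∈ B → ∀ g ∈ B, Θ g ∈ B := by
    intro Θ h1 h2
    have : B ≤ B.comap Θ := by
      apply Algebra.adjoin_le
      intro a ha
      simp only [Set.mem_insert_iff, Set.mem_singleton_iff] at ha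
      rcases ha with rfl | rfl | rfl | rfl | rfl
      exacts [h1 0, h1 1, h1 2, h1 3, h2]
    exact fun g hg => this hg
  -- base changes of automorphisms congruent to the identity preserve `B`
  have hbc : ∀ θ' : MvPolynomial (Fin 4) R →ₐ[R] MvPolynomial (Fin 4) R, (∀ g, C π ∣ θ' g - g) →
      (∀ g, Cg B π (bc φ θ' (map φ g)) (map φ g)) ∧ ∀ g ∈ B, bc φ θ' g ∈ B := by
    intro θ' h
    have h1 : ∀ g, Cg B π (bc φ θ' (map φ g)) (map φ g) := by
      intro g
      obtain ⟨a, ha⟩ := h g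
      refine ⟨hmap g, map φ a, hmap a, ?_⟩
      rw [bc_map, show θ' g = g + C π * a by linear_combination ha, map_add, map_mul, map_C, hπ]
    refine ⟨h1, hBgen ((bc φ θ').restrictScalars R) (fun a => ?_) ?_⟩
    · simpa using (h1 (X a)).left
    · obtain ⟨-, a, ha, e⟩ := h1 (qq R j)
      have : bc φ θ' (uu i₀ j) = uu i₀ j + a := by
        rw [uu, map_mul, algHom_C, ← hq, e, algebraMap_eq]
        linear_combination a * hi
      change bc φ θ' (uu i₀ j) ∈ B
      rw [this]
      exact B.add_mem hu ha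
  have hθ1' : ∀ g, C π ∣ θ.symm.toAlgHom g - g := by
    intro g
    have := hθ1 (θ.symm g)
    rw [θ.apply_symm_apply] at this
    simpa using this.neg_right
  obtain ⟨c1, b1⟩ := hbc θ.toAlgHom hθ1
  obtain ⟨-, b2⟩ := hbc θ.symm.toAlgHom hθ1'
  let τ := transl i₀ j
  have τ0 : τ (X 0) = X 0 := by simp [τ, transl]
  have τ1 : τ (X 1) = X 1 := by simp [τ, transl]
  have τ2 : τ (X 2) = X 2 := by simp [τ, transl]
  have τ3 : τ (X 3) = X 3 - (uu i₀ j + hh K j) := by simp [τ, transl]
  have τC : τ (C i₀) = C i₀ := τ.commutes i₀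
  have τu : τ (uu i₀ j) = uu i₀ j := by simp [uu, qq, τ0, τ1, τ2, τC]
  have τh : τ (hh K j) = hh K j := by simp [hh, τ0, τ1, τ2, map_ofNat]
  have hhB : hh K j ∈ B := hh' ▸ hmap _
  have b3 : ∀ g ∈ B, τ g ∈ B := by
    refine hBgen (τ.toAlgHom.restrictScalars R) (fun a => ?_) ?_
    · change τ (X a) ∈ B
      fin_cases a
      · exact τ0.symm ▸ hX 0
      · exact τ1.symm ▸ hX 1
      · exact τ2.symm ▸ hX 2
      · exact τ3.symm ▸ B.sub_mem (hX 3) (B.add_mem hu hhB)
    · change τ _ ∈ B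
      rw [τu]; exact hu
  have b4 : ∀ g ∈ B, τ.symm g ∈ B := by
    have e : ∀ a b, τ a = b → τ.symm b = a := fun a b h => by rw [← h, τ.symm_apply_apply]
    refine hBgen (τ.symm.toAlgHom.restrictScalars R) (fun a => ?_) ?_
    · change τ.symm (X a) ∈ B
      fin_cases a
      · exact (e _ _ τ0).symm ▸ hX 0
      · exact (e _ _ τ1).symm ▸ hX 1
      · exact (e _ _ τ2).symm ▸ hX 2
      · have : τ.symm (X 3) = X 3 + (uu i₀ j + hh K j) :=
          e _ _ (by rw [map_add, map_add, τ3, τu, τh]; ring)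
        exact this.symm ▸ B.add_mem (hX 3) (B.add_mem hu hhB)
    · change τ.symm _ ∈ B
      rw [e _ _ τu]; exact hu
  let Θ : MvPolynomial (Fin 4) K ≃ₐ[R] MvPolynomial (Fin 4) K :=
    ((bcE φ θ).trans τ).restrictScalars R
  have hΘ : ∀ g, Θ g = τ (bc φ θ.toAlgHom g) := fun g => rfl
  have hΘ' : ∀ g, Θ.symm g = bc φ θ.symm.toAlgHom (τ.symm g) := fun g => rfl
  have B1 : ∀ g ∈ B, Θ g ∈ B := fun g hg => b3 _ (b1 g hg)
  have B2 : ∀ g ∈ B, Θ.symm g ∈ B := fun g hg => b2 _ (b4 g hg)
  have τπ : τ (algebraMap R _ π) = algebraMap R _ π := (τ.restrictScalars R).commutes π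
  have cX : ∀ a : Fin 4, τ (X a) = X a → Cg B π (Θ (X a)) (X a) := by
    intro a ha
    obtain ⟨-, r, hr, e⟩ := c1 (X a)
    rw [map_X] at e
    exact ⟨hX a, τ r, b3 r hr, by rw [hΘ, e, map_add, map_mul, τπ, ha]⟩
  have cu : Cg B π (Θ (uu i₀ j)) (X 3) := by
    have e1 : θ (qq R j) = qq R j + C π * (X 3 * (1 - 4 * qq R j) + hh R j) + C π ^ 2 * r := by
      linear_combination hθ2
    have e2 : bc φ θ.toAlgHom (uu i₀ j) = uu i₀ j + X 3 + hh K j +
        algebraMap R _ π * (map φ r - 4 * X 3 * uu i₀ j) := by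
      have e3 : bc φ θ.toAlgHom (uu i₀ j) = map φ (θ (qq R j)) * C i₀ := by
        rw [uu, map_mul, algHom_C, ← hq, bc_map, algebraMap_eq]; rfl
      rw [e3, e1]
      simp only [map_add, map_mul, map_sub, map_pow, map_C, map_X, map_one, map_ofNat, hq, hh']
      rw [hπ] at hi ⊢
      rw [hqu]
      linear_combination (uu i₀ j + X 3 * (1 - 4 * (C (φ π) * uu i₀ j)) + hh K j +
        C (φ π) * map φ r) * hi
    refine ⟨hX 3, τ (map φ r - 4 * X 3 * uu i₀ j), b3 _ (B.sub_mem (hmap r)
      (B.mul_mem (B.mul_mem (by simp) (hX 3)) hu)), ?_⟩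
    rw [hΘ, e2, map_add, map_add, map_add, map_mul τ, τπ, τu, τ3, τh]
    ring
  refine ⟨Θ, le_antisymm ?_ ?_⟩
  · rintro _ ⟨g, hg, rfl⟩
    exact map_AA j l _ _ _ _ _ _ hi Θ.toAlgHom _ _ B1 (cX 0 τ0) (cX 1 τ1) (cX 2 τ2) cu g hg
  · intro g hg
    refine ⟨Θ.symm g, ?_, Θ.apply_symm_apply g⟩
    exact map_AA j l _ _ _ _ _ _ hi Θ.symm.toAlgHom _ _ B2 (Cg.symm' Θ B2 (hX 0) (cX 0 τ0))
      (Cg.symm' Θ B2 (hX 1) (cX 1 τ1)) (Cg.symm' Θ B2 (hX 2) (cX 2 τ2))
      (Cg.symm' Θ B2 hu cu) g hg

end swap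

theorem exists_ringEquiv_of_range {A B Ω : Type*} [CommRing A] [CommRing B] [CommRing Ω]
    (f : A →+* Ω) (g : B →+* Ω) (hf : Function.Injective f) (hg : Function.Injective g)
    (h : ∀ t, t ∈ f.range ↔ t ∈ g.range) : ∃ e : A ≃+* B, ∀ a, g (e a) = f a := by
  have h1 : f.range = g.range := Subring.ext h
  let ef : A ≃+* f.range := RingEquiv.ofBijective f.rangeRestrict
    ⟨fun a b hab => hf (congrArg Subtype.val hab), f.rangeRestrict_surjective⟩
  let eg : B ≃+* g.range := RingEquiv.ofBijective g.rangeRestrict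
    ⟨fun a b hab => hg (congrArg Subtype.val hab), g.rangeRestrict_surjective⟩
  refine ⟨(ef.trans (RingEquiv.subringCongr h1)).trans eg.symm, fun a => ?_⟩
  have : ∀ t : g.range, g (eg.symm t) = t := fun t =>
    congrArg Subtype.val (eg.apply_symm_apply t)
  exact this _

section final

variable (k : Type*) [Field k]

/-- the field of fractions of `k[p]` -/
def KK := FractionRing (Polynomial k)

noncomputable instance : Field (KK k) := inferInstanceAs (Field (FractionRing (Polynomial k)))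
noncomputable instance : Algebra (Polynomial k) (KK k) :=
  inferInstanceAs (Algebra (Polynomial k) (FractionRing (Polynomial k)))
instance : IsFractionRing (Polynomial k) (KK k) :=
  inferInstanceAs (IsFractionRing (Polynomial k) (FractionRing (Polynomial k)))

/-- the ambient ring -/
abbrev Om := MvPolynomial (Fin 4) (KK k)

/-- the inverse of `p ^ m` -/
noncomputable def iK (m : ℕ) : KK k := (algebraMap (Polynomial k) (KK k) (Polynomial.X ^ m))⁻¹

theorem iK_spec (m : ℕ) : algebraMap (Polynomial k) (KK k) (Polynomial.X ^ m) * iK k m = 1 := by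
  apply mul_inv_cancel₀
  simp

theorem iK_spec' (m : ℕ) :
    algebraMap (Polynomial k) (Om k) Polynomial.X ^ m * C (iK k m) = 1 := by
  rw [← map_pow]
  change C (algebraMap (Polynomial k) (KK k) (Polynomial.X ^ m)) * _ = 1
  rw [← map_mul, iK_spec, map_one]

/-- constants -/
noncomputable def cO : k →+* Om k := (algebraMap (Polynomial k) (Om k)).comp Polynomial.C

/-- base map of the main algebra -/
noncomputable def baseO (j m : ℕ) : Lam k →+* Om k :=
  eval₂Hom (cO k) ![algebraMap (Polynomial k) (Om k) Polynomial.X, uu (iK k m) j, X 0]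

theorem baseO_0 (j m : ℕ) : baseO k j m (X 0) = algebraMap (Polynomial k) (Om k) Polynomial.X := by
  simp only [baseO, eval₂Hom_X', Matrix.cons_val_zero]
theorem baseO_1 (j m : ℕ) : baseO k j m (X 1) = uu (iK k m) j := by simp [baseO]
theorem baseO_2 (j m : ℕ) : baseO k j m (X 2) = X 0 := by simp [baseO]
theorem baseO_C (j m : ℕ) (c : k) : baseO k j m (C c) = cO k c := by simp [baseO]

@[simp] theorem pA_π (j m : ℕ) : (pA k j m).π = X 0 ^ m := rfl
@[simp] theorem pA_ξ (j m : ℕ) : (pA k j m).ξ = X 2 ^ j := rfl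
@[simp] theorem pA_c₁ (j m : ℕ) : (pA k j m).c₁ = X 2 + X 1 ^ (2 * j) := rfl
@[simp] theorem pA_c₂ (j m : ℕ) : (pA k j m).c₂ = X 1 := rfl

/-- embedding of the main algebra -/
noncomputable def embA (j m : ℕ) : Fam (pA k j m) →+* Om k :=
  Fam.liftYZ _ (baseO k j m) (C (iK k m)) (X 1) (X 2)
    (by rw [pA_π, map_pow, baseO_0, iK_spec'])
    (by
      rw [pA_π, pA_ξ, pA_c₂, map_pow, map_pow, baseO_0, baseO_1, baseO_2, uu, qq]
      linear_combination (-(X 0 ^ j * X 2 - X 1 * (X 1 + 1))) * iK_spec' k m)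

theorem embA_of (j m : ℕ) (a) : embA k j m (Fam.of _ a) = baseO k j m a := by simp [embA]
theorem embA_y (j m : ℕ) : embA k j m (Fam.y _) = X 1 := by simp [embA]
theorem embA_z (j m : ℕ) : embA k j m (Fam.z _) = X 2 := by simp [embA]
theorem embA_s (j m : ℕ) :
    embA k j m (Fam.s _) = sU j (2 * j) (X 0) (X 2) (uu (iK k m) j) := by
  simp [embA, Fam.liftYZ, sU, baseO_1, baseO_2]
theorem embA_F (j m : ℕ) :
    embA k j m (Fam.F _) = FU j (2 * j) (C (iK k m)) (X 0) (X 2) (uu (iK k m) j) := by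
  simp [embA, Fam.liftYZ, sU, FU, baseO_1, baseO_2]
theorem embA_J (j m : ℕ) :
    embA k j m (Fam.J _) = JU j (2 * j) (C (iK k m)) (X 0) (X 1) (X 2) (uu (iK k m) j) := by
  simp [embA, Fam.liftYZ, sU, JU, baseO_1, baseO_2]

/-- embedding of the cylinder -/
noncomputable def embAw (j m : ℕ) : Polynomial (Fam (pA k j m)) →+* Om k :=
  Polynomial.eval₂RingHom (embA k j m) (X 3)

theorem embAw_C (j m : ℕ) (a) : embAw k j m (Polynomial.C a) = embA k j m a := by simp [embAw]
theorem embAw_X (j m : ℕ) : embAw k j m Polynomial.X = X 3 := by simp [embAw]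

theorem algebraMap_Om_mem (U : Subring (Om k)) (h0 : ∀ c, cO k c ∈ U)
    (hp : algebraMap (Polynomial k) (Om k) Polynomial.X ∈ U) (r : Polynomial k) :
    algebraMap (Polynomial k) (Om k) r ∈ U := by
  induction r using Polynomial.induction_on with
  | C a => exact h0 a
  | add p q hp hq => rw [map_add]; exact U.add_mem hp hq
  | monomial n a h => rw [pow_succ, ← mul_assoc, map_mul]; exact U.mul_mem h hp

theorem range_embAw (j m : ℕ) (t : Om k) : t ∈ (embAw k j m).range ↔
    t ∈ AA (Polynomial k) j (2 * j) (C (iK k m)) (X 0) (X 1) (X 2) (X 3) (uu (iK k m) j)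
      (uu (iK k m) j) := by
  set U := AA (Polynomial k) j (2 * j) (C (iK k m)) (X 0) (X 1) (X 2) (X 3) (uu (iK k m) j)
      (uu (iK k m) j) with hU
  have h0 : (X 0 : Om k) ∈ U := Algebra.subset_adjoin (by simp)
  have h2 : (X 2 : Om k) ∈ U := Algebra.subset_adjoin (by simp)
  have h3 : (X 3 : Om k) ∈ U := Algebra.subset_adjoin (by simp)
  have hu : uu (iK k m) j ∈ U := Algebra.subset_adjoin (by simp)
  constructor
  · rintro ⟨g, rfl⟩
    have hA : ∀ a, embA k j m a ∈ U := by
      intro a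
      refine Fam.mem_of_gen _ (U.toSubring.comap (embA k j m)) ?_ ?_ ?_ ?_ a
      · intro q
        rw [Subring.mem_comap, embA_of]
        induction q using MvPolynomial.induction_on with
        | C c => rw [baseO_C]; exact U.algebraMap_mem _
        | add p q hp hq => rw [map_add]; exact U.add_mem hp hq
        | mul_X p i hp =>
          rw [map_mul]
          refine U.mul_mem hp ?_
          fin_cases i
          · exact (baseO_0 k j m).symm ▸ U.algebraMap_mem _
          · exact (baseO_1 k j m).symm ▸ hu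
          · exact (baseO_2 k j m).symm ▸ h0
      · rw [Subring.mem_comap, embA_s, sU]
        exact U.sub_mem h2 (U.mul_mem (U.pow_mem h0 _) (U.add_mem h0 (U.pow_mem hu _)))
      · rw [Subring.mem_comap, embA_F]
        exact Algebra.subset_adjoin (by simp)
      · rw [Subring.mem_comap, embA_J]
        exact Algebra.subset_adjoin (by simp)
    induction g using Polynomial.induction_on with
    | C a => rw [embAw_C]; exact hA a
    | add p q hp hq => rw [map_add]; exact U.add_mem hp hq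
    | monomial n a h => rw [pow_succ, ← mul_assoc, map_mul, embAw_X]; exact U.mul_mem h h3
  · intro ht
    have hA : ∀ a, embA k j m a ∈ (embAw k j m).range := fun a => ⟨_, embAw_C k j m a⟩
    induction ht using Algebra.adjoin_induction with
    | mem a ha =>
      simp only [Set.mem_insert_iff, Set.mem_singleton_iff] at ha
      rcases ha with rfl | rfl | rfl | rfl | rfl | rfl | rfl
      · rw [← baseO_2 k j m, ← embA_of]; exact hA _
      · rw [← embA_y k j m]; exact hA _
      · rw [← embA_z k j m]; exact hA _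
      · exact ⟨_, embAw_X k j m⟩
      · rw [← baseO_1 k j m, ← embA_of]; exact hA _
      · rw [← embA_F]; exact hA _
      · rw [← embA_J]; exact hA _
    | algebraMap r =>
      refine algebraMap_Om_mem k _ (fun c => ?_) ?_ r
      · rw [← baseO_C k j m, ← embA_of]; exact hA _
      · rw [← baseO_0 k j m, ← embA_of]; exact hA _
    | add a b _ _ ha hb => exact Subring.add_mem _ ha hb
    | mul a b _ _ ha hb => exact Subring.mul_mem _ ha hb

theorem map_Om_injective :
    Function.Injective (map (σ := Fin 4) (algebraMap (Polynomial k) (KK k))) :=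
  map_injective _ (IsFractionRing.injective _ _)

theorem embAw_injective [CharZero k] (j m : ℕ) : Function.Injective (embAw k j m) := by
  let o : Lam k →+* Polynomial (Fam (pA k j m)) := Polynomial.C.comp (Fam.of _)
  let f : MvPolynomial (Fin 4) (Polynomial k) →+* Polynomial (Fam (pA k j m)) :=
    eval₂Hom (Polynomial.eval₂RingHom (o.comp C) (o (X 0)))
      ![o (X 2), Polynomial.C (Fam.y _), Polynomial.C (Fam.z _), Polynomial.X]
  have hp : o (X 0) ∈ f.range := ⟨C Polynomial.X, by simp [f]⟩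
  have he : o (X 0 ^ m) ∈ f.range := by rw [map_pow]; exact f.range.pow_mem hp m
  refine injective_of_satur f _ ?_ _ he ?_ ?_
  · convert map_Om_injective k using 1
    congr 1
    apply MvPolynomial.ringHom_ext'
    · apply Polynomial.ringHom_ext
      · intro c
        simp [f, o, embAw_C, embA_of, baseO_C, cO]
        rfl
      · simp [f, o, embAw_C, embA_of, baseO_0]
    · intro i
      fin_cases i <;> simp [f, o, embAw_C, embA_of, baseO_2, embA_y, embA_z, embAw_X]
  · intro g hg
    ext n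
    have := congrArg (fun q => q.coeff n) hg
    simp only [o, RingHom.comp_apply, Polynomial.coeff_C_mul, Polynomial.coeff_zero] at this
    exact nzd_X_pow _ 0 m _ this
  · let U := satur f.range _ he
    have hx : o (X 2) ∈ U := mem_satur_of_mem ⟨X 0, by simp [f]⟩
    have hy : Polynomial.C (Fam.y _) ∈ U := mem_satur_of_mem ⟨X 1, by simp [f]⟩
    have hz : Polynomial.C (Fam.z _) ∈ U := mem_satur_of_mem ⟨X 2, by simp [f]⟩
    have hw : Polynomial.X ∈ U := mem_satur_of_mem ⟨X 3, by simp [f]⟩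
    have hu : o (X 1) ∈ U := by
      apply mem_satur_of_mul 1
      have h3 := congrArg Polynomial.C (Fam.rel3 (pA k j m))
      simp only [map_sub, map_mul, map_add, map_one, pA_π, pA_ξ, pA_c₂] at h3
      have : o (X 0 ^ m) ^ 1 * o (X 1) = o (X 2) ^ j * Polynomial.C (Fam.z _) -
          Polynomial.C (Fam.y _) * (Polynomial.C (Fam.y _) + 1) := by
        rw [← map_pow o (X 2), pow_one]
        exact h3.symm
      rw [this]
      exact U.sub_mem (U.mul_mem (U.pow_mem hx _) hz) (U.mul_mem hy (U.add_mem hy U.one_mem))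
    have h0 : ∀ q, o q ∈ U := by
      intro q
      induction q using MvPolynomial.induction_on with
      | C c => exact mem_satur_of_mem ⟨C (Polynomial.C c), by simp [f]⟩
      | add p q hp hq => rw [map_add]; exact U.add_mem hp hq
      | mul_X p i hq =>
        rw [map_mul]
        refine U.mul_mem hq ?_
        fin_cases i
        exacts [mem_satur_of_mem hp, hu, hx]
    have hs : Polynomial.C (Fam.s _) ∈ U := by
      rw [Fam.s_eq, map_sub, map_mul]
      exact U.sub_mem hz (U.mul_mem (h0 _) (h0 _))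
    have hA : ∀ a, Polynomial.C a ∈ U := by
      intro a
      refine Fam.mem_of_gen _ (U.comap Polynomial.C) h0 hs ?_ ?_ a
      · apply mem_satur_of_mul 1
        have h3 := congrArg Polynomial.C (Fam.πF (pA k j m))
        simp only [map_sub, map_mul, map_pow Polynomial.C] at h3
        rw [pow_one]
        exact h3.symm ▸ U.sub_mem (h0 _) (U.pow_mem hs 2)
      · apply mem_satur_of_mul 1
        have h3 := congrArg Polynomial.C (Fam.πJ (pA k j m))
        simp only [map_sub, map_mul] at h3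
        rw [pow_one]
        exact h3.symm ▸ U.sub_mem hy (U.mul_mem hs (h0 _))
    intro g
    induction g using Polynomial.induction_on with
    | C a => exact hA a
    | add p q hp hq => exact U.add_mem hp hq
    | monomial n a h => rw [pow_succ, ← mul_assoc]; exact U.mul_mem h hw

/-- embedding of the polynomial ring in five variables -/
noncomputable def embP (j m : ℕ) : MvPolynomial (Fin 5) k →+* Om k :=
  eval₂Hom (cO k) ![algebraMap (Polynomial k) (Om k) Polynomial.X, sU j (2 * j) (X 0) (X 2) (X 3),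
    X 3, FU j (2 * j) (C (iK k m)) (X 0) (X 2) (X 3),
    JU j (2 * j) (C (iK k m)) (X 0) (X 1) (X 2) (X 3)]

theorem embP_0 (j m : ℕ) : embP k j m (X 0) = algebraMap (Polynomial k) (Om k) Polynomial.X := by
  simp only [embP, eval₂Hom_X', Matrix.cons_val_zero]
theorem embP_1 (j m : ℕ) : embP k j m (X 1) = sU j (2 * j) (X 0) (X 2) (X 3) := by simp [embP]
theorem embP_2 (j m : ℕ) : embP k j m (X 2) = X 3 := by simp [embP]
theorem embP_3 (j m : ℕ) : embP k j m (X 3) = FU j (2 * j) (C (iK k m)) (X 0) (X 2) (X 3) := by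
  simp [embP]
theorem embP_4 (j m : ℕ) :
    embP k j m (X 4) = JU j (2 * j) (C (iK k m)) (X 0) (X 1) (X 2) (X 3) := by simp [embP]
theorem embP_C (j m : ℕ) (c : k) : embP k j m (C c) = cO k c := by simp [embP]

/-- the element `x` of the five variable polynomial ring -/
noncomputable def xP (j m : ℕ) : MvPolynomial (Fin 5) k := X 1 ^ 2 - X 2 ^ (2 * j) + X 0 ^ m * X 3
/-- the element `y` of the five variable polynomial ring -/
noncomputable def yP (j m : ℕ) : MvPolynomial (Fin 5) k := X 1 * xP k j m ^ j + X 0 ^ m * X 4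
/-- the element `z` of the five variable polynomial ring -/
noncomputable def zP (j m : ℕ) : MvPolynomial (Fin 5) k :=
  X 1 + xP k j m ^ j * (xP k j m + X 2 ^ (2 * j))
/-- the element `u` of the five variable polynomial ring -/
noncomputable def uP (j m : ℕ) : MvPolynomial (Fin 5) k :=
  (xP k j m ^ j) ^ 2 * X 3 - (1 + 2 * X 1 * xP k j m ^ j) * X 4 - X 0 ^ m * X 4 ^ 2

theorem embP_x (j m : ℕ) : embP k j m (xP k j m) = X 0 := by
  simp only [xP, map_add, map_sub, map_mul, map_pow, embP_0, embP_1, embP_2, embP_3, FU]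
  linear_combination (X 0 + X 3 ^ (2 * j) - sU j (2 * j) (X 0) (X 2) (X 3) ^ 2) * iK_spec' k m

theorem embP_y (j m : ℕ) : embP k j m (yP k j m) = X 1 := by
  simp only [yP, map_add, map_mul, map_pow, embP_0, embP_1, embP_x, embP_4, JU]
  linear_combination (X 1 - sU j (2 * j) (X 0) (X 2) (X 3) * X 0 ^ j) * iK_spec' k m

theorem embP_z (j m : ℕ) : embP k j m (zP k j m) = X 2 := by
  simp only [zP, map_add, map_mul, map_pow, embP_1, embP_2, embP_x, sU]
  ring

theorem embP_u (j m : ℕ) : embP k j m (uP k j m) = uu (iK k m) j := by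
  have h : X 0 ^ m * uP k j m = xP k j m ^ j * zP k j m - yP k j m * (yP k j m + 1) := by
    have : xP k j m + X 2 ^ (2 * j) = X 1 ^ 2 + X 0 ^ m * X 3 := by rw [xP]; ring
    rw [uP, zP, yP, this]; ring
  have h1 := congrArg (embP k j m) h
  simp only [map_add, map_sub, map_mul, map_pow, map_one, embP_0, embP_x, embP_y, embP_z] at h1
  rw [uu, qq, ← h1]
  linear_combination (-embP k j m (uP k j m)) * iK_spec' k m

theorem range_embP (j m : ℕ) (t : Om k) : t ∈ (embP k j m).range ↔
    t ∈ AA (Polynomial k) j (2 * j) (C (iK k m)) (X 0) (X 1) (X 2) (X 3) (uu (iK k m) j)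
      (X 3) := by
  set U := AA (Polynomial k) j (2 * j) (C (iK k m)) (X 0) (X 1) (X 2) (X 3) (uu (iK k m) j)
      (X 3) with hU
  have h0 : (X 0 : Om k) ∈ U := Algebra.subset_adjoin (by simp)
  have h2 : (X 2 : Om k) ∈ U := Algebra.subset_adjoin (by simp)
  have h3 : (X 3 : Om k) ∈ U := Algebra.subset_adjoin (by simp)
  constructor
  · rintro ⟨g, rfl⟩
    induction g using MvPolynomial.induction_on with
    | C c => rw [embP_C]; exact U.algebraMap_mem _
    | add p q hp hq => rw [map_add]; exact U.add_mem hp hq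
    | mul_X p i hp =>
      rw [map_mul]
      refine U.mul_mem hp ?_
      fin_cases i
      · exact (embP_0 k j m).symm ▸ U.algebraMap_mem _
      · exact (embP_1 k j m).symm ▸
          U.sub_mem h2 (U.mul_mem (U.pow_mem h0 _) (U.add_mem h0 (U.pow_mem h3 _)))
      · exact (embP_2 k j m).symm ▸ h3
      · exact (embP_3 k j m).symm ▸ Algebra.subset_adjoin (by simp)
      · exact (embP_4 k j m).symm ▸ Algebra.subset_adjoin (by simp)
  · intro ht
    induction ht using Algebra.adjoin_induction with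
    | mem a ha =>
      simp only [Set.mem_insert_iff, Set.mem_singleton_iff] at ha
      rcases ha with rfl | rfl | rfl | rfl | rfl | rfl | rfl
      exacts [⟨_, embP_x k j m⟩, ⟨_, embP_y k j m⟩, ⟨_, embP_z k j m⟩, ⟨_, embP_2 k j m⟩,
        ⟨_, embP_u k j m⟩, ⟨_, embP_3 k j m⟩, ⟨_, embP_4 k j m⟩]
    | algebraMap r =>
      exact algebraMap_Om_mem k (embP k j m).range (fun c => ⟨_, embP_C k j m c⟩) ⟨_, embP_0 k j m⟩ r
    | add a b _ _ ha hb => exact Subring.add_mem _ ha hb
    | mul a b _ _ ha hb => exact Subring.mul_mem _ ha hb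

theorem embP_injective (j m : ℕ) : Function.Injective (embP k j m) := by
  let f : MvPolynomial (Fin 4) (Polynomial k) →+* MvPolynomial (Fin 5) k :=
    eval₂Hom (Polynomial.eval₂RingHom C (X 0)) ![xP k j m, yP k j m, zP k j m, X 2]
  have hp : X 0 ∈ f.range := ⟨C Polynomial.X, by simp [f]⟩
  have he : X 0 ^ m ∈ f.range := f.range.pow_mem hp m
  refine injective_of_satur f _ ?_ _ he ?_ ?_
  · convert map_Om_injective k using 1
    congr 1
    apply MvPolynomial.ringHom_ext'
    · apply Polynomial.ringHom_ext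
      · intro c
        simp [f, embP_C, cO]
        rfl
      · simp [f, embP_0]
    · intro i
      fin_cases i <;> simp [f, embP_x, embP_y, embP_z, embP_2]
  · intro g hg
    exact (mul_eq_zero.1 hg).resolve_left (pow_ne_zero _ (X_ne_zero _))
  · let U := satur f.range _ he
    have hx : xP k j m ∈ U := mem_satur_of_mem ⟨X 0, by simp [f]⟩
    have hy : yP k j m ∈ U := mem_satur_of_mem ⟨X 1, by simp [f]⟩
    have hz : zP k j m ∈ U := mem_satur_of_mem ⟨X 2, by simp [f]⟩
    have hw : X 2 ∈ U := mem_satur_of_mem ⟨X 3, by simp [f]⟩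
    have hs : X 1 ∈ U := by
      have : X 1 = zP k j m - xP k j m ^ j * (xP k j m + X 2 ^ (2 * j)) := by rw [zP]; ring
      rw [this]
      exact U.sub_mem hz (U.mul_mem (U.pow_mem hx _) (U.add_mem hx (U.pow_mem hw _)))
    have hF : X 3 ∈ U := by
      apply mem_satur_of_mul 1
      have : (X 0 ^ m) ^ 1 * X 3 = xP k j m - X 1 ^ 2 + X 2 ^ (2 * j) := by rw [xP]; ring
      rw [this]
      exact U.add_mem (U.sub_mem hx (U.pow_mem hs _)) (U.pow_mem hw _)
    have hJ : X 4 ∈ U := by
      apply mem_satur_of_mul 1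
      have : (X 0 ^ m) ^ 1 * X 4 = yP k j m - X 1 * xP k j m ^ j := by rw [yP]; ring
      rw [this]
      exact U.sub_mem hy (U.mul_mem hs (U.pow_mem hx _))
    intro g
    induction g using MvPolynomial.induction_on with
    | C c => exact mem_satur_of_mem ⟨C (Polynomial.C c), by simp [f]⟩
    | add p q hp hq => exact U.add_mem hp hq
    | mul_X p i hq =>
      refine U.mul_mem hq ?_
      fin_cases i
      exacts [mem_satur_of_mem hp, hs, hw, hF, hJ]

/-- Stable triviality. -/
theorem stable_poly [CharZero k] (j m : ℕ) :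
    ∃ e : Polynomial (Fam (pA k j m)) ≃ₐ[k] MvPolynomial (Fin 5) k,
      e (Polynomial.C (Fam.of _ (X 0))) = X 0 := by
  obtain ⟨Θ, hΘ⟩ := exists_swap (Polynomial.X ^ m : Polynomial k) (iK k m) (iK_spec k m) j (2 * j)
  obtain ⟨e, he⟩ := exists_ringEquiv_of_range (Θ.toRingEquiv.toRingHom.comp (embAw k j m))
    (embP k j m) (Θ.injective.comp (embAw_injective k j m)) (embP_injective k j m) (by
      intro t
      rw [range_embP, ← hΘ, Subalgebra.mem_map]
      constructor
      · rintro ⟨g, rfl⟩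
        exact ⟨embAw k j m g, (range_embAw k j m _).1 ⟨g, rfl⟩, rfl⟩
      · rintro ⟨a, ha, rfl⟩
        obtain ⟨g, rfl⟩ := (range_embAw k j m _).2 ha
        exact ⟨g, rfl⟩)
  refine ⟨AlgEquiv.ofRingEquiv (f := e) fun c => embP_injective k j m ?_,
    embP_injective k j m ?_⟩
  · rw [he, algebraMap_eq, embP_C, RingHom.comp_apply, Polynomial.algebraMap_apply,
      ← Fam.of_algebraMap, embAw_C, embA_of, algebraMap_eq, baseO_C]
    exact Θ.commutes _
  · change embP k j m (e _) = _
    rw [he, embP_0, RingHom.comp_apply, embAw_C, embA_of, baseO_0]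
    exact Θ.commutes _

end final

end Vale.Agent.P295
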